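import Vale.Agent.P310.Code

namespace Vale.Agent.P310
open Finset Function

variable {M : TM} {m p B : ℕ} [Fact p.Prime]

abbrev Itp (M : TM) (m p : ℕ) := Nm M m → (Reg m → ZMod p) → Prop

def SEq (I : Itp M m p) : Prop := ∀ i j a, i ≠ j → (I (.eq i j) a ↔ a i = a j)
def SAdd (I : Itp M m p) : Prop :=
  ∀ i j l a, i ≠ j → i ≠ l → j ≠ l → (I (.add i j l) a ↔ a i + a j = a l)
def SMul (I : Itp M m p) : Prop :=
  ∀ i j l a, i ≠ j → i ≠ l → j ≠ l → i ≠ rw_ → j ≠ rw_ → l ≠ rw_ →
    (I (.mul i j l) a ↔ a i * a j = a l)
def Usr (i : Reg m) : Prop := i ≠ ry ∧ i ≠ rz ∧ i ≠ rw_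
def SLt (I : Itp M m p) : Prop :=
  ∀ i j a, i ≠ j → Usr i → Usr j → (I (.lt i j) a ↔ (a i).val < (a j).val)
def SGe (I : Itp M m p) : Prop :=
  ∀ i j a, i ≠ j → Usr i → Usr j → (I (.ge i j) a ↔ (a j).val ≤ (a i).val)
def SHalf (I : Itp M m p) : Prop :=
  ∀ β a, I (.half β) a ↔ (a rcc).val = 2 * (a rcd).val + β.toNat
def SBit (I : Itp M m p) : Prop :=
  ∀ β a, I (.bit β) a ↔ (a rcc).val.testBit (a rac).val = β

abbrev JJ (M : TM) (m p B : ℕ) : Itp M m p := LF p B (body M m)

lemma sEq : SEq (JJ M m p B) := by
  intro i j a hij
  constructor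
  · intro h
    refine LF.ind (fun n a => match n with | .eq i j => i ≠ j → a i = a j | _ => True) ?_ _ _ h hij
    intro n a h
    cases n with
    | eq i j =>
      intro hij
      simp only [body, Ex.den, den_Zt] at h
      rcases h with h | h
      · rw [h.1, h.2]
      · simpa [hij, hij.symm] using h.2 hij
    | _ => trivial
  · intro h
    have : ∀ (n : ℕ) (a : Reg m → ZMod p), a i + n = 0 → a j + n = 0 → JJ M m p B (.eq i j) a := by
      intro n
      induction n with
      | zero => intro a h1 h2; apply LF.intro; simp_all [body, Ex.den]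
      | succ n ih =>
        intro a h1 h2
        apply LF.intro
        simp only [body, Ex.den]
        right
        apply ih
        · simpa [hij, Sh.val, add_assoc, add_comm (1 : ZMod p)] using h1
        · simpa [hij.symm, Sh.val, add_assoc, add_comm (1 : ZMod p)] using h2
    exact this (-a i).val a (by simp) (by simp [h])

lemma sAdd : SAdd (JJ M m p B) := by
  intro i j l a hij hil hjl
  constructor
  · intro h
    refine LF.ind (fun n a => match n with
      | .add i j l => i ≠ j → i ≠ l → j ≠ l → a i + a j = a l | _ => True) ?_ _ _ h hij hil hjl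
    intro n a h
    cases n with
    | add i j l =>
      intro hij hil hjl
      simp only [body, Ex.den, den_Zt] at h
      rcases h with h | h
      · rw [h.1, add_zero]; exact (sEq i l a hil).1 h.2.1
      · have := h.2 hij hil hjl
        simp only [hij, hil, hjl, hjl.symm, ne_eq, not_false_eq_true, update_of_ne, update_self,
          ← add_assoc] at this
        exact add_right_cancel this
    | _ => trivial
  · intro h
    have : ∀ (n : ℕ) (a : Reg m → ZMod p), a j + n = 0 → a i + a j = a l →
        JJ M m p B (.add i j l) a := by
      intro n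
      induction n with
      | zero =>
        intro a h1 h2
        apply LF.intro
        simp only [body, Ex.den, den_Zt]
        left
        simp only [Nat.cast_zero, add_zero] at h1
        exact ⟨h1, (sEq i l a hil).2 (by simpa [h1] using h2)⟩
      | succ n ih =>
        intro a h1 h2
        apply LF.intro
        simp only [body, Ex.den]
        right
        apply ih
        · simpa [hjl, Sh.val, add_assoc, add_comm (1 : ZMod p)] using h1
        · simp [hij, hil, hjl, hjl.symm, ← h2, add_assoc]
    exact this (-a j).val a (by simp) h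

lemma den_cp {I : Itp M m p} (h : SEq I) {i j : Reg m} (hij : i ≠ j) (e : EE M m)
    (a : Reg m → ZMod p) : (cp i j e).den B I a ↔ e.den B I (update a i (a j)) := by
  simp only [cp, Ex.den, h i j _ hij, update_self, update_of_ne hij.symm]
  simp

lemma sMul : SMul (JJ M m p B) := by
  intro i j l a hij hil hjl hi hj hl
  constructor
  · intro h
    refine LF.ind (fun n a => match n with
      | .mul i j l => i ≠ j → i ≠ l → j ≠ l → i ≠ rw_ → j ≠ rw_ → l ≠ rw_ → a i * a j = a l
      | _ => True) ?_ _ _ h hij hil hjl hi hj hl
    intro n a h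
    cases n with
    | mul i j l =>
      intro hij hil hjl hi hj hl
      simp only [body, Ex.den, den_Zt, cp] at h
      rcases h with h | ⟨x, h1, y, h2, h3⟩
      · rw [h.1, h.2, zero_mul]
      · have e1 := (sAdd _ _ _ _ hjl.symm hl hj).1 h1.1
        have e2 := (sEq _ _ _ hl).1 h2.1
        have e3 := h3.2 hij hil hjl hi hj hl
        simp only [hij, hij.symm, hil, hil.symm, hjl, hi, hj, hl, hl.symm, ne_eq,
          not_false_eq_true, update_of_ne, update_self, Sh.val, Int.cast_one] at e1 e2 e3
        linear_combination e3 + e2 - e1
    | _ => trivial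
  · intro h
    have : ∀ (n : ℕ) (a : Reg m → ZMod p), a i + n = 0 → a i * a j = a l →
        JJ M m p B (.mul i j l) a := by
      intro n
      induction n with
      | zero =>
        intro a h1 h2
        apply LF.intro
        simp only [body, Ex.den, den_Zt]
        left
        simp only [Nat.cast_zero, add_zero] at h1
        exact ⟨h1, by rw [← h2, h1, zero_mul]⟩
      | succ n ih =>
        intro a h1 h2
        apply LF.intro
        simp only [body, Ex.den, den_cp sEq hl]
        right
        refine ⟨a l + a j, (sAdd _ _ _ _ hjl.symm hl hj).2 (by simp [hj, hl]), ih _ ?_ ?_⟩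
        · simpa [hil, hi, Sh.val, add_assoc, add_comm (1 : ZMod p)] using h1
        · simp only [hij.symm, hil, hil.symm, hjl, hi, hj, ne_eq,
            not_false_eq_true, update_of_ne, update_self, Sh.val, Int.cast_one]
          linear_combination h2
    exact this (-a i).val a (by simp) h

lemma den_NZ {I : Itp M m p} (h : SMul I) {i : Reg m} (hi : Usr i) (a : Reg m → ZMod p) :
    (NZ i : EE M m).den B I a ↔ a i ≠ 0 := by
  obtain ⟨h1, h2, h3⟩ := hi
  simp only [NZ, Ex.den, den_isC, update_self,
    h i ry rz _ h1 h2 (by simp) h3 (by simp) (by simp), update_of_ne h1, update_of_ne h2]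
  simp only [ne_eq, Sum.inr.injEq, Fin.reduceEq, not_false_eq_true, update_of_ne, update_self,
    Nat.cast_one, exists_eq_left]
  constructor
  · rintro ⟨x, hx⟩ h0
    simp [h0] at hx
  · exact fun h0 => ⟨(a i)⁻¹, mul_inv_cancel₀ h0⟩

lemma toJ {I0 : Itp M m p} {e : EE M m} {a : Reg m → ZMod p}
    (h : e.den B (fun n a => LF p B (body M m) n a ∧ I0 n a) a) : e.den B (JJ M m p B) a :=
  Ex.den_mono (fun _ _ h => h.1) _ _ h

lemma nz_of {I0 : Itp M m p} {i : Reg m} (hi : Usr i) {a : Reg m → ZMod p}
    (h : (NZ i : EE M m).den B (fun n a => LF p B (body M m) n a ∧ I0 n a) a) : a i ≠ 0 :=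
  (den_NZ sMul hi a).1 (toJ h)

lemma val_pos' {x : ZMod p} : x ≠ 0 ↔ 0 < x.val := by
  rw [Nat.pos_iff_ne_zero, Ne, Ne, ZMod.val_eq_zero]

lemma sLt : SLt (JJ M m p B) := by
  intro i j a hij hi hj
  constructor
  · intro h
    refine LF.ind (fun n a => match n with
      | .lt i j => i ≠ j → Usr i → Usr j → (a i).val < (a j).val | _ => True) ?_ _ _ h hij hi hj
    intro n a h
    cases n with
    | lt i j =>
      intro hij hi hj
      simp only [body, Ex.den, den_Zt] at h
      rcases h with h | ⟨h1, h2, h3⟩
      · rw [h.1, ZMod.val_zero]; exact val_pos'.1 (nz_of hj h.2)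
      · have e := h3.2 hij hi hj
        simp only [hij, hij.symm, ne_eq, not_false_eq_true, update_of_ne, update_self, Sh.val,
          Int.cast_neg, Int.cast_one] at e
        have := val_sub_one (nz_of hi h1)
        have := val_sub_one (nz_of hj h2)
        omega
    | _ => trivial
  · intro h
    have : ∀ (n : ℕ) (a : Reg m → ZMod p), (a i).val = n → (a i).val < (a j).val →
        JJ M m p B (.lt i j) a := by
      intro n
      induction n with
      | zero =>
        intro a h1 h2
        apply LF.intro
        simp only [body, Ex.den, den_Zt, den_NZ sMul hj]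
        exact Or.inl ⟨(ZMod.val_eq_zero _).1 h1, val_pos'.2 (by omega)⟩
      | succ n ih =>
        intro a h1 h2
        apply LF.intro
        simp only [body, Ex.den, den_Zt, den_NZ sMul hj, den_NZ sMul hi]
        have g1 : a i ≠ 0 := val_pos'.2 (by omega)
        have g2 : a j ≠ 0 := val_pos'.2 (by omega)
        have := val_sub_one g1
        have := val_sub_one g2
        refine Or.inr ⟨g1, g2, ih _ ?_ ?_⟩ <;>
          simp only [hij, hij.symm, ne_eq, not_false_eq_true, update_of_ne, update_self, Sh.val,
            Int.cast_neg, Int.cast_one] <;> omega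
    exact this _ a rfl h

lemma sGe : SGe (JJ M m p B) := by
  intro i j a hij hi hj
  constructor
  · intro h
    refine LF.ind (fun n a => match n with
      | .ge i j => i ≠ j → Usr i → Usr j → (a j).val ≤ (a i).val | _ => True) ?_ _ _ h hij hi hj
    intro n a h
    cases n with
    | ge i j =>
      intro hij hi hj
      simp only [body, Ex.den, den_Zt] at h
      rcases h with h | ⟨h1, h2, h3⟩
      · rw [h, ZMod.val_zero]; exact Nat.zero_le _
      · have e := h3.2 hij hi hj
        simp only [hij, hij.symm, ne_eq, not_false_eq_true, update_of_ne, update_self, Sh.val,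
          Int.cast_neg, Int.cast_one] at e
        have := val_sub_one (nz_of hi h1)
        have := val_sub_one (nz_of hj h2)
        omega
    | _ => trivial
  · intro h
    have : ∀ (n : ℕ) (a : Reg m → ZMod p), (a j).val = n → (a j).val ≤ (a i).val →
        JJ M m p B (.ge i j) a := by
      intro n
      induction n with
      | zero =>
        intro a h1 h2
        apply LF.intro
        simp only [body, Ex.den, den_Zt]
        exact Or.inl ((ZMod.val_eq_zero _).1 h1)
      | succ n ih =>
        intro a h1 h2
        apply LF.intro
        simp only [body, Ex.den, den_Zt, den_NZ sMul hj, den_NZ sMul hi]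
        have g1 : a i ≠ 0 := val_pos'.2 (by omega)
        have g2 : a j ≠ 0 := val_pos'.2 (by omega)
        have := val_sub_one g1
        have := val_sub_one g2
        refine Or.inr ⟨g1, g2, ih _ ?_ ?_⟩ <;>
          simp only [hij, hij.symm, ne_eq, not_false_eq_true, update_of_ne, update_self, Sh.val,
            Int.cast_neg, Int.cast_one] <;> omega
    exact this _ a rfl h

lemma usr_cc : Usr (rcc : Reg m) := by simp [Usr]
lemma usr_ac : Usr (rac : Reg m) := by simp [Usr]

lemma val_toNat (β : Bool) : ((β.toNat : ℕ) : ZMod p).val = β.toNat := by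
  have := (Fact.out : p.Prime).two_le
  rw [ZMod.val_natCast, Nat.mod_eq_of_lt]
  cases β <;> simp <;> omega

lemma sHalf : SHalf (JJ M m p B) := by
  intro β a
  have hp := (Fact.out : p.Prime).two_le
  constructor
  · intro h
    refine LF.ind (fun n a => match n with
      | .half β => (a rcc).val = 2 * (a rcd).val + β.toNat | _ => True) ?_ _ _ h
    intro n a h
    cases n with
    | half β =>
      simp only [body, Ex.den, den_Zt, den_isC] at h
      rcases h with h | ⟨h1, h2, h3⟩
      · show (a rcc).val = 2 * (a rcd).val + β.toNat
        rw [h.1, h.2, val_toNat]; simp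
      · have e := h3.2
        replace h1 := nz_of usr_cc h1
        replace h2 := nz_of usr_cc h2
        simp only [ne_eq, Sum.inr.injEq, Fin.reduceEq, not_false_eq_true, update_of_ne, update_self,
          Sh.val, Int.cast_neg, Int.cast_one] at e h2
        have e1 := val_sub_one h1
        have e2 := val_sub_one h2
        have e3 := ZMod.val_lt (a rcc)
        have h4 : a rcd ≠ 0 := by
          intro h0
          rw [h0, zero_add] at e
          have h5 : (-1 : ZMod p).val + 1 = p := by
            obtain ⟨q, rfl⟩ : ∃ q, p = q + 1 := ⟨p - 1, by omega⟩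
            rw [ZMod.val_neg_one]
          omega
        have e4 := val_sub_one h4
        show (a rcc).val = 2 * (a rcd).val + β.toNat
        omega
    | _ => trivial
  · intro h
    have : ∀ (n : ℕ) (a : Reg m → ZMod p), (a rcd).val = n →
        (a rcc).val = 2 * (a rcd).val + β.toNat → JJ M m p B (.half β) a := by
      intro n
      induction n with
      | zero =>
        intro a h1 h2
        apply LF.intro
        simp only [body, Ex.den, den_Zt, den_isC]
        refine Or.inl ⟨ZMod.val_injective p ?_, (ZMod.val_eq_zero _).1 h1⟩
        rw [val_toNat]; omega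
      | succ n ih =>
        intro a h1 h2
        apply LF.intro
        simp only [body, Ex.den, den_Zt, den_NZ sMul usr_cc]
        have g1 : a rcc ≠ 0 := val_pos'.2 (by omega)
        have e1 := val_sub_one g1
        have g2 : a rcc + -1 ≠ 0 := val_pos'.2 (by omega)
        have e2 := val_sub_one g2
        have g3 : a rcd ≠ 0 := val_pos'.2 (by omega)
        have e3 := val_sub_one g3
        refine Or.inr ⟨g1, by simpa [Sh.val] using g2, ih _ ?_ ?_⟩ <;>
          simp only [ne_eq, Sum.inr.injEq, Fin.reduceEq, not_false_eq_true, update_of_ne,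
            update_self, Sh.val, Int.cast_neg, Int.cast_one] <;> omega
    exact this _ a rfl h

lemma testBit_zero_of {x y : ℕ} {β : Bool} (h : x = 2 * y + β.toNat) : x.testBit 0 = β := by
  subst h
  cases β <;> simp [Nat.testBit_zero, Nat.add_mod]

lemma sBit : SBit (JJ M m p B) := by
  intro β a
  constructor
  · intro h
    refine LF.ind (fun n a => match n with
      | .bit β => (a rcc).val.testBit (a rac).val = β | _ => True) ?_ _ _ h
    intro n a h
    cases n with
    | bit β =>
      simp only [body, Ex.den, den_Zt, cp] at h
      show (a rcc).val.testBit (a rac).val = β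
      rcases h with ⟨h1, x, h2, -⟩ | ⟨h1, x, h2, y, h3, -, h4⟩
      · have := (sHalf _ _).1 h2
        simp only [ne_eq, Sum.inr.injEq, Fin.reduceEq, not_false_eq_true, update_of_ne,
          update_self] at this
        rw [h1, ZMod.val_zero]
        exact testBit_zero_of this
      · have e1 := (sEq _ _ _ (by simp)).1 h3.1
        have e2 : (a rcc).val / 2 = x.val := by
          rcases h2 with h2 | h2 <;> have := (sHalf _ _).1 h2.1 <;>
            simp only [ne_eq, Sum.inr.injEq, Fin.reduceEq, not_false_eq_true, update_of_ne,
              update_self, Bool.toNat_false, Bool.toNat_true] at this <;> omega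
        simp only [ne_eq, Sum.inr.injEq, Fin.reduceEq, not_false_eq_true, update_of_ne,
          update_self, Sh.val, Int.cast_neg, Int.cast_one] at e1 h4
        rw [← val_sub_one (nz_of usr_ac h1), Nat.testBit_succ, e2, ← e1, h4]
    | _ => trivial
  · intro h
    have : ∀ (n : ℕ) (a : Reg m → ZMod p), (a rac).val = n →
        (a rcc).val.testBit (a rac).val = β → JJ M m p B (.bit β) a := by
      intro n
      have hv : ∀ x : ZMod p, ((x.val / 2 : ℕ) : ZMod p).val = x.val / 2 := fun x => by
        rw [ZMod.val_natCast, Nat.mod_eq_of_lt]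
        have := ZMod.val_lt x
        omega
      induction n with
      | zero =>
        intro a h1 h2
        apply LF.intro
        simp only [body, Ex.den, den_Zt]
        refine Or.inl ⟨(ZMod.val_eq_zero _).1 h1, ((a rcc).val / 2 : ℕ), (sHalf _ _).2 ?_⟩
        simp only [ne_eq, Sum.inr.injEq, Fin.reduceEq, not_false_eq_true, update_of_ne,
          update_self, hv]
        rw [h1, Nat.testBit_zero] at h2
        subst h2
        rcases Nat.mod_two_eq_zero_or_one (a rcc).val with h | h <;> simp [h] <;> omega
      | succ n ih =>
        intro a h1 h2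
        apply LF.intro
        simp only [body, Ex.den, den_Zt, den_NZ sMul usr_ac, den_cp sEq (by simp : rcc ≠ rcd)]
        have g1 : a rac ≠ 0 := val_pos'.2 (by omega)
        have e1 := val_sub_one g1
        refine Or.inr ⟨g1, ((a rcc).val / 2 : ℕ), ?_, ih _ ?_ ?_⟩
        · refine (or_congr (sHalf _ _) (sHalf _ _)).2 ?_
          simp only [ne_eq, Sum.inr.injEq, Fin.reduceEq, not_false_eq_true, update_of_ne,
            update_self, hv, Bool.toNat_false, Bool.toNat_true]
          omega
        · simp only [ne_eq, Sum.inr.injEq, Fin.reduceEq, not_false_eq_true, update_of_ne,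
            update_self, Sh.val, Int.cast_neg, Int.cast_one]
          omega
        · simp only [ne_eq, Sum.inr.injEq, Fin.reduceEq, not_false_eq_true, update_of_ne,
            update_self, Sh.val, Int.cast_neg, Int.cast_one, hv]
          rw [← h2, ← e1, Nat.testBit_succ]
    exact this _ a rfl h

structure Low (I : Itp M m p) : Prop where
  eq : SEq I
  add : SAdd I
  mul : SMul I
  lt : SLt I
  ge : SGe I
  bit : SBit I

lemma low_J : Low (JJ M m p B) := ⟨sEq, sAdd, sMul, sLt, sGe, sBit⟩

end Vale.Agent.P310
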