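import Vale.Agent.P310.WL

namespace Vale.Agent.P310
open Finset Function

/-- A translation-structured system of three-variable parity rows. -/
structure RSys (VT RT Z : Type) where
  slot : RT → Fin 3 → VT
  off : RT → Fin 3 → Z
  sp : RT → Prop
  rhs : RT → ZMod 2
  N : ℕ
  code : VT ⊕ RT → ℕ
  code_inj : Injective code
  code_le : ∀ s, code s + 2 ≤ N
  slot_inj : ∀ ρ, Injective (slot ρ)

abbrev BV (VT RT : Type) := (VT × ZMod 2) ⊕ (RT × ZMod 2 × ZMod 2)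

def BV.site {VT RT : Type} : BV VT RT → VT ⊕ RT
  | Sum.inl a => Sum.inl a.1
  | Sum.inr a => Sum.inr a.1

abbrev TT (VT RT : Type) (N : ℕ) := BV VT RT × Option (Fin N)

abbrev Vx (VT RT Z D : Type) (N : ℕ) := (TT VT RT N ⊕ D) × Z

variable {VT RT Z D : Type} [AddCommGroup Z] (S : RSys VT RT Z)

def RSys.bit (g : ZMod 2) (ρ : RT) (a : ZMod 2 × ZMod 2) : Fin 3 → ZMod 2 :=
  ![a.1, a.2, a.1 + a.2 + g * S.rhs ρ]

def RSys.var (ρ : RT) (v : Z) (i : Fin 3) : VT × Z := (S.slot ρ i, v + S.off ρ i)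

def RSys.nl (b : BV VT RT) (v : Z) : Vx VT RT Z D S.N := (Sum.inl (b, none), v)
def RSys.lf (b : BV VT RT) (i : Fin S.N) (v : Z) : Vx VT RT Z D S.N := (Sum.inl (b, some i), v)
def RSys.vv (z : VT × Z) (b : ZMod 2) : Vx VT RT Z D S.N := S.nl (Sum.inl (z.1, b)) z.2
def RSys.rv (ρ : RT) (a : ZMod 2 × ZMod 2) (v : Z) : Vx VT RT Z D S.N := S.nl (Sum.inr (ρ, a)) v

def RSys.D0 (g : ZMod 2) (u u' : Vx VT RT Z D S.N) : Prop :=
  (∃ ρ a v i, u = S.rv ρ a v ∧ u' = S.vv (S.var ρ v i) (S.bit g ρ a i) ∧ (S.sp ρ → v = 0)) ∨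
  (∃ b v i, u = S.nl b v ∧ u' = S.lf b i v ∧ (i : ℕ) < S.code b.site + 2)

def RSys.Gr (D : Type) (g : ZMod 2) : SimpleGraph (Vx VT RT Z D S.N) where
  Adj u u' := S.D0 g u u' ∨ S.D0 g u' u
  symm := ⟨fun _ _ h => h.symm⟩
  loopless := ⟨by
    intro u h
    have : S.D0 g u u := h.elim id id
    rcases this with ⟨ρ, a, v, i, h1, h2, -⟩ | ⟨b, v, i, h1, h2, -⟩
    · rw [h1] at h2; simp [RSys.rv, RSys.vv, RSys.nl] at h2
    · rw [h1] at h2; simp [RSys.lf, RSys.nl] at h2⟩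

namespace RSys

lemma adj_lf {g : ZMod 2} {b : BV VT RT} {i : Fin S.N} {v : Z} {y : Vx VT RT Z D S.N} :
    (S.Gr D g).Adj (S.lf b i v) y ↔ y = S.nl b v ∧ (i : ℕ) < S.code b.site + 2 := by
  constructor
  · rintro (h | h)
    · rcases h with ⟨ρ, a, v, i, h1, h2, -⟩ | ⟨b, v, i, h1, h2, -⟩
      · simp [RSys.rv, RSys.lf, RSys.nl] at h1
      · simp [RSys.lf, RSys.nl] at h1
    · rcases h with ⟨ρ, a, v, i, h1, h2, -⟩ | ⟨b', v', i', h1, h2, h3⟩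
      · simp [RSys.vv, RSys.lf, RSys.nl] at h2
      · simp only [RSys.lf, Prod.mk.injEq, Sum.inl.injEq, Option.some.injEq] at h2
        obtain ⟨⟨rfl, rfl⟩, rfl⟩ := h2
        exact ⟨h1, h3⟩
  · rintro ⟨rfl, h⟩
    exact Or.inr (Or.inr ⟨b, v, i, rfl, rfl, h⟩)

lemma not_adj_dummy {g : ZMod 2} {d : D} {v : Z} {y : Vx VT RT Z D S.N} :
    ¬ (S.Gr D g).Adj (Sum.inr d, v) y := by
  rintro (h | h)
  · rcases h with ⟨ρ, a, v, i, h1, h2, -⟩ | ⟨b, v, i, h1, h2, -⟩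
    · simp [RSys.rv, RSys.nl] at h1
    · simp [RSys.nl] at h1
  · rcases h with ⟨ρ, a, v, i, h1, h2, -⟩ | ⟨b', v', i', h1, h2, h3⟩
    · simp [RSys.vv, RSys.nl] at h2
    · simp [RSys.lf] at h2

lemma adj_nl {g : ZMod 2} {b : BV VT RT} {v : Z} {y : Vx VT RT Z D S.N}
    (h : (S.Gr D g).Adj (S.nl b v) y) :
    (∃ i : Fin S.N, y = S.lf b i v ∧ (i : ℕ) < S.code b.site + 2) ∨ ∃ b' v', y = S.nl b' v' := by
  rcases h with h | h
  · rcases h with ⟨ρ, a, v, i, h1, h2, -⟩ | ⟨b', v', i, h1, h2, h3⟩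
    · exact Or.inr ⟨_, _, h2⟩
    · simp only [RSys.nl, Prod.mk.injEq, Sum.inl.injEq, and_true] at h1
      obtain ⟨rfl, rfl⟩ := h1
      exact Or.inl ⟨i, h2, h3⟩
  · rcases h with ⟨ρ, a, v, i, h1, h2, -⟩ | ⟨b', v', i', h1, h2, h3⟩
    · exact Or.inr ⟨_, _, h1⟩
    · simp [RSys.lf, RSys.nl] at h2

lemma adj_rv_vv {g : ZMod 2} {ρ : RT} {a : ZMod 2 × ZMod 2} {v : Z} {z : VT × Z} {b : ZMod 2} :
    (S.Gr D g).Adj (S.rv ρ a v) (S.vv z b) ↔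
      (∃ i, z = S.var ρ v i ∧ b = S.bit g ρ a i) ∧ (S.sp ρ → v = 0) := by
  constructor
  · rintro (h | h)
    · rcases h with ⟨ρ', a', v', i, h1, h2, h3⟩ | ⟨b', v', i, h1, h2, h3⟩
      · simp only [RSys.rv, RSys.nl, Prod.mk.injEq, Sum.inl.injEq, Sum.inr.injEq, and_true] at h1
        obtain ⟨⟨rfl, rfl⟩, rfl⟩ := h1
        simp only [RSys.vv, RSys.nl, Prod.mk.injEq, Sum.inl.injEq, and_true] at h2
        exact ⟨⟨i, Prod.ext h2.1.1 h2.2, h2.1.2⟩, h3⟩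
      · simp [RSys.vv, RSys.lf, RSys.nl] at h2
    · rcases h with ⟨ρ', a', v', i, h1, h2, h3⟩ | ⟨b', v', i, h1, h2, h3⟩
      · simp [RSys.vv, RSys.rv, RSys.nl] at h1
      · simp [RSys.rv, RSys.lf, RSys.nl] at h2
  · rintro ⟨⟨i, rfl, rfl⟩, h⟩
    exact Or.inl (Or.inl ⟨ρ, a, v, i, rfl, rfl, h⟩)

variable [Fintype VT] [Fintype RT] [Fintype Z] [Fintype D]

lemma two_le_N (b : BV VT RT) : 2 ≤ S.N := le_trans (by omega) (S.code_le b.site)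

lemma dg_nl (g : ZMod 2) (b : BV VT RT) (v : Z) : dg (S.Gr D g) (S.nl b v) ≠ 1 := by
  have hN := S.two_le_N b
  have : 1 < dg (S.Gr D g) (S.nl b v) := by
    unfold dg nb
    rw [Finite.one_lt_card_iff_nontrivial]
    refine ⟨⟨S.lf b ⟨0, by omega⟩ v, (S.adj_lf.2 ⟨rfl, by simp⟩).symm, trivial⟩,
      ⟨S.lf b ⟨1, by omega⟩ v, (S.adj_lf.2 ⟨rfl, by simp⟩).symm, trivial⟩, ?_⟩
    simp [RSys.lf]
  omega

lemma dg_lf (g : ZMod 2) (b : BV VT RT) (v : Z) (i : Fin S.N)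
    (hi : (i : ℕ) < S.code b.site + 2) : dg (S.Gr D g) (S.lf b i v) = 1 := by
  unfold dg nb
  rw [Nat.card_eq_one_iff_unique]
  refine ⟨⟨fun y y' => Subtype.ext ?_⟩, ⟨⟨S.nl b v, S.adj_lf.2 ⟨rfl, hi⟩, trivial⟩⟩⟩
  rw [(S.adj_lf.1 y.2.1).1, (S.adj_lf.1 y'.2.1).1]

lemma lam_nl (g : ZMod 2) (b : BV VT RT) (v : Z) :
    lam (S.Gr D g) (S.nl b v) = S.code b.site + 2 := by
  unfold lam nb
  have : Nat.card {i : Fin S.N // (i : ℕ) < S.code b.site + 2} = S.code b.site + 2 := by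
    rw [Nat.card_eq_fintype_card]
    exact Fintype.card_fin_lt_of_le (S.code_le _)
  rw [← this]
  symm
  refine Nat.card_eq_of_bijective (fun i => ⟨S.lf b i.1 v, (S.adj_lf.2 ⟨rfl, i.2⟩).symm,
    S.dg_lf g b v i.1 i.2⟩) ⟨?_, ?_⟩
  · intro i j h
    simp only [RSys.lf, Subtype.mk.injEq, Prod.mk.injEq, Sum.inl.injEq, Option.some.injEq,
      true_and, and_true] at h
    exact Subtype.ext h
  · rintro ⟨y, h1, h2⟩
    rcases S.adj_nl h1 with ⟨i, rfl, hi⟩ | ⟨b', v', rfl⟩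
    · exact ⟨⟨i, hi⟩, rfl⟩
    · exact absurd h2 (S.dg_nl g b' v')

lemma of_lam (g : ZMod 2) (u : Vx VT RT Z D S.N) (s : VT ⊕ RT)
    (h : lam (S.Gr D g) u = S.code s + 2) : ∃ b v, u = S.nl b v ∧ b.site = s := by
  obtain ⟨(⟨b, _ | i⟩ | d), v⟩ := u
  · refine ⟨b, v, rfl, S.code_inj ?_⟩
    have := S.lam_nl (D := D) g b v
    unfold RSys.nl at this
    omega
  · exfalso
    have : lam (S.Gr D g) (S.lf b i v) = 0 := by
      unfold lam nb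
      rw [Nat.card_eq_zero]
      left
      refine ⟨fun y => ?_⟩
      have h1 := (S.adj_lf.1 y.2.1).1
      have h2 := y.2.2
      rw [h1] at h2
      exact S.dg_nl g b v h2
    unfold RSys.lf at this
    omega
  · exfalso
    have : lam (S.Gr D g) (Sum.inr d, v) = 0 := by
      unfold lam nb
      rw [Nat.card_eq_zero]
      left
      exact ⟨fun y => S.not_adj_dummy y.2.1⟩
    omega

end RSys

end Vale.Agent.P310
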