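import Mathlib

namespace Vale.Agent.P310

/-- Colours of `k`-tuples after `r` rounds. -/
def Col (k : ℕ) : ℕ → Type
  | 0 => Fin k → Fin k → Prop × Prop
  | r + 1 => Col k r × Multiset (Fin k → Col k r)

/-- Joint-update `k`-dimensional Weisfeiler-Leman colour of the tuple `x` after `r` rounds. -/
noncomputable def col {V : Type} [Fintype V] (G : SimpleGraph V) (k : ℕ) :
    (r : ℕ) → (Fin k → V) → Col k r
  | 0, x => fun i j => (x i = x j, G.Adj (x i) (x j))
  | r + 1, x => (col G k r x,
      (Finset.univ : Finset V).val.map (fun y => fun i => col G k r (Function.update x i y)))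

/-- `k`-WL equivalence. -/
def WLEq {V W : Type} [Fintype V] [Fintype W] (k : ℕ) (G : SimpleGraph V) (H : SimpleGraph W) :
    Prop :=
  ∀ r : ℕ, (Finset.univ : Finset (Fin k → V)).val.map (col G k r)
    = (Finset.univ : Finset (Fin k → W)).val.map (col H k r)

/-- Head moves. -/
inductive Move
  | left
  | stay
  | right

/-- Effect of a move on a one-way infinite tape. -/
def Move.act : Move → ℕ → ℕ
  | Move.left, h => h - 1
  | Move.stay, h => h
  | Move.right, h => h + 1

/-- Deterministic multitape Turing machine with `w + 1` tapes; tape `0` holds the input. -/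
structure TM where
  w : ℕ
  nq : ℕ
  ng : ℕ
  start : Fin nq
  blank : Fin ng
  sym : Bool → Fin ng
  out : Fin nq → Option Bool
  δ : Fin nq → (Fin (w + 1) → Fin ng) → Fin nq × (Fin (w + 1) → Fin ng × Move)

/-- Configurations. -/
structure Cfg (M : TM) where
  state : Fin M.nq
  head : Fin (M.w + 1) → ℕ
  tape : Fin (M.w + 1) → ℕ → Fin M.ng

/-- One step; halting states do not move. -/
def step (M : TM) (c : Cfg M) : Cfg M :=
  if M.out c.state = none then
    let d := M.δ c.state (fun j => c.tape j (c.head j))
    { state := d.1
      head := fun j => (d.2 j).2.act (c.head j)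
      tape := fun j => Function.update (c.tape j) (c.head j) (d.2 j).1 }
  else c

/-- Initial configuration on a bit string. -/
def init (M : TM) (x : List Bool) : Cfg M :=
  { state := M.start
    head := fun _ => 0
    tape := fun j h => if j = 0 then ((x.map M.sym)[h]?).getD M.blank else M.blank }

/-- Output after `t` steps (`none` when the machine has not halted). -/
def run (M : TM) (x : List Bool) (t : ℕ) : Option Bool :=
  M.out ((step M)^[t] (init M x)).state

open Classical in
/-- Adjacency matrix, row by row. -/
noncomputable def adjBits {n : ℕ} (G : SimpleGraph (Fin n)) : List Bool :=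
  (List.finRange n).flatMap (fun u => (List.finRange n).map (fun v => decide (G.Adj u v)))

/-- Input string of a pair of graphs. -/
noncomputable def enc2 {n : ℕ} (G H : SimpleGraph (Fin n)) : List Bool :=
  adjBits G ++ adjBits H

/-- `M` decides `k`-WL equivalence of pairs of graphs with the same number of vertices. -/
def Decides (M : TM) (k : ℕ) : Prop :=
  ∀ (n : ℕ) (G H : SimpleGraph (Fin n)), ∃ (t : ℕ) (b : Bool),
    run M (enc2 G H) t = some b ∧ (b = true ↔ WLEq k G H)

end Vale.Agent.P310
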