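import Vale.Agent.P310.Comb
import Vale.Agent.P310.Defs

namespace Vale.Agent.P310
open Finset Function

/-- registers: two blocks of `m + 5` digits and thirteen scalars -/
abbrev Reg (m : ℕ) := (Bool × Fin (m + 5)) ⊕ Fin 13

variable {m : ℕ}

abbrev rc : Reg m := Sum.inr 0
abbrev ry : Reg m := Sum.inr 1
abbrev rz : Reg m := Sum.inr 2
abbrev rw_ : Reg m := Sum.inr 3
abbrev rbq : Reg m := Sum.inr 4
abbrev rb1 : Reg m := Sum.inr 5
abbrev rb2 : Reg m := Sum.inr 6
abbrev rcc : Reg m := Sum.inr 7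
abbrev rcd : Reg m := Sum.inr 8
abbrev rac : Reg m := Sum.inr 9
abbrev rdl : Reg m := Sum.inr 10
abbrev rt1 : Reg m := Sum.inr 11
abbrev rt2 : Reg m := Sum.inr 12

inductive Nm (M : TM) (m : ℕ)
  | eq : Reg m → Reg m → Nm M m
  | add : Reg m → Reg m → Reg m → Nm M m
  | mul : Reg m → Reg m → Reg m → Nm M m
  | lt : Reg m → Reg m → Nm M m
  | ge : Reg m → Reg m → Nm M m
  | half : Bool → Nm M m
  | bit : Bool → Nm M m
  | st : Fin M.nq → Nm M m
  | hd : Fin (M.w + 1) → Nm M m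
  | cl : Fin (M.w + 1) → Fin M.ng → Nm M m
  | start : Nm M m

variable {M : TM}

def Nm.dec (t : Fin 11 × Reg m × Reg m × Reg m × Bool × Fin M.nq × Fin (M.w + 1) × Fin M.ng) :
    Nm M m :=
  ![Nm.eq t.2.1 t.2.2.1, Nm.add t.2.1 t.2.2.1 t.2.2.2.1, Nm.mul t.2.1 t.2.2.1 t.2.2.2.1,
    Nm.lt t.2.1 t.2.2.1, Nm.ge t.2.1 t.2.2.1, Nm.half t.2.2.2.2.1, Nm.bit t.2.2.2.2.1,
    Nm.st t.2.2.2.2.2.1, Nm.hd t.2.2.2.2.2.2.1, Nm.cl t.2.2.2.2.2.2.1 t.2.2.2.2.2.2.2,
    Nm.start] t.1

lemma Nm.dec_surj : Surjective (Nm.dec (M := M) (m := m)) := by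
  intro n
  cases n with
  | eq i j => exact ⟨(0, i, j, i, true, M.start, 0, M.blank), rfl⟩
  | add i j l => exact ⟨(1, i, j, l, true, M.start, 0, M.blank), rfl⟩
  | mul i j l => exact ⟨(2, i, j, l, true, M.start, 0, M.blank), rfl⟩
  | lt i j => exact ⟨(3, i, j, i, true, M.start, 0, M.blank), rfl⟩
  | ge i j => exact ⟨(4, i, j, i, true, M.start, 0, M.blank), rfl⟩
  | half b => exact ⟨(5, rc, rc, rc, b, M.start, 0, M.blank), rfl⟩
  | bit b => exact ⟨(6, rc, rc, rc, b, M.start, 0, M.blank), rfl⟩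
  | st q => exact ⟨(7, rc, rc, rc, true, q, 0, M.blank), rfl⟩
  | hd j => exact ⟨(8, rc, rc, rc, true, M.start, j, M.blank), rfl⟩
  | cl j g => exact ⟨(9, rc, rc, rc, true, M.start, j, g), rfl⟩
  | start => exact ⟨(10, rc, rc, rc, true, M.start, 0, M.blank), rfl⟩

noncomputable instance : Fintype (Nm M m) := by
  classical exact Fintype.ofSurjective _ Nm.dec_surj

abbrev EE (M : TM) (m : ℕ) := Ex (Nm M m) (Reg m)

noncomputable def NZ (i : Reg m) : EE M m :=
  .ex ry (.ex rz (.and (isC rz 1) (.call (.mul i ry rz))))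
def cp (i j : Reg m) (e : EE M m) : EE M m := .ex i (.and (.call (.eq i j)) e)
def hor (x : Reg m) (e : EE M m) : EE M m :=
  .ex rt1 (.and (.call (.mul rac rbq rt1)) (.ex rac (.and (.call (.add rt1 x rac)) e)))

abbrev dH (d : Fin (m + 5)) : Reg m := Sum.inl (true, d)

noncomputable def Tv (β : Bool) (ω : ℕ) (τ τ' : Fin (m + 5)) : EE M m :=
  .ex rb1 (.and (.sh rb1 Sh.big (Zt rb1)) (cp rb2 rb1 (.ex rbq (.and (.call (.mul rb1 rb2 rbq))
    (.or (.and (.call (.lt (dH τ) rbq)) (.and (.call (.lt (dH τ') rbq)) (.and (.call (.lt rdl rbq))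
      (cp rac rdl (hor (dH τ') (hor (dH τ) (hor (dH 4) (.ex rt2 (.and (isC rt2 ω)
        (hor rt2 (cp rcc rc (.call (.bit β)))))))))))))
      (.and (cnd (β = false)) (.or (.call (.ge (dH τ) rbq)) (.or (.call (.ge (dH τ') rbq))
        (.call (.ge rdl rbq))))))))))

noncomputable def Dw (β : Bool) (ω : ℕ) (s : Reg m) (τ τ' v' : Fin (m + 5)) : EE M m :=
  .ex rdl (.and (.call (.add s rdl (dH v'))) (Tv β ω τ τ'))

noncomputable def Dv (β : Bool) (τ v τ' v' : Fin (m + 5)) : EE M m :=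
  if β then .or (Dw true 0 (dH v) τ τ' v') (.and (Zt (dH v))
    (.or (Dw true 1 (dH v) τ τ' v') (Dw true 2 rc τ τ' v')))
  else .and (Dw false 0 (dH v) τ τ' v') (.or (NZ (dH v))
    (.and (Dw false 1 (dH v) τ τ' v') (Dw false 2 rc τ τ' v')))

noncomputable def Adjv (β : Bool) : EE M m :=
  if β then .or (Dv true 3 2 1 0) (Dv true 1 0 3 2) else .and (Dv false 3 2 1 0) (Dv false 1 0 3 2)

noncomputable def blkL (b : Bool) : List (Reg m) := (univ.image fun d => Sum.inl (b, d)).toList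
noncomputable def lowL (b : Bool) (i : Fin (m + 5)) : List (Reg m) :=
  ((univ.filter fun d => d ≤ i).image fun d => Sum.inl (b, d)).toList

noncomputable def zeroB (b : Bool) : EE M m := andF fun d => Zt (Sum.inl (b, d))
noncomputable def topB (b : Bool) (i : Fin (m + 5)) : EE M m :=
  .and (andF fun d => .or (cnd (¬ d < i)) (Zt (Sum.inl (b, d)))) (NZ (Sum.inl (b, i)))
noncomputable def predB (b : Bool) (e : EE M m) : EE M m :=
  orF fun i => .and (topB b i) (shL (lowL b i) Sh.mone e)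
noncomputable def succB (b : Bool) (e : EE M m) : EE M m :=
  orF fun i => shL (lowL b i) Sh.one (.and (topB b i) e)

/-- effective transition -/
def dlt (M : TM) (q : Fin M.nq) (s : Fin (M.w + 1) → Fin M.ng) :
    Fin M.nq × (Fin (M.w + 1) → Fin M.ng × Move) :=
  if M.out q = none then M.δ q s else (q, fun j => (s j, Move.stay))

noncomputable def Scan (q : Fin M.nq) (s : Fin (M.w + 1) → Fin M.ng) : EE M m :=
  .and (.call (.st q)) (andF fun j => exs (blkL true) (.and (.call (.hd j)) (.call (.cl j (s j)))))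

noncomputable def mvE (j : Fin (M.w + 1)) : Move → EE M m
  | Move.stay => .call (.hd j)
  | Move.right => predB true (.call (.hd j))
  | Move.left => .or (.and (zeroB true) (.call (.hd j))) (succB true (.call (.hd j)))

noncomputable def other (j : Fin (M.w + 1)) : EE M m :=
  orF fun d => cp rt1 (dH d) (exs (blkL true) (.and
    (.ex rt2 (.and (.call (.add rt1 rt2 (dH d))) (NZ rt2))) (.call (.hd j))))

noncomputable def inR : EE M m :=
  .and (andF fun d : Fin m => Zt (dH d.succ.succ.succ.succ.succ)) (.or (isC (dH 4) 0) (isC (dH 4) 1))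
noncomputable def outR : EE M m :=
  .or (orF fun d : Fin m => NZ (dH d.succ.succ.succ.succ.succ))
    (.and (NZ (dH 4)) (.sh (dH 4) Sh.mone (NZ (dH 4))))

noncomputable def InitE (j : Fin (M.w + 1)) (g : Fin M.ng) : EE M m :=
  .or (.and (cnd (j = 0)) (.and inR (orF fun b => .and (cnd (M.sym b = g)) (Adjv b))))
    (.and (cnd (g = M.blank)) (.or (cnd (j ≠ 0)) outR))

noncomputable def body (M : TM) (m : ℕ) : Nm M m → EE M m
  | .eq i j => .or (.and (Zt i) (Zt j)) (.sh i Sh.one (.sh j Sh.one (.call (.eq i j))))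
  | .add i j l => .or (.and (Zt j) (.call (.eq i l)))
      (.sh j Sh.one (.sh l Sh.one (.call (.add i j l))))
  | .mul i j l => .or (.and (Zt i) (Zt l)) (.ex rw_ (.and (.call (.add l j rw_))
      (cp l rw_ (.sh i Sh.one (.call (.mul i j l))))))
  | .lt i j => .or (.and (Zt i) (NZ j)) (.and (NZ i) (.and (NZ j)
      (.sh i Sh.mone (.sh j Sh.mone (.call (.lt i j))))))
  | .ge i j => .or (Zt j) (.and (NZ i) (.and (NZ j)
      (.sh i Sh.mone (.sh j Sh.mone (.call (.ge i j))))))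
  | .half β => .or (.and (isC rcc β.toNat) (Zt rcd)) (.and (NZ rcc) (.sh rcc Sh.mone
      (.and (NZ rcc) (.sh rcc Sh.mone (.sh rcd Sh.mone (.call (.half β)))))))
  | .bit β => .or (.and (Zt rac) (.ex rcd (.call (.half β)))) (.and (NZ rac) (.sh rac Sh.mone
      (.ex rcd (.and (.or (.call (.half false)) (.call (.half true)))
        (cp rcc rcd (.call (.bit β)))))))
  | .st q' => .or (.and (zeroB false) (cnd (q' = M.start))) (predB false
      (orF fun s : Fin M.nq × (Fin (M.w + 1) → Fin M.ng) =>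
        .and (cnd ((dlt M s.1 s.2).1 = q')) (Scan s.1 s.2)))
  | .hd j => .or (.and (zeroB false) (zeroB true)) (predB false
      (orF fun s : Fin M.nq × (Fin (M.w + 1) → Fin M.ng) =>
        .and (Scan s.1 s.2) (mvE j ((dlt M s.1 s.2).2 j).2)))
  | .cl j g => .or (.and (zeroB false) (InitE j g)) (predB false
      (.or (.and (.call (.cl j g)) (other j)) (.and (.call (.hd j))
        (orF fun s : Fin M.nq × (Fin (M.w + 1) → Fin M.ng) =>
          .and (cnd (((dlt M s.1 s.2).2 j).1 = g)) (Scan s.1 s.2)))))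
  | .start => exs (blkL false) (orF fun q => .and (cnd (M.out q = some true)) (.call (.st q)))

end Vale.Agent.P310
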