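import Vale.Agent.P310.Prog

namespace Vale.Agent.P310
open Finset Function

variable {N Rg : Type} [DecidableEq Rg] {p B : ℕ} {I : N → (Rg → ZMod p) → Prop}

def exs (l : List Rg) (e : Ex N Rg) : Ex N Rg := l.foldr Ex.ex e

lemma den_exs (l : List Rg) (e : Ex N Rg) (a : Rg → ZMod p) :
    (exs l e).den B I a ↔ ∃ a', (∀ r, r ∉ l → a' r = a r) ∧ e.den B I a' := by
  induction l generalizing a with
  | nil =>
    constructor
    · exact fun h => ⟨a, fun _ _ => rfl, h⟩
    · rintro ⟨a', h1, h2⟩
      have : a' = a := funext fun r => h1 r (by simp)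
      exact this ▸ h2
  | cons i l ih =>
    simp only [exs, List.foldr_cons, Ex.den]
    constructor
    · rintro ⟨x, hx⟩
      obtain ⟨a', h1, h2⟩ := (ih _).1 hx
      refine ⟨a', fun r hr => ?_, h2⟩
      simp only [List.mem_cons, not_or] at hr
      rw [h1 r hr.2, update_of_ne hr.1]
    · rintro ⟨a', h1, h2⟩
      refine ⟨a' i, (ih _).2 ⟨a', fun r hr => ?_, h2⟩⟩
      by_cases h : r = i
      · subst h; simp
      · rw [update_of_ne h, h1 r (by simp [h, hr])]

def shL (l : List Rg) (s : Sh) (e : Ex N Rg) : Ex N Rg := l.foldr (fun i e => Ex.sh i s e) e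

lemma den_shL (l : List Rg) (hl : l.Nodup) (s : Sh) (e : Ex N Rg) (a : Rg → ZMod p) :
    (shL l s e).den B I a ↔
      e.den B I (fun r => if r ∈ l then a r + (s.val B : ZMod p) else a r) := by
  induction l generalizing a with
  | nil => simp [shL]
  | cons i l ih =>
    rw [List.nodup_cons] at hl
    simp only [shL, List.foldr_cons, Ex.den]
    refine (ih hl.2 _).trans (iff_of_eq (congrArg _ ?_))
    funext r
    by_cases h : r = i
    · subst h; simp [hl.1]
    · simp [h]

variable [Fintype Rg]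

noncomputable def Zt (i : Rg) : Ex N Rg := exs (univ.erase i).toList Ex.acc
noncomputable def tt : Ex N Rg := exs (univ : Finset Rg).toList Ex.acc

@[simp] lemma den_Zt (i : Rg) (a : Rg → ZMod p) : (Zt i : Ex N Rg).den B I a ↔ a i = 0 := by
  rw [Zt, den_exs]
  constructor
  · rintro ⟨a', h1, h2⟩
    obtain rfl : a' = 0 := h2
    exact (h1 i (by simp)).symm
  · intro h
    refine ⟨0, fun r hr => ?_, rfl⟩
    have : r = i := by simpa using hr
    rw [this, h]; rfl

@[simp] lemma den_tt (a : Rg → ZMod p) : (tt : Ex N Rg).den B I a ↔ True := by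
  rw [tt, den_exs]
  simp only [iff_true]
  exact ⟨0, fun r hr => by simp at hr, rfl⟩

noncomputable def orF {ι : Type} [Fintype ι] (f : ι → Ex N Rg) : Ex N Rg :=
  ((univ : Finset ι).toList.map f).foldr Ex.or Ex.ff
noncomputable def andF {ι : Type} [Fintype ι] (f : ι → Ex N Rg) : Ex N Rg :=
  ((univ : Finset ι).toList.map f).foldr Ex.and tt

omit [Fintype Rg] in
@[simp] lemma den_orF {ι : Type} [Fintype ι] (f : ι → Ex N Rg) (a : Rg → ZMod p) :
    (orF f).den B I a ↔ ∃ i, (f i).den B I a := by
  have : ∀ l : List (Ex N Rg), (l.foldr Ex.or Ex.ff).den B I a ↔ ∃ e ∈ l, e.den B I a := by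
    intro l
    induction l with
    | nil => simp [Ex.den]
    | cons e l ih => simp [Ex.den, ih]
  rw [orF, this]
  simp

@[simp] lemma den_andF {ι : Type} [Fintype ι] (f : ι → Ex N Rg) (a : Rg → ZMod p) :
    (andF f).den B I a ↔ ∀ i, (f i).den B I a := by
  have : ∀ l : List (Ex N Rg), (l.foldr Ex.and tt).den B I a ↔ ∀ e ∈ l, e.den B I a := by
    intro l
    induction l with
    | nil => simp
    | cons e l ih => simp [Ex.den, ih]
  rw [andF, this]
  simp

open Classical in
noncomputable def cnd (P : Prop) : Ex N Rg := if P then tt else Ex.ff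

@[simp] lemma den_cnd (P : Prop) (a : Rg → ZMod p) : (cnd P : Ex N Rg).den B I a ↔ P := by
  unfold cnd
  split_ifs with h <;> simp [h, Ex.den]

noncomputable def isC (i : Rg) : ℕ → Ex N Rg
  | 0 => Zt i
  | n + 1 => Ex.sh i Sh.mone (isC i n)

@[simp] lemma den_isC (i : Rg) (n : ℕ) (a : Rg → ZMod p) :
    (isC i n : Ex N Rg).den B I a ↔ a i = n := by
  induction n generalizing a with
  | zero => simp [isC]
  | succ n ih =>
    simp only [isC, Ex.den, ih, update_self, Sh.val]
    push_cast
    constructor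
    · intro h; rw [← h]; ring
    · intro h; rw [h]; ring

/-! digits -/

def dval {m : ℕ} (f : Fin m → ZMod p) : ℕ := ∑ d, (f d).val * p ^ (d : ℕ)

lemma dval_succ {m : ℕ} (f : Fin (m + 1) → ZMod p) :
    dval f = (f 0).val + p * dval (fun d => f d.succ) := by
  unfold dval
  rw [Fin.sum_univ_succ, mul_sum]
  simp only [Fin.val_zero, pow_zero, mul_one, Fin.val_succ, pow_succ]
  congr 1
  exact sum_congr rfl fun d _ => by ring

lemma dval_lt [NeZero p] {m : ℕ} (f : Fin m → ZMod p) : dval f < p ^ m := by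
  induction m with
  | zero => simp [dval]
  | succ m ih =>
    rw [dval_succ, pow_succ]
    have h1 := ih (fun d => f d.succ)
    have h2 := ZMod.val_lt (f 0)
    nlinarith

lemma dval_inj [NeZero p] {m : ℕ} : Injective (dval : (Fin m → ZMod p) → ℕ) := by
  induction m with
  | zero => intro f g _; funext d; exact d.elim0
  | succ m ih =>
    intro f g h
    rw [dval_succ, dval_succ] at h
    have h1 := congrArg (· % p) h
    simp only [Nat.add_mul_mod_self_left, Nat.mod_eq_of_lt (ZMod.val_lt _)] at h1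
    rw [h1, Nat.add_left_cancel_iff] at h
    have h2 := ih (Nat.eq_of_mul_eq_mul_left (NeZero.pos p) h)
    funext d
    refine Fin.cases (ZMod.val_injective p h1) (fun d => congrFun h2 d) d

lemma dval_surj [NeZero p] {m : ℕ} (n : ℕ) (hn : n < p ^ m) : ∃ f : Fin m → ZMod p, dval f = n := by
  induction m generalizing n with
  | zero => exact ⟨0, by simp [dval] at *; omega⟩
  | succ m ih =>
    obtain ⟨f, hf⟩ := ih (n / p) (by
      rw [Nat.div_lt_iff_lt_mul (NeZero.pos p)]; rwa [pow_succ] at hn)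
    refine ⟨Fin.cons (n : ZMod p) f, ?_⟩
    rw [dval_succ]
    simp only [Fin.cons_zero, Fin.cons_succ, ZMod.val_natCast]
    rw [hf, Nat.mod_add_div]

lemma dval_zero {m : ℕ} : dval (0 : Fin m → ZMod p) = 0 := by simp [dval]

lemma dval_eq_zero [NeZero p] {m : ℕ} (f : Fin m → ZMod p) : dval f = 0 ↔ ∀ d, f d = 0 := by
  rw [← dval_zero (p := p) (m := m), dval_inj.eq_iff, funext_iff]; rfl

lemma val_sub_one [NeZero p] {x : ZMod p} (h : x ≠ 0) : (x + -1).val + 1 = x.val := by
  have h1 : x.val ≠ 0 := by rwa [Ne, ZMod.val_eq_zero]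
  have h2 := ZMod.val_lt x
  have : x + -1 = ((x.val - 1 : ℕ) : ZMod p) := by
    rw [Nat.cast_sub (by omega)]; simp [sub_eq_add_neg]
  rw [this, ZMod.val_natCast, Nat.mod_eq_of_lt (by omega)]
  omega

lemma dval_dec [NeZero p] {m : ℕ} (f : Fin m → ZMod p) (i : Fin m) (h1 : ∀ d, d < i → f d = 0)
    (h2 : f i ≠ 0) : dval (fun d => if d ≤ i then f d + -1 else f d) + 1 = dval f := by
  induction m with
  | zero => exact i.elim0
  | succ m ih =>
    rw [dval_succ, dval_succ f]
    refine Fin.cases (fun h1 h2 => ?_) (fun i h1 h2 => ?_) i h1 h2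
    · have := val_sub_one h2
      have e : ∀ d : Fin m, ¬ d.succ ≤ 0 := fun d => by simp
      simp only [le_refl, if_true, e, if_false]
      omega
    · have h3 := ih (fun d => f d.succ) i (fun d hd => h1 _ (by simpa using hd)) h2
      have h4 : f 0 = 0 := h1 0 (Fin.succ_pos i)
      simp only [Fin.zero_le, if_true, Fin.succ_le_succ_iff, h4, zero_add, ZMod.val_zero]
      rw [← h3]
      have h5 : (-1 : ZMod p).val + 1 = p := by
        have := NeZero.pos p
        obtain ⟨q, rfl⟩ : ∃ q, p = q + 1 := ⟨p - 1, by omega⟩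
        rw [ZMod.val_neg_one]
      rw [mul_add]
      omega

lemma dval_pred [NeZero p] {m : ℕ} (f f' : Fin m → ZMod p) : dval f' + 1 = dval f ↔
    ∃ i, (∀ d, d < i → f d = 0) ∧ f i ≠ 0 ∧ f' = fun d => if d ≤ i then f d + -1 else f d := by
  constructor
  · intro h
    have : ∃ d, f d ≠ 0 := by
      by_contra h'
      push Not at h'
      have := (dval_eq_zero f).2 h'
      omega
    obtain ⟨i, h1, h2⟩ := (wellFounded_lt (α := Fin m)).has_min {d | f d ≠ 0} this
    have h3 : ∀ d, d < i → f d = 0 := fun d hd => by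
      by_contra h'; exact h2 d h' hd
    refine ⟨i, h3, h1, dval_inj ?_⟩
    have := dval_dec f i h3 h1
    omega
  · rintro ⟨i, h1, h2, rfl⟩
    exact dval_dec f i h1 h2

end Vale.Agent.P310
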