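import Vale.Agent.P310.Inst

namespace Vale.Agent.P310
open Finset Function

lemma run_stable (M : TM) (x : List Bool) {t : ℕ} {b : Bool} (h : run M x t = some b) (s : ℕ) :
    run M x (t + s) = some b := by
  have : (step M)^[t + s] (init M x) = (step M)^[t] (init M x) := by
    induction s with
    | zero => rfl
    | succ s ih =>
      rw [← add_assoc, iterate_succ_apply', ih]
      unfold run at h
      generalize (step M)^[t] (init M x) = c at h
      unfold step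
      rw [if_neg (by rw [h]; simp)]
  unfold run at h ⊢
  rw [this, h]

lemma run_unique (M : TM) (x : List Bool) {t t' : ℕ} {b b' : Bool} (h : run M x t = some b)
    (h' : run M x t' = some b') : b = b' := by
  have h1 := run_stable M x h t'
  have h2 := run_stable M x h' t
  rw [add_comm, h2] at h1
  exact (Option.some.inj h1).symm

lemma exists_graphs {p : ℕ} [Fact p.Prime] {VT RT : Type} [Fintype VT] [Fintype RT]
    (S0 : RSys VT RT ℤ) (isI : RT → Fin 3 → Prop) {Q c : ℕ} (hQ : Q ≤ p) (hc : c < p)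
    (hT : Fintype.card (TT VT RT S0.N) ≤ Q) (hQ3 : 3 ≤ Q)
    (hb : ∀ ρ i, (S0.off ρ i).natAbs < Q)
    (h1 : ∀ ρ i, S0.sp ρ → S0.off ρ i = 0) (h2 : ∀ ρ i, isI ρ i → S0.sp ρ)
    (hcode : ∀ a b x y z, a < Q → b < Q → x < Q → y < Q → z < Q →
      (c.testBit (idx Q a b x y z) = true ↔ ∃ t t', (Fintype.equivFin _ t).val = x ∧
        (Fintype.equivFin _ t').val = y ∧ Tab S0 isI a (b : ZMod 2) t t' z)) :
    ∃ (Dm : Type) (_ : Fintype Dm) (G : ZMod 2 → SimpleGraph (Fin (p * p))),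
      (∀ g, Nonempty (G g ≃g (S0.lift isI (c : ZMod p)).Gr Dm g)) ∧
      ∀ g : ZMod p, g.val < 2 → ∀ τ v τ' v', (G (g.val : ZMod 2)).Adj (vtx τ v) (vtx τ' v') ↔
        AB Q c g τ v τ' v' = true := by
  classical
  set T := Fintype.card (TT VT RT S0.N) with hTd
  let vl : TT VT RT S0.N ⊕ Fin (p - T) → ℕ := Sum.elim (fun t => (Fintype.equivFin _ t).val)
    (fun d => T + d)
  have hι : ∀ t : TT VT RT S0.N, (Fintype.equivFin _ t).val < T := fun t => (Fintype.equivFin _ t).2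
  have hvl : ∀ w, vl w < p := by
    rintro (t | d)
    · have := hι t
      simp only [vl, Sum.elim_inl]; omega
    · have := d.2
      simp only [vl, Sum.elim_inr]; omega
  have hinj : Injective vl := by
    rintro (t | d) (t' | d') h <;> simp only [vl, Sum.elim_inl, Sum.elim_inr] at h
    · rw [(Fintype.equivFin _).injective (Fin.ext h)]
    · have := hι t; omega
    · have := hι t'; omega
    · rw [Fin.ext (Nat.add_left_cancel h)]
  have hv : ∀ w, ((vl w : ℕ) : ZMod p).val = vl w := fun w => ZMod.val_cast_of_lt (hvl w)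
  let e1 : TT VT RT S0.N ⊕ Fin (p - T) ≃ ZMod p := Equiv.ofBijective (fun w => (vl w : ZMod p))
    ((Fintype.bijective_iff_injective_and_card _).2 ⟨fun w w' h => hinj (by
      rw [← hv w, ← hv w']; exact congrArg ZMod.val h), by
        rw [Fintype.card_sum, Fintype.card_fin, ZMod.card, ← hTd]; omega⟩)
  let φ : ZMod p × ZMod p ≃ Fin (p * p) := Equiv.ofBijective (fun x => vtx x.1 x.2)
    ((Fintype.bijective_iff_injective_and_card _).2 ⟨by
      rintro ⟨a, b⟩ ⟨a', b'⟩ h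
      simp only [vtx, Fin.mk.injEq] at h
      have h3 := congrArg (· % p) h
      simp only [Nat.add_mul_mod_self_left, Nat.mod_eq_of_lt (ZMod.val_lt _)] at h3
      rw [h3, Nat.add_left_cancel_iff] at h
      rw [ZMod.val_injective p h3,
        ZMod.val_injective p (Nat.eq_of_mul_eq_mul_left (NeZero.pos p) h)], by simp⟩)
  let Eq : Vx VT RT (ZMod p) (Fin (p - T)) S0.N ≃ Fin (p * p) :=
    (e1.prodCongr (Equiv.refl _)).trans φ
  refine ⟨Fin (p - T), inferInstance,
    fun g => ((S0.lift isI (c : ZMod p)).Gr (Fin (p - T)) g).comap Eq.symm.toEmbedding,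
    fun g => ⟨SimpleGraph.Iso.comap Eq.symm _⟩, fun g hg τ v τ' v' => ?_⟩
  obtain ⟨w, rfl⟩ := e1.surjective τ
  obtain ⟨w', rfl⟩ := e1.surjective τ'
  have hE : ∀ w v, Eq.symm (vtx (e1 w) v) = (w, v) := fun w v => Eq.symm_apply_apply (w, v)
  have hew : ∀ w, (e1 w).val = vl w := hv
  have hTab : ∀ ω, ω < 3 → ∀ w w' Δ, TabB (c : ZMod p).val Q ω g.val (e1 w).val (e1 w').val Δ = true
      ↔ ∃ t t', w = Sum.inl t ∧ w' = Sum.inl t' ∧ Δ < Q ∧ Tab S0 isI ω (g.val : ZMod 2) t t' Δ := by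
    intro ω hω w w' Δ
    simp only [TabB, Bool.and_eq_true, decide_eq_true_iff, ZMod.val_cast_of_lt hc, hew]
    constructor
    · rintro ⟨⟨⟨a1, a2⟩, a3⟩, a4⟩
      obtain ⟨t, t', b1, b2, b3⟩ := (hcode _ _ _ _ _ (by omega) (by omega) a1 a2 a3).1 a4
      exact ⟨t, t', (hinj (a₁ := Sum.inl t) b1).symm, (hinj (a₁ := Sum.inl t') b2).symm, a3, b3⟩
    · rintro ⟨t, t', rfl, rfl, a3, b3⟩
      have a1 : vl (Sum.inl t) < Q := lt_of_lt_of_le (hι t) hT
      have a2 : vl (Sum.inl t') < Q := lt_of_lt_of_le (hι t') hT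
      exact ⟨⟨⟨a1, a2⟩, a3⟩, (hcode _ _ _ _ _ (by omega) (by omega) a1 a2 a3).2
        ⟨t, t', rfl, rfl, b3⟩⟩
  have hDB : ∀ w v w' v', DB Q c g (e1 w) v (e1 w') v' = true ↔ ∃ t t', w = Sum.inl t ∧
      w' = Sum.inl t' ∧ DT S0 isI Q (c : ZMod p) (g.val : ZMod 2) t v t' v' := by
    intro w v w' v'
    simp only [DB, Bool.or_eq_true, Bool.and_eq_true, decide_eq_true_iff, hTab 0 (by omega),
      hTab 1 (by omega), hTab 2 (by omega), DT]
    constructor
    · rintro (⟨t, t', a, b, h⟩ | ⟨h0, ⟨t, t', a, b, h⟩ | ⟨t, t', a, b, h⟩⟩)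
      · exact ⟨t, t', a, b, Or.inl h⟩
      · exact ⟨t, t', a, b, Or.inr ⟨h0, Or.inl h⟩⟩
      · exact ⟨t, t', a, b, Or.inr ⟨h0, Or.inr h⟩⟩
    · rintro ⟨t, t', a, b, h | ⟨h0, h | h⟩⟩
      · exact Or.inl ⟨t, t', a, b, h⟩
      · exact Or.inr ⟨h0, Or.inl ⟨t, t', a, b, h⟩⟩
      · exact Or.inr ⟨h0, Or.inr ⟨t, t', a, b, h⟩⟩
  change ((S0.lift isI (c : ZMod p)).Gr (Fin (p - T)) (g.val : ZMod 2)).Adj
    (Eq.symm (vtx (e1 w) v)) (Eq.symm (vtx (e1 w') v')) ↔ _
  rw [hE, hE]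
  simp only [AB, Bool.or_eq_true, hDB]
  rcases w with t | d
  · rcases w' with t' | d'
    · refine (adj_iff_DT S0 isI hQ hb (by omega) h1 h2 _ _ t t' v v').trans ?_
      simp
    · simp only [reduceCtorEq, false_and, and_false, exists_false, or_self, iff_false]
      exact fun h => (S0.lift isI (c : ZMod p)).not_adj_dummy h.symm
  · simp only [reduceCtorEq, false_and, and_false, exists_false, or_self, iff_false]
    exact (S0.lift isI (c : ZMod p)).not_adj_dummy

theorem diag (M : TM) {k m L : ℕ} (hk1 : 3 * (L + 2) + 4 ≤ k) (hk2 : 3 * (k + 1) ≤ 10 * (L + 2))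
    (hL : 0 < L) (hm : 8 * (1411 ^ 2 * (2 * m + 23)) ≤ L + 2) (hD : Decides M k) :
    ∃ p0, ∀ p, p.Prime → p0 ≤ p → ∃ G H : SimpleGraph (Fin (p * p)),
      ∀ t < p ^ (m + 5), run M (enc2 G H) t = none := by
  classical
  obtain ⟨d, hd⟩ : ∃ d, 1411 * (736 * (L + 2) + 1) < d := ⟨_, Nat.lt_succ_self _⟩
  obtain ⟨B, hB1, hB2, hB3⟩ : ∃ B, Fintype.card (TT (VT1 M m L d) (RT1 M m L d)
      (HM.NS (QQ M m) (ER M m) (R1 M m d) L (2 * d))) ≤ B ∧ (L + 2) ^ (2 * m + 23) < B ∧ 2 ≤ B :=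
    ⟨_ + ((L + 2) ^ (2 * m + 23) + 2), Nat.le_add_right _ _, by omega, by omega⟩
  obtain ⟨c, hc⟩ := exists_code (B * B) (fun a b x y z => ∃ t t', (Fintype.equivFin _ t).val = x ∧
    (Fintype.equivFin _ t').val = y ∧ Tab (S0 M m L d B) (isI M m L d) a (b : ZMod 2) t t' z)
  refine ⟨c + (B * B) ^ 5 + L + 3, fun p hp hp0 => ?_⟩
  haveI : Fact p.Prime := ⟨hp⟩
  have hQ4 : 4 ≤ B * B := by nlinarith
  have hQ : B * B ≤ p := le_trans (Nat.le_self_pow (by omega) _) (by omega : (B * B) ^ 5 ≤ p)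
  obtain ⟨Dm, _, G, hiso, hadj⟩ := exists_graphs (p := p) (S0 M m L d B) (isI M m L d) hQ
    (by omega : c < p) (hB1.trans (Nat.le_mul_self B)) (by omega) (offZ_lt M m L d hB2)
    (by
      rintro (t | t) i h
      · exact h.elim
      · rfl)
    (by rintro _ i ⟨t, rfl, -⟩; trivial) hc
  have hG := hadj 0 (by simp)
  have hH := hadj 1 (by rw [ZMod.val_one]; omega)
  simp only [ZMod.val_zero, Nat.cast_zero, ZMod.val_one, Nat.cast_one] at hG hH
  refine ⟨G 0, G 1, fun t ht => ?_⟩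
  have hst := start_iff (init_spec (M := M) (m := m) (by omega : (B * B) ^ 5 ≤ p) hB3 (c : ZMod p)
    (G 0) (G 1) hG hH) (Pi.single rc (c : ZMod p)) (by simp)
  have hacc : (mk M m L d p B c).Acc (mk M m L d p B c).q0 (mk M m L d p B c).a0 ↔ _ :=
    (acc_iff _ _ _ _ _ _ _ _ _).trans hst
  have hgood := mk_good M m L d B (c : ZMod p) (by omega) hm hd
  obtain ⟨φ0⟩ := hiso 0
  obtain ⟨φ1⟩ := hiso 1
  have hW : WLEq k (G 0) (G 1) ↔ ¬ ∃ t < p ^ (m + 5), run M (enc2 (G 0) (G 1)) t = some true := by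
    rw [← hacc]
    constructor
    · intro h ha
      have := (mk M m L d p B c).not_equiv_of_acc (Dm := Dm) (mk_inj M m L d p B c)
        (mk_ne M m L d p B c) hk1 hL (by omega) ha
      rw [sys_eq] at this
      exact this (((WLEq.iso φ0).symm.trans h).trans (WLEq.iso φ1))
    · intro ha
      have := (mk M m L d p B c).equiv_of_not_acc (Dm := Dm) hgood (mk_ne M m L d p B c) hk2 ha
      rw [sys_eq] at this
      exact ((WLEq.iso φ0).trans this).trans (WLEq.iso φ1).symm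
  obtain ⟨t0, b0, h1, h2⟩ := hD _ (G 0) (G 1)
  cases hr : run M (enc2 (G 0) (G 1)) t with
  | none => rfl
  | some b =>
    exfalso
    obtain rfl := run_unique M _ h1 hr
    cases b0
    · have h3 : ¬ WLEq k (G 0) (G 1) := fun h => by simpa using h2.2 h
      rw [hW, not_not] at h3
      obtain ⟨t', -, h4⟩ := h3
      simpa using run_unique M _ h1 h4
    · exact hW.1 (h2.1 rfl) ⟨t, ht, hr⟩

/-! small `k` -/

lemma agree_run (M : TM) (x y : List Bool) (N : ℕ) (h : ∀ i < N, x[i]? = y[i]?) (t : ℕ)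
    (ht : t < N) : (cfg M x t).state = (cfg M y t).state ∧ (cfg M x t).head = (cfg M y t).head ∧
      ∀ j i, i < N → (cfg M x t).tape j i = (cfg M y t).tape j i := by
  induction t with
  | zero =>
    refine ⟨rfl, rfl, fun j i hi => ?_⟩
    simp [cfg, init, h i hi]
  | succ t ih =>
    obtain ⟨h1, h2, h3⟩ := ih (by omega)
    have h4 : scan (cfg M x t) = scan (cfg M y t) := by
      funext j
      unfold scan
      rw [← h2, h3 j _ (by have := head_le (M := M) x t j; omega)]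
    refine ⟨?_, funext fun j => ?_, fun j i hi => ?_⟩
    · rw [cfg_succ, cfg_succ, step_state, step_state, h1, h4]
    · rw [cfg_succ, cfg_succ, step_head, step_head, h1, h4, h2]
    · rw [cfg_succ, cfg_succ, step_tape, step_tape, h1, h4, h2]
      by_cases e : i = (cfg M y t).head j
      · rw [e, update_self, update_self]
      · rw [update_of_ne e, update_of_ne e, h3 j i hi]

theorem small (M : TM) {k : ℕ} (hk : 2 ≤ k) (hD : Decides M k) {n : ℕ} (hn : 2 ≤ n) :
    ∃ G H : SimpleGraph (Fin n), ∀ t < n * n, run M (enc2 G H) t = none := by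
  refine ⟨⊥, ⊤, fun t ht => ?_⟩
  have h1 := (agree_run M (enc2 (⊥ : SimpleGraph (Fin n)) ⊤) (enc2 (⊥ : SimpleGraph (Fin n)) ⊥)
    (n * n) (fun i hi => by
      unfold enc2
      rw [List.getElem?_append_left (by rwa [length_adjBits]),
        List.getElem?_append_left (by rwa [length_adjBits])]) t ht).1
  have h2 : run M (enc2 (⊥ : SimpleGraph (Fin n)) ⊤) t = run M (enc2 (⊥ : SimpleGraph (Fin n)) ⊥) t :=
    congrArg M.out h1
  cases hr : run M (enc2 (⊥ : SimpleGraph (Fin n)) ⊤) t with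
  | none => rfl
  | some b =>
    exfalso
    obtain ⟨t1, b1, g1, g2⟩ := hD n ⊥ ⊤
    obtain ⟨t2, b2, g3, g4⟩ := hD n ⊥ ⊥
    obtain rfl := run_unique M _ g1 hr
    obtain rfl := run_unique M _ g3 (h2 ▸ hr)
    have hW := (g2.1 (g4.2 fun _ => rfl)).symm
    obtain ⟨x', hx⟩ := hW.exists 0 (fun i => if (i : ℕ) = 0 then ⟨0, by omega⟩ else ⟨1, by omega⟩)
    have := hx.adj_iff ⟨0, by omega⟩ ⟨1, by omega⟩
    simp at this

end Vale.Agent.P310
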