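import Vale.Agent.P310.CFI

namespace Vale.Agent.P310
open Finset Function

variable {VT RT Z D : Type} [AddCommGroup Z] (S : RSys VT RT Z)

namespace RSys

def actB (α : VT × Z → ZMod 2) (v : Z) : BV VT RT → BV VT RT
  | Sum.inl a => Sum.inl (a.1, a.2 + α (a.1, v))
  | Sum.inr a => Sum.inr (a.1, a.2.1 + α (S.var a.1 v 0), a.2.2 + α (S.var a.1 v 1))

def act (α : VT × Z → ZMod 2) : Vx VT RT Z D S.N → Vx VT RT Z D S.N
  | (Sum.inl t, v) => (Sum.inl (S.actB α v t.1, t.2), v)
  | (Sum.inr d, v) => (Sum.inr d, v)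

variable [DecidableEq VT] [DecidableEq Z]

def varsS (v : Z) : VT ⊕ RT → Finset (VT × Z)
  | Sum.inl a => {(a, v)}
  | Sum.inr a => univ.image (S.var a v)

def vars : Vx VT RT Z D S.N → Finset (VT × Z)
  | (Sum.inl t, v) => S.varsS v t.1.site
  | (Sum.inr _, _) => ∅

omit [DecidableEq VT] [DecidableEq Z] in
lemma site_actB (α : VT × Z → ZMod 2) (v : Z) (b : BV VT RT) : (S.actB α v b).site = b.site := by
  rcases b with a | a <;> rfl

omit [DecidableEq VT] [DecidableEq Z] in
lemma actB_actB (α : VT × Z → ZMod 2) (v : Z) (b : BV VT RT) : S.actB α v (S.actB α v b) = b := by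
  have hz : ∀ b c : ZMod 2, b + c + c = b := by decide
  rcases b with ⟨a, b⟩ | ⟨a, b, c⟩ <;> simp [actB, hz]

omit [DecidableEq VT] [DecidableEq Z] in
lemma act_act (α : VT × Z → ZMod 2) (u : Vx VT RT Z D S.N) : S.act α (S.act α u) = u := by
  obtain ⟨(⟨b, o⟩ | d), v⟩ := u
  · simp [act, actB_actB]
  · rfl

lemma vars_act (α : VT × Z → ZMod 2) (u : Vx VT RT Z D S.N) : S.vars (S.act α u) = S.vars u := by
  obtain ⟨(⟨b, o⟩ | d), v⟩ := u
  · simp [act, vars, site_actB]
  · rfl

lemma card_vars (u : Vx VT RT Z D S.N) : (S.vars u).card ≤ 3 := by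
  obtain ⟨(⟨b | b, o⟩ | d), v⟩ := u
  · simp [vars, varsS, BV.site]
  · simp only [vars, varsS, BV.site]
    exact card_image_le.trans (by simp)
  · simp [vars]

lemma act_congr {α α' : VT × Z → ZMod 2} {u : Vx VT RT Z D S.N}
    (h : ∀ z ∈ S.vars u, α z = α' z) : S.act α u = S.act α' u := by
  obtain ⟨(⟨b | b, o⟩ | d), v⟩ := u
  · simp only [vars, varsS, BV.site, mem_singleton, forall_eq] at h
    simp [act, actB, h]
  · simp only [vars, varsS, BV.site, mem_image, mem_univ, true_and, forall_exists_index,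
      forall_apply_eq_imp_iff] at h
    simp [act, actB, h]
  · rfl

lemma D0_act {α : VT × Z → ZMod 2} {g g' : ZMod 2} {u u' : Vx VT RT Z D S.N}
    (hrow : ∀ ρ v, (S.sp ρ → v = 0) → (∀ i, S.var ρ v i ∈ S.vars u) →
      ∑ i, α (S.var ρ v i) = (g + g') * S.rhs ρ)
    (h : S.D0 g u u') : S.D0 g' (S.act α u) (S.act α u') := by
  rcases h with ⟨ρ, a, v, i, rfl, rfl, h3⟩ | ⟨b, v, i, rfl, rfl, h3⟩
  · left
    refine ⟨ρ, (a.1 + α (S.var ρ v 0), a.2 + α (S.var ρ v 1)), v, i, rfl, ?_, h3⟩
    have h4 := hrow ρ v h3 (fun i => by simp [rv, nl, vars, varsS, BV.site])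
    rw [Fin.sum_univ_three] at h4
    have : S.bit g' ρ (a.1 + α (S.var ρ v 0), a.2 + α (S.var ρ v 1)) i
        = S.bit g ρ a i + α (S.var ρ v i) := by
      fin_cases i
      · rfl
      · rfl
      · simp only [bit]
        simp only [Fin.reduceFinMk, Matrix.cons_val]
        clear hrow
        revert h4
        generalize α (S.var ρ v 0) = x0, α (S.var ρ v 1) = x1, α (S.var ρ v 2) = x2,
          S.rhs ρ = c, a.1 = a1, a.2 = a2
        revert x0 x1 x2 c a1 a2 g g'
        decide
    rw [this]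
    rfl
  · right
    exact ⟨S.actB α v b, v, i, rfl, rfl, by rwa [site_actB]⟩

variable [Fintype VT] [Fintype RT] [Fintype Z] [Fintype D]

theorem dup {k K : ℕ} (hK : 3 * (k + 1) ≤ K) (Vs : Finset (VT × Z) → (VT × Z → ZMod 2) → Prop)
    (mono : ∀ Y Y' α, Y ⊆ Y' → Vs Y' α → Vs Y α)
    (ext : ∀ Y Y' α, (Y ∪ Y').card ≤ K → Vs Y α → ∃ α', Vs (Y ∪ Y') α' ∧ ∀ z ∈ Y, α' z = α z)
    (ne : ∃ α, Vs ∅ α)
    (row : ∀ Y α ρ v, Vs Y α → (S.sp ρ → v = 0) → (∀ i, S.var ρ v i ∈ Y) →
      ∑ i, α (S.var ρ v i) = S.rhs ρ) :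
    WLEq k (S.Gr D 0) (S.Gr D 1) := by
  classical
  let tv : (Fin k → Vx VT RT Z D S.N) → Finset (VT × Z) := fun x =>
    univ.biUnion (fun i => S.vars (x i))
  have htv : ∀ x, (tv x).card ≤ 3 * k := by
    intro x
    refine card_biUnion_le.trans ?_
    calc ∑ i, (S.vars (x i)).card ≤ ∑ _i : Fin k, 3 := sum_le_sum fun i _ => S.card_vars _
      _ = 3 * k := by simp [mul_comm]
  have hsub : ∀ x i, S.vars (x i) ⊆ tv x := fun x i =>
    subset_biUnion_of_mem (fun i => S.vars (x i)) (mem_univ i)
  have main : ∀ r x α, Vs (tv x) α → E (S.Gr D 0) (S.Gr D 1) k r x (S.act α ∘ x) := by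
    intro r
    induction r with
    | zero =>
      intro x α hα
      have hinj : Injective (S.act (D := D) α) := LeftInverse.injective (S.act_act α)
      refine E.zero (fun i j => hinj.eq_iff.symm) (fun i j => ?_)
      have key : ∀ i j, S.D0 0 (x i) (x j) ↔ S.D0 1 (S.act α (x i)) (S.act α (x j)) := by
        intro i j
        constructor
        · refine S.D0_act (fun ρ v h1 h2 => ?_)
          rw [row _ α ρ v hα h1 (fun m => hsub x i (h2 m))]; simp
        · intro h
          have := S.D0_act (α := α) (g' := 0) (fun ρ v h1 h2 => by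
            rw [vars_act] at h2
            rw [row _ α ρ v hα h1 (fun m => hsub x i (h2 m))]; simp) h
          rwa [act_act, act_act] at this
      exact or_congr (key i j) (key j i)
    | succ r ih =>
      intro x α hα
      have hch : ∀ y : Finset (VT × Z), ∃ α', y.card ≤ 3 →
          Vs (tv x ∪ y) α' ∧ ∀ z ∈ tv x, α' z = α z := by
        intro y
        by_cases hy : y.card ≤ 3
        · obtain ⟨α', h⟩ := ext (tv x) y α
            ((card_union_le _ _).trans (by have := htv x; omega)) hα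
          exact ⟨α', fun _ => h⟩
        · exact ⟨α, fun h => absurd h hy⟩
      choose ch hch using hch
      have hinv : Involutive (fun y : Vx VT RT Z D S.N => S.act (ch (S.vars y)) y) := by
        intro y
        simp only [vars_act, act_act]
      refine (ih x α hα).succ (hinv.toPerm _) (fun y i => ?_)
      obtain ⟨h1, h2⟩ := hch (S.vars y) (S.card_vars y)
      have h3 := ih (update x i y) (ch (S.vars y)) (mono _ _ _ (by
        intro z hz
        obtain ⟨j, -, hj⟩ := mem_biUnion.1 hz
        by_cases hji : j = i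
        · subst hji; rw [update_self] at hj; exact mem_union_right _ hj
        · rw [update_of_ne hji] at hj; exact mem_union_left _ (hsub x j hj)) h1)
      have : update (S.act α ∘ x) i (hinv.toPerm _ y) = S.act (ch (S.vars y)) ∘ update x i y := by
        funext j
        by_cases hji : j = i
        · subst hji; simp
        · simp only [update_of_ne hji, comp]
          exact (S.act_congr (fun z hz => h2 z (hsub x j hz))).symm
      rw [this]
      exact h3
  obtain ⟨α0, h0⟩ := ne
  have hch : ∀ y : Finset (VT × Z), ∃ α', y.card ≤ K → Vs y α' := by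
    intro y
    by_cases hy : y.card ≤ K
    · obtain ⟨α', h, -⟩ := ext ∅ y α0 (by simpa using hy) h0
      exact ⟨α', fun _ => by simpa using h⟩
    · exact ⟨α0, fun h => absurd h hy⟩
  choose ch hch using hch
  have htva : ∀ α x, tv (S.act α ∘ x) = tv x := by
    intro α x
    simp only [tv, comp, vars_act]
  have hinv : Involutive (fun x : Fin k → Vx VT RT Z D S.N => S.act (ch (tv x)) ∘ x) := by
    intro x
    simp only [htva]
    funext i
    simp [act_act]
  exact WLEq.of_bij (hinv.toPerm _) (fun r x => main r x _ (hch _ (by have := htv x; omega)))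

end RSys

end Vale.Agent.P310
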