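import Vale.Agent.P310.CFI

namespace Vale.Agent.P310
open Finset Function

variable {VT RT Z D : Type} [AddCommGroup Z] (S : RSys VT RT Z)
variable [Fintype VT] [Fintype RT] [Fintype Z] [Fintype D]

namespace RSys

/-- pebbled variables with their differences -/
def Pos (D : Type) [Fintype D] (k r : ℕ) (s : Finset ((VT × Z) × ZMod 2)) : Prop :=
  ∃ x x', E (S.Gr D 0) (S.Gr D 1) k r x x' ∧
    ∀ q ∈ s, ∃ i b, x i = S.vv q.1 b ∧ x' i = S.vv q.1 (b + q.2)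

variable {S} {k r : ℕ}

lemma Pos.subset {s t : Finset ((VT × Z) × ZMod 2)} (h : S.Pos D k r s) (hts : t ⊆ s) :
    S.Pos D k r t := by
  obtain ⟨x, x', hE, h⟩ := h
  exact ⟨x, x', hE, fun q hq => h q (hts hq)⟩

lemma Pos.mono {r' : ℕ} {s : Finset ((VT × Z) × ZMod 2)} (h : S.Pos D k r s) (hr : r' ≤ r) :
    S.Pos D k r' s := by
  obtain ⟨x, x', hE, h⟩ := h
  exact ⟨x, x', hE.mono hr, h⟩

omit [Fintype VT] [Fintype RT] [Fintype Z] [Fintype D] [AddCommGroup Z] in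
lemma vv_inj {z z' : VT × Z} {b b' : ZMod 2} :
    (S.vv z b : Vx VT RT Z D S.N) = S.vv z' b' ↔ z = z' ∧ b = b' := by
  simp only [RSys.vv, RSys.nl, Prod.mk.injEq, Sum.inl.injEq, and_true, Prod.ext_iff]
  tauto

lemma Pos.func {s : Finset ((VT × Z) × ZMod 2)} (h : S.Pos D k r s) {z : VT × Z} {e e' : ZMod 2}
    (h1 : (z, e) ∈ s) (h2 : (z, e') ∈ s) : e = e' := by
  obtain ⟨x, x', hE, h⟩ := h
  obtain ⟨i, b, hi, hi'⟩ := h _ h1
  obtain ⟨j, c, hj, hj'⟩ := h _ h2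
  have := hE.eq_iff i j
  rw [hi, hi', hj, hj', vv_inj, vv_inj] at this
  simp only [true_and] at this
  revert this
  generalize b = b0, c = c0, e = e0, e' = e1
  revert b0 c0 e0 e1
  decide

lemma step_var (hk : 2 ≤ k) {x x' : Fin k → Vx VT RT Z D S.N}
    (hE : E (S.Gr D 0) (S.Gr D 1) k (r + 3) x x') {j f : Fin k} (hf : f ≠ j)
    {ρ : RT} {a a' : ZMod 2 × ZMod 2} {v v' : Z} (hx : x j = S.rv ρ a v) (hx' : x' j = S.rv ρ a' v')
    (hv : S.sp ρ → v = 0) (i : Fin 3) :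
    E (S.Gr D 0) (S.Gr D 1) k (r + 2) (update x f (S.vv (S.var ρ v i) (S.bit 0 ρ a i)))
      (update x' f (S.vv (S.var ρ v' i) (S.bit 1 ρ a' i))) ∧ (S.sp ρ → v' = 0) := by
  obtain ⟨e, he⟩ := hE.bij
  have h1 := he (S.vv (S.var ρ v i) (S.bit 0 ρ a i)) f
  have h2 := (h1.mono (by omega : 2 ≤ r + 2)).lam_eq hk f
  have h3 := h1.adj_iff j f
  simp only [update_self, update_of_ne hf.symm, hx, hx'] at h2 h3
  have h4 := h3.1 (S.adj_rv_vv.2 ⟨⟨i, rfl, rfl⟩, hv⟩)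
  rw [RSys.vv, S.lam_nl] at h2
  obtain ⟨b, w, hb, hs⟩ := S.of_lam 1 _ _ h2.symm
  obtain ⟨vt, c⟩ | ⟨ρ', c⟩ := b
  · simp only [BV.site, Sum.inl.injEq] at hs
    have hb' : e (S.vv (S.var ρ v i) (S.bit 0 ρ a i)) = S.vv (vt, w) c := hb
    rw [hb'] at h4 h1
    obtain ⟨⟨i', hi1, hi2⟩, h5⟩ := S.adj_rv_vv.1 h4
    have : i' = i := by
      apply S.slot_inj ρ
      have := congrArg Prod.fst hi1
      simp only [RSys.var] at this hs
      rw [← this, hs]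
    subst this
    rw [hi1, hi2] at h1
    exact ⟨h1, h5⟩
  · simp [BV.site] at hs

omit [Fintype VT] [Fintype RT] [Fintype Z] [Fintype D] [AddCommGroup Z] in
lemma bit_sum (ρ : RT) (a a' : ZMod 2 × ZMod 2) :
    ∑ i, (S.bit 0 ρ a i + S.bit 1 ρ a' i) = S.rhs ρ := by
  simp only [Fin.sum_univ_three, RSys.bit]
  simp only [Matrix.cons_val_zero, Matrix.cons_val_one, Matrix.cons_val]
  obtain ⟨a1, a2⟩ := a
  obtain ⟨b1, b2⟩ := a'
  generalize S.rhs ρ = c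
  revert a1 a2 b1 b2 c
  decide

lemma exists_free {U : Finset (Fin k)} (hU : U.card + 4 ≤ k) :
    ∃ f : Fin 4 → Fin k, Injective f ∧ ∀ i, f i ∉ U := by
  classical
  have : 4 ≤ (Uᶜ).card := by rw [Finset.card_compl, Fintype.card_fin]; omega
  obtain ⟨t, ht, hc⟩ := Finset.exists_subset_card_eq this
  refine ⟨fun i => t.orderEmbOfFin hc i, (t.orderEmbOfFin hc).injective, fun i => ?_⟩
  have := ht (t.orderEmbOfFin_mem hc i)
  simpa using this

lemma core [DecidableEq VT] [DecidableEq Z] (hk : 2 ≤ k) {x x' : Fin k → Vx VT RT Z D S.N}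
    (hE : E (S.Gr D 0) (S.Gr D 1) k (r + 5) x x') (f : Fin 4 → Fin k) (hf : Injective f)
    {ρ : RT} {a a' : ZMod 2 × ZMod 2} {v v' : Z} (hx : x (f 3) = S.rv ρ a v)
    (hx' : x' (f 3) = S.rv ρ a' v') (hv : S.sp ρ → v = 0) (hvv : (S.sp ρ → v' = 0) → v' = v)
    (s : Finset ((VT × Z) × ZMod 2))
    (hs : ∀ q ∈ s, ∃ i b, (∀ m, i ≠ f m) ∧ x i = S.vv q.1 b ∧ x' i = S.vv q.1 (b + q.2)) :
    ∃ e : Fin 3 → ZMod 2, ∑ i, e i = S.rhs ρ ∧
      S.Pos D k r (s ∪ univ.image (fun i => (S.var ρ v i, e i))) := by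
  have n03 : f 0 ≠ f 3 := fun h => by simpa using hf h
  have n13 : f 1 ≠ f 3 := fun h => by simpa using hf h
  have n23 : f 2 ≠ f 3 := fun h => by simpa using hf h
  have n01 : f 0 ≠ f 1 := fun h => by simpa using hf h
  have n02 : f 0 ≠ f 2 := fun h => by simpa using hf h
  have n12 : f 1 ≠ f 2 := fun h => by simpa using hf h
  obtain ⟨h0, hv'⟩ := step_var (r := r + 2) hk hE n03 hx hx' hv 0
  obtain rfl := hvv hv'
  obtain ⟨h1, -⟩ := step_var (r := r + 1) (ρ := ρ) (a := a) (a' := a') (v := v') (v' := v') hk h0 n13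
    (by rw [update_of_ne n03.symm, hx]) (by rw [update_of_ne n03.symm, hx']) hv 1
  obtain ⟨h2, -⟩ := step_var (r := r) (ρ := ρ) (a := a) (a' := a') (v := v') (v' := v') hk h1 n23
    (by rw [update_of_ne n13.symm, update_of_ne n03.symm, hx])
    (by rw [update_of_ne n13.symm, update_of_ne n03.symm, hx']) hv 2
  refine ⟨fun i => S.bit 0 ρ a i + S.bit 1 ρ a' i, bit_sum ρ a a', _, _,
    h2.mono (by omega), ?_⟩
  have hz : ∀ b c : ZMod 2, b + (b + c) = c := by decide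
  intro q hq
  rcases mem_union.1 hq with hq | hq
  · obtain ⟨i, b, hi, h3, h4⟩ := hs q hq
    refine ⟨i, b, ?_, ?_⟩
    · rw [update_of_ne (hi 2), update_of_ne (hi 1), update_of_ne (hi 0), h3]
    · rw [update_of_ne (hi 2), update_of_ne (hi 1), update_of_ne (hi 0), h4]
  · obtain ⟨i, -, rfl⟩ := mem_image.1 hq
    fin_cases i
    · refine ⟨f 0, S.bit 0 ρ a 0, ?_, ?_⟩
      · rw [update_of_ne n02, update_of_ne n01, update_self]; rfl
      · rw [update_of_ne n02, update_of_ne n01, update_self]; simp [hz]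
    · refine ⟨f 1, S.bit 0 ρ a 1, ?_, ?_⟩
      · rw [update_of_ne n12, update_self]; rfl
      · rw [update_of_ne n12, update_self]; simp [hz]
    · refine ⟨f 2, S.bit 0 ρ a 2, ?_, ?_⟩
      · rw [update_self]; rfl
      · rw [update_self]; simp [hz]

omit [Fintype VT] [Fintype RT] [Fintype Z] [Fintype D] [AddCommGroup Z] in
lemma exists_bit (ρ : RT) (i : Fin 3) (b : ZMod 2) : ∃ a, S.bit 0 ρ a i = b := by
  fin_cases i
  · exact ⟨(b, 0), rfl⟩
  · exact ⟨(0, b), rfl⟩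
  · exact ⟨(b, 0), by simp [RSys.bit]⟩

lemma of_lam_rv (hk : 2 ≤ k) {x x' : Fin k → Vx VT RT Z D S.N}
    (hE : E (S.Gr D 0) (S.Gr D 1) k (r + 2) x x') {j : Fin k} {ρ : RT} {a : ZMod 2 × ZMod 2}
    {v : Z} (hx : x j = S.rv ρ a v) : ∃ a' v', x' j = S.rv ρ a' v' := by
  have h2 := (hE.mono (by omega : 2 ≤ r + 2)).lam_eq hk j
  rw [hx, RSys.rv, S.lam_nl] at h2
  obtain ⟨b, w, hb, hs⟩ := S.of_lam 1 _ _ h2.symm
  obtain ⟨vt, c⟩ | ⟨ρ', c⟩ := b
  · simp [BV.site] at hs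
  · simp only [BV.site, Sum.inr.injEq] at hs
    subst hs
    exact ⟨c, w, hb⟩

lemma Pos.move [DecidableEq VT] [DecidableEq Z] {s : Finset ((VT × Z) × ZMod 2)}
    (h : S.Pos D k (r + 6) s) (hs : s.card + 4 ≤ k) {ρ : RT} {v : Z} (hv : S.sp ρ → v = 0)
    {i0 : Fin 3} {e0 : ZMod 2} (h0 : (S.var ρ v i0, e0) ∈ s) :
    ∃ e : Fin 3 → ZMod 2, ∑ i, e i = S.rhs ρ ∧
      S.Pos D k r (s ∪ univ.image (fun i => (S.var ρ v i, e i))) := by
  classical
  have hk : 2 ≤ k := by omega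
  obtain ⟨x, x', hE, h⟩ := h
  choose! σ β hσ using h
  have hU : (s.attach.image (fun q => σ q.1 q.2)).card + 4 ≤ k :=
    le_trans (Nat.add_le_add_right (card_image_le.trans (by simp)) 4) hs
  obtain ⟨f, hf, hfU⟩ := exists_free hU
  have hne : ∀ q (hq : q ∈ s) m, σ q hq ≠ f m := fun q hq m h =>
    hfU m (h ▸ mem_image.2 ⟨⟨q, hq⟩, mem_attach _ _, rfl⟩)
  obtain ⟨a, ha⟩ := exists_bit (S := S) ρ i0 (β _)
  obtain ⟨e, he⟩ := hE.bij
  have h1 := he (S.rv ρ a v) (f 3)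
  obtain ⟨a', v', h2⟩ := of_lam_rv (r := r + 3) hk h1 (update_self ..)
  have h3 := h1.adj_iff (f 3) (σ _ h0)
  rw [h2, update_self, update_of_ne (hne _ h0 3), update_of_ne (hne _ h0 3), (hσ _ h0).1,
    (hσ _ h0).2] at h3
  have h4 := h3.1 (S.adj_rv_vv.2 ⟨⟨i0, rfl, ha.symm⟩, hv⟩)
  obtain ⟨⟨i', hi1, -⟩, -⟩ := S.adj_rv_vv.1 h4
  have hvv : v' = v := by
    have e1 := congrArg Prod.fst hi1
    have e2 := congrArg Prod.snd hi1
    simp only [RSys.var] at e1 e2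
    have := S.slot_inj ρ e1
    subst this
    exact (add_right_cancel e2).symm
  refine core hk h1 f hf (update_self ..) h2 hv (fun _ => hvv) s (fun q hq => ?_)
  refine ⟨σ q hq, β q, hne q hq, ?_, ?_⟩
  · rw [update_of_ne (hne q hq 3), (hσ q hq).1]
  · rw [update_of_ne (hne q hq 3), (hσ q hq).2]

lemma Pos.start [DecidableEq VT] [DecidableEq Z] (hk : 4 ≤ k)
    (h : WLEq k (S.Gr D 0) (S.Gr D 1)) {ρ : RT} (hρ : S.sp ρ) (r : ℕ) :
    ∃ e : Fin 3 → ZMod 2, ∑ i, e i = S.rhs ρ ∧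
      S.Pos D k r (univ.image (fun i => (S.var ρ 0 i, e i))) := by
  obtain ⟨x', hE⟩ := h.exists (r + 5) (fun _ => S.rv ρ (0, 0) 0)
  obtain ⟨f, hf, -⟩ := exists_free (k := k) (U := ∅) (by simpa using hk)
  obtain ⟨a', v', h2⟩ := of_lam_rv (r := r + 3) (by omega) hE (j := f 3) rfl
  have := core (by omega) hE f hf rfl h2 (fun _ => rfl) (fun h => h hρ) ∅ (by simp)
  simpa using this

end RSys

end Vale.Agent.P310
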