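import Vale.Agent.P310.Sim
import Vale.Agent.P310.CFI

namespace Vale.Agent.P310
open Finset Function

lemma flatMap_get {α β : Type} (l : List α) (f : α → List β) (n : ℕ) (hf : ∀ a, (f a).length = n)
    (i j : ℕ) (hj : j < n) : (l.flatMap f)[j + n * i]? = (l[i]?).bind (fun a => (f a)[j]?) := by
  induction l generalizing i with
  | nil => simp
  | cons a l ih =>
    rw [List.flatMap_cons]
    cases i with
    | zero => simp [List.getElem?_append_left (hf a ▸ hj)]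
    | succ i =>
      rw [List.getElem?_append_right (by rw [hf]; nlinarith), hf,
        show j + n * (i + 1) - n = j + n * i by rw [mul_add]; omega, ih]
      simp

lemma length_adjBits {n : ℕ} (G : SimpleGraph (Fin n)) : (adjBits G).length = n * n := by
  simp [adjBits, List.length_flatMap]

open Classical in
lemma adjBits_get {n : ℕ} (G : SimpleGraph (Fin n)) (u v : Fin n) :
    (adjBits G)[(v : ℕ) + n * u]? = some (decide (G.Adj u v)) := by
  unfold adjBits
  rw [flatMap_get _ _ n (by simp) _ _ v.2]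
  simp

variable {M : TM} {m p B : ℕ} [Fact p.Prime]

lemma bv_expand (a : Reg m → ZMod p) : bv true a = (a (dH 0)).val + p * ((a (dH 1)).val +
    p * ((a (dH 2)).val + p * ((a (dH 3)).val + p * ((a (dH 4)).val +
      p * dval (fun d : Fin m => a (dH d.succ.succ.succ.succ.succ)))))) := by
  unfold bv
  rw [dval_succ, dval_succ, dval_succ, dval_succ, dval_succ]
  rfl

def vtx (τ v : ZMod p) : Fin (p * p) := ⟨v.val + p * τ.val, by
  have := ZMod.val_lt v
  have := ZMod.val_lt τ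
  nlinarith⟩

lemma init_spec (hp : (B * B) ^ 5 ≤ p) (hB : 2 ≤ B) (c0 : ZMod p) (G H : SimpleGraph (Fin (p * p)))
    (hG : ∀ τ v τ' v', G.Adj (vtx τ v) (vtx τ' v') ↔ AB (B * B) c0 0 τ v τ' v' = true)
    (hH : ∀ τ v τ' v', H.Adj (vtx τ v) (vtx τ' v') ↔ AB (B * B) c0 1 τ v τ' v' = true)
    (j : Fin (M.w + 1)) (g : Fin M.ng) (a : Reg m → ZMod p) (ha : a rc = c0) :
    (InitE j g : EE M m).den B (JJ M m p B) a ↔ (init M (enc2 G H)).tape j (bv true a) = g := by
  classical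
  have hp2 := (Fact.out : p.Prime).two_le
  have hv1 : (1 : ZMod p).val = 1 := ZMod.val_one p
  simp only [InitE, Ex.den, den_cnd, inR, outR, den_andF, den_Zt, den_isC, den_orF,
    den_NZ sMul (usr_dH _), init, update_self, Sh.val, Int.cast_neg, Int.cast_one, Nat.cast_zero,
    Nat.cast_one, ne_eq, add_neg_eq_zero]
  by_cases hj : j = 0
  swap
  · simp [hj, eq_comm]
  simp only [hj, true_and, if_true, not_true_eq_false, false_or]
  have hb := bv_expand a
  set h := bv true a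
  set rest := dval (fun d : Fin m => a (dH d.succ.succ.succ.succ.succ)) with hr
  have hrest : (∀ d : Fin m, a (dH d.succ.succ.succ.succ.succ) = 0) ↔ rest = 0 :=
    (dval_eq_zero _).symm
  have hrest' : (∃ d : Fin m, ¬ a (dH d.succ.succ.succ.succ.succ) = 0) ↔ ¬ rest = 0 := by
    rw [← hrest, not_forall]
  rw [hrest, hrest']
  set u := vtx (a (dH 3)) (a (dH 2))
  set u' := vtx (a (dH 1)) (a (dH 0))
  have hh : h = (u' : ℕ) + p * p * u + p * p * (p * p) * ((a (dH 4)).val + p * rest) := by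
    rw [hb]; simp only [u, u', vtx]; ring
  have hlt : (u' : ℕ) + p * p * u < p * p * (p * p) := by
    have := u.2
    have := u'.2
    nlinarith
  by_cases h0 : rest = 0 ∧ a (dH 4) = 0
  · obtain ⟨h1, h2⟩ := h0
    have e : (List.map M.sym (enc2 G H))[h]? = some (M.sym (decide (G.Adj u u'))) := by
      rw [hh, h1, h2]
      simp only [ZMod.val_zero, mul_zero, add_zero, enc2, List.getElem?_map]
      rw [List.getElem?_append_left (by rwa [length_adjBits]), adjBits_get]; rfl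
    have e2 := fun b => den_Adjv (M := M) hp hB b a (by rw [h2]; simp)
    simp only [e, e2, h1, h2, ha, Option.getD_some, true_or, not_true_eq_false, false_and, or_self,
      and_false, or_false, true_and]
    have : decide (G.Adj u u') = AB (B * B) c0 0 (a (dH 3)) (a (dH 2)) (a (dH 1)) (a (dH 0)) := by
      rw [Bool.eq_iff_iff, decide_eq_true_iff]; exact hG _ _ _ _
    simp [this]
  by_cases h1 : rest = 0 ∧ a (dH 4) = 1
  · obtain ⟨h1, h2⟩ := h1
    have e : (List.map M.sym (enc2 G H))[h]? = some (M.sym (decide (H.Adj u u'))) := by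
      rw [hh, h1, h2]
      simp only [hv1, mul_zero, add_zero, mul_one, enc2, List.getElem?_map]
      rw [List.getElem?_append_right (by rw [length_adjBits]; omega), length_adjBits,
        Nat.add_sub_cancel, adjBits_get]; rfl
    have e2 := fun b => den_Adjv (M := M) hp hB b a (by rw [h2, hv1]; omega)
    simp only [e, e2, h1, h2, ha, Option.getD_some, or_true, not_true_eq_false, or_self,
      and_false, or_false, true_and]
    have : decide (H.Adj u u') = AB (B * B) c0 1 (a (dH 3)) (a (dH 2)) (a (dH 1)) (a (dH 0)) := by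
      rw [Bool.eq_iff_iff, decide_eq_true_iff]; exact hH _ _ _ _
    simp [this]
  · have h2 : 2 ≤ (a (dH 4)).val + p * rest := by
      by_cases h3 : rest = 0
      · have n0 : (a (dH 4)).val ≠ 0 := fun e => h0 ⟨h3, (ZMod.val_eq_zero _).1 e⟩
        have n1 : (a (dH 4)).val ≠ 1 := fun e => h1 ⟨h3, ZMod.val_injective p (e.trans hv1.symm)⟩
        omega
      · have : p * 1 ≤ p * rest := Nat.mul_le_mul_left _ (by omega)
        omega
    have e : (List.map M.sym (enc2 G H))[h]? = none := by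
      rw [List.getElem?_eq_none_iff]
      simp only [enc2, List.length_map, List.length_append, length_adjBits]
      have := Nat.mul_le_mul_left (p * p * (p * p)) h2
      omega
    rw [e, Option.getD_none]
    constructor
    · rintro (⟨⟨h3, h4 | h4⟩, -⟩ | ⟨h3, -⟩)
      · exact absurd ⟨h3, h4⟩ h0
      · exact absurd ⟨h3, h4⟩ h1
      · exact h3.symm
    · intro h3
      refine Or.inr ⟨h3.symm, ?_⟩
      by_cases h4 : rest = 0
      · exact Or.inr ⟨fun e => h0 ⟨h4, e⟩, fun e => h1 ⟨h4, e⟩⟩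
      · exact Or.inl h4

/-! table form of the graph -/

variable {VT RT : Type} (S0 : RSys VT RT ℤ) (isI : RT → Fin 3 → Prop)

open Classical in
noncomputable def RSys.lift (c0 : ZMod p) : RSys VT RT (ZMod p) where
  slot := S0.slot
  off ρ i := if isI ρ i then c0 else (S0.off ρ i : ZMod p)
  sp := S0.sp
  rhs := S0.rhs
  N := S0.N
  code := S0.code
  code_inj := S0.code_inj
  code_le := S0.code_le
  slot_inj := S0.slot_inj

def Tab (ω : ℕ) (g : ZMod 2) (t t' : TT VT RT S0.N) (Δ : ℕ) : Prop :=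
  (∃ ρ a i, t = (Sum.inr (ρ, a), none) ∧ t' = (Sum.inl (S0.slot ρ i, S0.bit g ρ a i), none) ∧
    ((ω = 0 ∧ ¬ S0.sp ρ ∧ S0.off ρ i = Δ) ∨ (ω = 1 ∧ S0.sp ρ ∧ ¬ isI ρ i ∧ Δ = 0) ∨
      (ω = 2 ∧ isI ρ i ∧ Δ = 0))) ∨
  (ω = 0 ∧ ∃ ρ a i, t' = (Sum.inr (ρ, a), none) ∧
    t = (Sum.inl (S0.slot ρ i, S0.bit g ρ a i), none) ∧ ¬ S0.sp ρ ∧ S0.off ρ i = -Δ) ∨
  (ω = 0 ∧ Δ = 0 ∧ ∃ b i, t = (b, none) ∧ t' = (b, some i) ∧ (i : ℕ) < S0.code b.site + 2)

def DT (Q : ℕ) (c0 : ZMod p) (g : ZMod 2) (t : TT VT RT S0.N) (v : ZMod p) (t' : TT VT RT S0.N)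
    (v' : ZMod p) : Prop :=
  ((v' - v).val < Q ∧ Tab S0 isI 0 g t t' (v' - v).val) ∨ (v = 0 ∧
    (((v' - v).val < Q ∧ Tab S0 isI 1 g t t' (v' - v).val) ∨
      ((v' - c0).val < Q ∧ Tab S0 isI 2 g t t' (v' - c0).val)))

lemma adj_iff_DT {Dm : Type} {Q : ℕ} (hQ : Q ≤ p) (hb : ∀ ρ i, (S0.off ρ i).natAbs < Q)
    (hQ0 : 0 < Q) (h1 : ∀ ρ i, S0.sp ρ → S0.off ρ i = 0) (h2 : ∀ ρ i, isI ρ i → S0.sp ρ)
    (c0 : ZMod p) (g : ZMod 2) (t t' : TT VT RT S0.N) (v v' : ZMod p) :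
    ((S0.lift isI c0).Gr Dm g).Adj (Sum.inl t, v) (Sum.inl t', v') ↔
      DT S0 isI Q c0 g t v t' v' ∨ DT S0 isI Q c0 g t' v' t v := by
  have A : ∀ t t' v v', (S0.lift isI c0).D0 (D := Dm) g (Sum.inl t, v) (Sum.inl t', v') →
      DT S0 isI Q c0 g t v t' v' ∨ DT S0 isI Q c0 g t' v' t v := by
    rintro t t' v v' (⟨ρ, a, w, i, e1, e2, e3⟩ | ⟨b, w, i, e1, e2, e3⟩)
    · simp only [RSys.rv, RSys.vv, RSys.nl, RSys.var, Prod.mk.injEq, Sum.inl.injEq] at e1 e2
      obtain ⟨rfl, rfl⟩ := e1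
      obtain ⟨rfl, rfl⟩ := e2
      by_cases hs : S0.sp ρ
      · obtain rfl := e3 hs
        refine Or.inl (Or.inr ⟨rfl, ?_⟩)
        by_cases hi : isI ρ i
        · right
          simp only [RSys.lift, hi, if_true, zero_add, sub_self, ZMod.val_zero]
          exact ⟨hQ0, Or.inl ⟨ρ, a, i, rfl, rfl, Or.inr (Or.inr ⟨rfl, hi, rfl⟩)⟩⟩
        · left
          simp only [RSys.lift, hi, if_false, h1 ρ i hs, Int.cast_zero, add_zero, sub_self,
            ZMod.val_zero]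
          exact ⟨hQ0, Or.inl ⟨ρ, a, i, rfl, rfl, Or.inr (Or.inl ⟨rfl, hs, hi, rfl⟩)⟩⟩
      · have hi : ¬ isI ρ i := fun h => hs (h2 _ _ h)
        have hlt := hb ρ i
        have hv : (((S0.off ρ i).natAbs : ℕ) : ZMod p).val = (S0.off ρ i).natAbs :=
          ZMod.val_cast_of_lt (by omega)
        rcases Int.natAbs_eq (S0.off ρ i) with e | e
        · refine Or.inl (Or.inl ?_)
          have : v + (S0.lift isI c0).off ρ i - v = ((S0.off ρ i).natAbs : ℕ) := by
            simp only [RSys.lift, hi, if_false, add_sub_cancel_left]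
            conv_lhs => rw [e]
            exact Int.cast_natCast _
          rw [this, hv]
          exact ⟨hlt, Or.inl ⟨ρ, a, i, rfl, rfl, Or.inl ⟨rfl, hs, e⟩⟩⟩
        · refine Or.inr (Or.inl ?_)
          have : v - (v + (S0.lift isI c0).off ρ i) = ((S0.off ρ i).natAbs : ℕ) := by
            simp only [RSys.lift, hi, if_false, sub_add_cancel_left]
            conv_lhs => rw [e]
            rw [Int.cast_neg, neg_neg]
            exact Int.cast_natCast _
          rw [this, hv]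
          exact ⟨hlt, Or.inr (Or.inl ⟨rfl, ρ, a, i, rfl, rfl, hs, e⟩)⟩
    · simp only [RSys.lf, RSys.nl, Prod.mk.injEq, Sum.inl.injEq] at e1 e2
      obtain ⟨rfl, rfl⟩ := e1
      obtain ⟨rfl, rfl⟩ := e2
      refine Or.inl (Or.inl ?_)
      rw [sub_self, ZMod.val_zero]
      exact ⟨hQ0, Or.inr (Or.inr ⟨rfl, rfl, b, i, rfl, rfl, e3⟩)⟩
  have Bk : ∀ t t' v v', DT S0 isI Q c0 g t v t' v' →
      ((S0.lift isI c0).Gr Dm g).Adj (Sum.inl t, v) (Sum.inl t', v') := by
    rintro t t' v v' (⟨-, h⟩ | ⟨rfl, ⟨-, h⟩ | ⟨-, h⟩⟩)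
    · rcases h with ⟨ρ, a, i, rfl, rfl, h⟩ | ⟨-, ρ, a, i, rfl, rfl, hs, h⟩ | ⟨-, h, b, i, rfl, rfl, hi⟩
      · rcases h with ⟨-, hs, h⟩ | ⟨h, -⟩ | ⟨h, -⟩
        · have hi : ¬ isI ρ i := fun h => hs (h2 _ _ h)
          refine Or.inl (Or.inl ⟨ρ, a, v, i, rfl, ?_, fun h => absurd h hs⟩)
          simp [RSys.vv, RSys.nl, RSys.var, RSys.lift, hi, h, RSys.bit]
        · omega
        · omega
      · have hi : ¬ isI ρ i := fun h => hs (h2 _ _ h)
        refine Or.inr (Or.inl ⟨ρ, a, v', i, rfl, ?_, fun h => absurd h hs⟩)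
        simp [RSys.vv, RSys.nl, RSys.var, RSys.lift, hi, h, RSys.bit]
      · obtain rfl : v' = v := sub_eq_zero.1 ((ZMod.val_eq_zero _).1 h)
        exact Or.inl (Or.inr ⟨b, v', i, rfl, rfl, hi⟩)
    · rcases h with ⟨ρ, a, i, rfl, rfl, h⟩ | ⟨h, -⟩ | ⟨h, -⟩
      · rcases h with ⟨h, -⟩ | ⟨-, hs, hi, h⟩ | ⟨h, -⟩
        · omega
        · obtain rfl : v' = 0 := sub_eq_zero.1 ((ZMod.val_eq_zero _).1 h)
          refine Or.inl (Or.inl ⟨ρ, a, 0, i, rfl, ?_, fun _ => rfl⟩)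
          simp [RSys.vv, RSys.nl, RSys.var, RSys.lift, hi, h1 ρ i hs, RSys.bit]
        · omega
      · omega
      · omega
    · rcases h with ⟨ρ, a, i, rfl, rfl, h⟩ | ⟨h, -⟩ | ⟨h, -⟩
      · rcases h with ⟨h, -⟩ | ⟨h, -⟩ | ⟨-, hi, h⟩
        · omega
        · omega
        · obtain rfl : v' = c0 := sub_eq_zero.1 ((ZMod.val_eq_zero _).1 h)
          refine Or.inl (Or.inl ⟨ρ, a, 0, i, rfl, ?_, fun _ => rfl⟩)
          simp [RSys.vv, RSys.nl, RSys.var, RSys.lift, hi, RSys.bit]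
      · omega
      · omega
  constructor
  · rintro (h | h)
    · exact A _ _ _ _ h
    · exact (A _ _ _ _ h).symm
  · rintro (h | h)
    · exact Bk _ _ _ _ h
    · exact (Bk _ _ _ _ h).symm

lemma idx_inj {Q a b c d e a' b' c' d' e' : ℕ} (ha : a < Q) (hb : b < Q) (hc : c < Q) (hd : d < Q)
    (ha' : a' < Q) (hb' : b' < Q) (hc' : c' < Q) (hd' : d' < Q)
    (h : idx Q a b c d e = idx Q a' b' c' d' e') : a = a' ∧ b = b' ∧ c = c' ∧ d = d' ∧ e = e' := by
  have key : ∀ {x y x' y' : ℕ}, y < Q → y' < Q → x * Q + y = x' * Q + y' → x = x' ∧ y = y' := by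
    intro x y x' y' h1 h2 h
    have e1 := congrArg (· % Q) h
    simp only [Nat.mul_add_mod_of_lt h1, Nat.mul_add_mod_of_lt h2] at e1
    subst e1
    exact ⟨Nat.eq_of_mul_eq_mul_right (by omega) (Nat.add_right_cancel h), rfl⟩
  obtain ⟨h1, e1⟩ := key ha ha' h
  obtain ⟨h2, e2⟩ := key hb hb' h1
  obtain ⟨h3, e3⟩ := key hc hc' h2
  obtain ⟨e5, e4⟩ := key hd hd' h3
  exact ⟨e1, e2, e3, e4, e5⟩

lemma exists_code (Q : ℕ) (P : ℕ → ℕ → ℕ → ℕ → ℕ → Prop) : ∃ c : ℕ, ∀ a b x y z, a < Q → b < Q →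
    x < Q → y < Q → z < Q → (c.testBit (idx Q a b x y z) = true ↔ P a b x y z) := by
  classical
  refine ⟨Nat.ofBits (n := Q ^ 5) fun i => decide (∃ a b x y z, a < Q ∧ b < Q ∧ x < Q ∧ y < Q ∧
    idx Q a b x y z = i ∧ P a b x y z), fun a b x y z ha hb hx hy hz => ?_⟩
  rw [Nat.testBit_ofBits_lt _ _ (idx_lt ha hb hx hy hz), decide_eq_true_iff]
  constructor
  · rintro ⟨a', b', x', y', z', h1, h2, h3, h4, h5, h6⟩
    obtain ⟨rfl, rfl, rfl, rfl, rfl⟩ := idx_inj h1 h2 h3 h4 ha hb hx hy h5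
    exact h6
  · exact fun h => ⟨a, b, x, y, z, ha, hb, hx, hy, rfl, h⟩

end Vale.Agent.P310
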