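import Vale.Agent.P310.Sys

namespace Vale.Agent.P310
open Finset Function

namespace RSys
variable {VT RT Z D : Type} [AddCommGroup Z] {S : RSys VT RT Z}
variable [Fintype VT] [Fintype RT] [Fintype Z] [Fintype D] [DecidableEq VT] [DecidableEq Z]

lemma Pos.move2 {k r : ℕ} {s : Finset ((VT × Z) × ZMod 2)}
    (h : S.Pos D k (r + 6) s) (hs : s.card + 4 ≤ k) {ρ : RT} {v : Z} (hv : S.sp ρ → v = 0)
    {e2 : ZMod 2} (h0 : (S.var ρ v 2, e2) ∈ s) :
    ∃ e0 e1, e0 + e1 + e2 = S.rhs ρ ∧
      S.Pos D k r (insert (S.var ρ v 0, e0) (insert (S.var ρ v 1, e1) s)) := by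
  obtain ⟨e, h1, h2⟩ := h.move hs hv h0
  have h3 : e2 = e 2 := h2.func (mem_union_left _ h0)
    (mem_union_right _ (mem_image_of_mem _ (mem_univ 2)))
  refine ⟨e 0, e 1, by rw [h3, ← h1, Fin.sum_univ_three], h2.subset ?_⟩
  intro q hq
  rcases mem_insert.1 hq with rfl | hq
  · exact mem_union_right _ (mem_image_of_mem _ (mem_univ 0))
  rcases mem_insert.1 hq with rfl | hq
  · exact mem_union_right _ (mem_image_of_mem _ (mem_univ 1))
  · exact mem_union_left _ hq

lemma Pos.move0 {k r : ℕ} {s : Finset ((VT × Z) × ZMod 2)}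
    (h : S.Pos D k (r + 6) s) (hs : s.card + 4 ≤ k) {ρ : RT} {v : Z} (hv : S.sp ρ → v = 0)
    {e0 : ZMod 2} (h0 : (S.var ρ v 0, e0) ∈ s) :
    ∃ e1 e2, e0 + e1 + e2 = S.rhs ρ ∧
      S.Pos D k r (insert (S.var ρ v 2, e2) (insert (S.var ρ v 1, e1) s)) := by
  obtain ⟨e, h1, h2⟩ := h.move hs hv h0
  have h3 : e0 = e 0 := h2.func (mem_union_left _ h0)
    (mem_union_right _ (mem_image_of_mem _ (mem_univ 0)))
  refine ⟨e 1, e 2, by rw [h3, ← h1, Fin.sum_univ_three], h2.subset ?_⟩
  intro q hq
  rcases mem_insert.1 hq with rfl | hq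
  · exact mem_union_right _ (mem_image_of_mem _ (mem_univ 2))
  rcases mem_insert.1 hq with rfl | hq
  · exact mem_union_right _ (mem_image_of_mem _ (mem_univ 1))
  · exact mem_union_left _ hq

lemma Pos.par {k n : ℕ} (hk : 3 * n + 4 ≤ k) (ρ : Fin n → RT) (v : Fin n → Z)
    (hv : ∀ l, S.sp (ρ l) → v l = 0) (e2 : Fin n → ZMod 2) (T : Finset (Fin n)) :
    ∀ r, S.Pos D k (r + 6 * T.card) (univ.image fun l => (S.var (ρ l) (v l) 2, e2 l)) →
    ∃ e0 e1 : Fin n → ZMod 2, (∀ l ∈ T, e0 l + e1 l + e2 l = S.rhs (ρ l)) ∧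
      S.Pos D k r ((univ.image fun l => (S.var (ρ l) (v l) 2, e2 l)) ∪
        ((T.image fun l => (S.var (ρ l) (v l) 0, e0 l)) ∪
          (T.image fun l => (S.var (ρ l) (v l) 1, e1 l)))) := by
  induction T using Finset.induction_on with
  | empty => exact fun r h => ⟨0, 0, by simp, by simpa using h⟩
  | insert l T hl ih =>
    intro r h
    rw [card_insert_of_notMem hl] at h
    obtain ⟨e0, e1, h1, h2⟩ := ih (r + 6) (by
      rwa [show r + 6 + 6 * T.card = r + 6 * (T.card + 1) by ring])
    have hT : T.card ≤ n := by simpa using card_le_univ T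
    obtain ⟨c0, c1, h3, h4⟩ := h2.move2 (ρ := ρ l) (v := v l) (e2 := e2 l) (by
      have := (card_union_le (univ.image fun l => (S.var (ρ l) (v l) 2, e2 l)) _).trans
        (Nat.add_le_add card_image_le ((card_union_le
          (T.image fun l => (S.var (ρ l) (v l) 0, e0 l))
          (T.image fun l => (S.var (ρ l) (v l) 1, e1 l))).trans
          (Nat.add_le_add card_image_le card_image_le)))
      rw [card_univ, Fintype.card_fin] at this
      omega) (hv l) (mem_union_left _ (mem_image_of_mem _ (mem_univ l)))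
    have hne : ∀ l' ∈ T, l' ≠ l := fun l' h e => hl (e ▸ h)
    refine ⟨update e0 l c0, update e1 l c1, fun l' hl' => ?_, h4.subset ?_⟩
    · rcases mem_insert.1 hl' with rfl | hl'
      · simpa using h3
      · rw [update_of_ne (hne _ hl'), update_of_ne (hne _ hl')]; exact h1 _ hl'
    · intro q hq
      simp only [mem_union, mem_insert, mem_image] at hq ⊢
      rcases hq with hq | ⟨l', rfl | hl', rfl⟩ | ⟨l', rfl | hl', rfl⟩
      · exact Or.inr (Or.inr (Or.inl hq))
      · left; simp
      · exact Or.inr (Or.inr (Or.inr (Or.inl ⟨l', hl', by rw [update_of_ne (hne _ hl')]⟩)))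
      · right; left; simp
      · exact Or.inr (Or.inr (Or.inr (Or.inr ⟨l', hl', by rw [update_of_ne (hne _ hl')]⟩)))

end RSys

variable {Q E R Cw Z : Type} [AddCommGroup Cw] [AddCommGroup Z] {L D : ℕ}

namespace HM
variable (M : HM Q E R Cw Z (L + 2) (D + 1))
variable [Fintype Q] [Fintype E] [Fintype R] [Fintype Z] {Dm : Type} [Fintype Dm]
variable [DecidableEq (VTy Q E R L D)] [DecidableEq Z]
variable (hinj : ∀ e r, Injective (M.tl e r)) (hne : ∀ e r j, M.tl e r j ≠ r) {k : ℕ}

lemma prefix_sum (hk : 3 * (L + 2) + 4 ≤ k) (hL : 0 < L) (o : Option R) (r : ℕ)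
    (ε : Fin (L + 2) → ZMod 2)
    (h : (M.sys hinj hne).Pos Dm k (r + 6 * L) (univ.image fun l => (xv (M.nv (M.node o) l), ε l))) :
    ∑ l, ε l = if o = none then 1 else 0 := by
  set base := univ.image fun l => ((xv (M.nv (M.node o) l) : VTy Q E R L D × Z), ε l) with hb
  have hbc : base.card ≤ L + 2 := card_image_le.trans (by simp)
  have key : ∀ m : Fin (L + 1), ∃ η, (M.sys hinj hne).Pos Dm k (r + 6 * (L - m))
      (insert (sh (M.pvT o m) 0, η) base) ∧
      η = (∑ l ∈ univ.filter (fun l : Fin (L + 2) => (l : ℕ) ≤ m), fun _ : Unit => ε l) () +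
        if o = none ∧ m = Fin.last L then 1 else 0 := by
    intro m
    induction m using Fin.induction with
    | zero =>
      refine ⟨ε 0, ?_, ?_⟩
      · rw [insert_eq_of_mem]
        · simpa using h
        · simp only [pvT, if_true, sh_xT]
          exact mem_image_of_mem _ (mem_univ _)
      · have : (0 : Fin (L + 1)) ≠ Fin.last L := by simp [Fin.ext_iff]; omega
        simp only [this, and_false, if_false, add_zero]
        exact (congrFun (sum_le_zero (fun l (_ : Unit) => ε l)) ()).symm
    | succ i ih =>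
      obtain ⟨η, h1, h2⟩ := ih
      have hi := i.2
      have e1 : r + 6 * (L - (i.castSucc : ℕ)) = r + 6 * (L - (i.succ : ℕ)) + 6 := by
        simp only [Fin.val_castSucc, Fin.val_succ]; omega
      rw [e1] at h1
      obtain ⟨c1, c2, h3, h4⟩ := h1.move0 (ρ := Sum.inr (o, i)) (v := 0) (e0 := η)
        (by have := card_insert_le (sh (M.pvT o i.castSucc) 0, η) base; omega) (fun _ => rfl)
        (mem_insert_self _ _)
      have h5 : c1 = ε i.succ.castSucc := h4.func (z := sh (M.xT o i.succ.castSucc) 0)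
        (mem_insert_of_mem (mem_insert_self _ _))
        (mem_insert_of_mem (mem_insert_of_mem (mem_insert_of_mem (by
          rw [sh_xT]; exact mem_image_of_mem _ (mem_univ _)))))
      refine ⟨c2, h4.subset (insert_subset_insert _ ((subset_insert _ _).trans
        (subset_insert _ _))), ?_⟩
      have n1 : i.castSucc ≠ Fin.last L := (Fin.castSucc_lt_last i).ne
      simp only [n1, and_false, if_false, add_zero, Fin.val_castSucc] at h2
      rw [Fin.val_succ, sum_le_succ _ i i.succ.castSucc rfl, Pi.add_apply, ← h2, ← h5]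
      have h6 : (M.sys hinj hne).rhs (Sum.inr (o, i)) =
          if o = none ∧ i.succ = Fin.last L then 1 else 0 := by
        simp only [sys, rhsR]
      rw [← h6, ← h3]
      exact (by decide : ∀ a b c : ZMod 2, c = a + b + (a + b + c)) _ _ _
  obtain ⟨η, h1, h2⟩ := key (Fin.last L)
  have h0 : Fin.last L ≠ 0 := by simp [Fin.ext_iff]; omega
  have h3 : η = ε (Fin.last (L + 1)) := h1.func (mem_insert_self _ _) (mem_insert_of_mem (by
    simp only [pvT, h0, if_false, if_true, sh_xT]
    exact mem_image_of_mem _ (mem_univ _)))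
  have h4 := congrFun (sum_le_all (fun l (_ : Unit) => ε l)) ()
  rw [sum_le_succ _ L (Fin.last (L + 1)) rfl, Pi.add_apply] at h4
  simp only [Finset.sum_apply] at h4 h2
  rw [← h4, ← h3, h2]
  simp only [and_true, Fin.val_last]
  exact (by decide : ∀ a b : ZMod 2, a + (a + b) = b) _ _

lemma claim (hk : 3 * (L + 2) + 4 ≤ k) (hL : 0 < L) (hD : 0 < D) {q : Q} {a : Cw}
    (h : M.Acc q a) : ∃ ρ0, ∀ r (ε : Fin (L + 2) → ZMod 2), (M.sys hinj hne).Pos Dm k ρ0
      (univ.image fun l => (xv (M.nv (q, r, a) l), ε l)) → ∑ l, ε l = 0 := by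
  induction h with
  | base =>
    refine ⟨0 + 6 * L, fun r ε h => ?_⟩
    simpa using M.prefix_sum hinj hne hk hL (some r) 0 ε h
  | rule e a _ ih =>
    obtain ⟨ρ1, h1⟩ := ih false
    obtain ⟨ρ2, h2⟩ := ih true
    have h3 : ∀ b r (ε : Fin (L + 2) → ZMod 2), (M.sys hinj hne).Pos Dm k (ρ1 + ρ2)
        (univ.image fun l => (xv (M.nv (M.sc e b, r, a + M.dl e b) l), ε l)) → ∑ l, ε l = 0 := by
      intro b r ε h
      cases b
      · exact h1 r ε (h.mono (by omega))
      · exact h2 r ε (h.mono (by omega))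
    have h4 : ∀ r (j : Fin (D + 1)) (ε : Fin (L + 2) → ZMod 2), (M.sys hinj hne).Pos Dm k (ρ1 + ρ2)
        (univ.image fun l => (sh (M.tlT e r l j) (M.enc a l), ε l)) → ∑ l, ε l = 0 := by
      intro r j ε h
      refine h3 (M.cls j) (M.tl e r j) ε ?_
      simp only [sh_tlT] at h
      simp only [← tv_fam]
      exact h
    have key : ∀ r (j : Fin (D + 1)) (ε : Fin (L + 2) → ZMod 2), (M.sys hinj hne).Pos Dm k (ρ1 + ρ2 + 6 * (L + 2) * j)
        (univ.image fun l => (sh (M.cvT e r l j) (M.enc a l), ε l)) → ∑ l, ε l = 0 := by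
      intro r j
      induction j using Fin.induction with
      | zero =>
        intro ε h
        exact h4 r 0 ε (by simpa [cvT] using h)
      | succ i ih2 =>
        intro ε h
        obtain ⟨e0, e1, g1, g2⟩ := RSys.Pos.par (S := M.sys hinj hne) (D := Dm) hk
          (fun l => Sum.inl (e, r, l, i)) (fun l => M.enc a l) (fun _ h => h.elim) ε univ
          (ρ1 + ρ2 + 6 * (L + 2) * i) (by
            rw [card_univ, Fintype.card_fin]
            refine h.mono (le_of_eq ?_)
            rw [Fin.val_succ]; ring)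
        have g3 := ih2 e0 (g2.subset (subset_union_left.trans subset_union_right))
        have g4 := h4 r i.succ e1 ((g2.subset (subset_union_right.trans subset_union_right)).mono
          (by omega))
        have g5 : ∀ l, ε l = e0 l + e1 l := by
          intro l
          have := g1 l (mem_univ _)
          simp only [sys, rhsR] at this
          exact (by decide : ∀ a b c : ZMod 2, a + b + c = 0 → c = a + b) _ _ _ this
        simp only [g5, sum_add_distrib, g3, g4, add_zero]
    refine ⟨ρ1 + ρ2 + 6 * (L + 2) * D, fun r ε h => key r (Fin.last D) ε ?_⟩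
    have h0 : Fin.last D ≠ 0 := by simp [Fin.ext_iff]; omega
    simp only [sh_cv_last _ _ _ _ _ h0]
    exact h

theorem not_equiv_of_acc (hk : 3 * (L + 2) + 4 ≤ k) (hL : 0 < L) (hD : 0 < D)
    (h : M.Acc M.q0 M.a0) : ¬ WLEq k ((M.sys hinj hne).Gr Dm 0) ((M.sys hinj hne).Gr Dm 1) := by
  intro hW
  obtain ⟨ρ0, h0⟩ := M.claim (Dm := Dm) hinj hne hk hL hD h
  have key : ∀ m : Fin (L + 1), ∃ η, ∃ ε : Fin (L + 2) → ZMod 2,
      (M.sys hinj hne).Pos Dm k (ρ0 + 6 * L + 6 * (L - m)) (insert (sh (M.pvT none m) 0, η)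
        ((univ.filter fun l : Fin (L + 2) => (l : ℕ) ≤ m).image
          fun l => (xv (M.nv (M.node none) l), ε l))) := by
    intro m
    induction m using Fin.induction with
    | zero =>
      obtain ⟨e, -, h1⟩ := RSys.Pos.start (S := M.sys hinj hne) (by omega) hW
        (ρ := Sum.inr (none, ⟨0, hL⟩)) trivial (ρ0 + 6 * L + 6 * L)
      refine ⟨e 0, fun _ => e 0, h1.subset ?_⟩
      have h2 : (sh (M.pvT none 0) 0, e 0) ∈ univ.image fun i =>
        ((M.sys hinj hne).var (Sum.inr (none, ⟨0, hL⟩)) 0 i, e i) := mem_image_of_mem _ (mem_univ 0)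
      intro q hq
      rcases mem_insert.1 hq with rfl | hq
      · exact h2
      · obtain ⟨l, hl, rfl⟩ := mem_image.1 hq
        have : l = 0 := by
          have := (mem_filter.1 hl).2
          exact Fin.ext (by simpa using this)
        subst this
        simpa only [pvT, if_true, sh_xT] using h2
    | succ i ih =>
      obtain ⟨η, ε, h1⟩ := ih
      have hi := i.2
      have e1 : ρ0 + 6 * L + 6 * (L - (i.castSucc : ℕ)) = ρ0 + 6 * L + 6 * (L - (i.succ : ℕ)) + 6 := by
        simp only [Fin.val_castSucc, Fin.val_succ]; omega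
      rw [e1] at h1
      obtain ⟨c1, c2, -, h4⟩ := h1.move0 (ρ := Sum.inr (none, i)) (v := 0) (e0 := η)
        (by
          have := (card_insert_le (sh (M.pvT none i.castSucc) 0, η) _).trans (Nat.add_le_add_right
            ((card_image_le (s := univ.filter fun l : Fin (L + 2) => (l : ℕ) ≤ i.castSucc)
              (f := fun l => ((xv (M.nv (M.node none) l) : VTy Q E R L D × Z), ε l))).trans
              (card_le_univ _)) 1)
          rw [Fintype.card_fin] at this
          omega) (fun _ => rfl) (mem_insert_self _ _)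
      refine ⟨c2, update ε i.succ.castSucc c1, h4.subset (insert_subset_insert _ ?_)⟩
      intro q hq
      obtain ⟨l, hl, rfl⟩ := mem_image.1 hq
      by_cases e : l = i.succ.castSucc
      · subst e
        rw [update_self, ← sh_xT]
        exact mem_insert_self _ _
      · rw [update_of_ne e]
        refine mem_insert_of_mem (mem_insert_of_mem (mem_image_of_mem _ ?_))
        have := (mem_filter.1 hl).2
        simp only [Fin.ext_iff, Fin.val_castSucc, Fin.val_succ] at this e
        simp only [mem_filter, mem_univ, true_and, Fin.val_castSucc]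
        omega
  obtain ⟨η, ε, h1⟩ := key (Fin.last L)
  have hl0 : Fin.last L ≠ 0 := by simp [Fin.ext_iff]; omega
  have h2 : (M.sys hinj hne).Pos Dm k (ρ0 + 6 * L)
      (univ.image fun l => (xv (M.nv (M.node none) l), update ε (Fin.last (L + 1)) η l)) := by
    refine (h1.mono (by omega)).subset ?_
    intro q hq
    obtain ⟨l, -, rfl⟩ := mem_image.1 hq
    by_cases e : l = Fin.last (L + 1)
    · subst e
      simp only [update_self, pvT, hl0, if_false, if_true, sh_xT]
      exact mem_insert_self _ _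
    · rw [update_of_ne e]
      refine mem_insert_of_mem (mem_image_of_mem _ ?_)
      have := l.2
      simp only [Fin.ext_iff, Fin.val_last] at e
      simp only [mem_filter, mem_univ, true_and, Fin.val_last]
      omega
  have h3 := M.prefix_sum hinj hne hk hL none ρ0 _ h2
  have h4 := h0 M.r0 _ (h2.mono (by omega))
  rw [h4] at h3
  simp at h3

end HM

end Vale.Agent.P310
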