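import Vale.Agent.P310.Inp
import Vale.Agent.P310.Spoil

namespace Vale.Agent.P310
open Finset Function

section lines
variable (E : Type) [Fintype E] (D : ℕ)

def A0 : ℕ := 4 * Fintype.card E * D ^ 2 + 1
abbrev RR := Bool × Fin D × Fin (2 * A0 E D)

variable {E D}

noncomputable def uu (e : E) (r : RR E D) : ℕ := (Fintype.equivFin (E × RR E D) (e, r)).val

noncomputable def tlF (e : E) (r : RR E D) (j : Fin D) : RR E D :=
  (!r.1, j, ⟨(uu e r % A0 E D + j * (uu e r / A0 E D)) % (2 * A0 E D),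
    Nat.mod_lt _ (by unfold A0; omega)⟩)

lemma line_lt (e : E) (r : RR E D) (j : Fin D) :
    uu e r % A0 E D + j * (uu e r / A0 E D) < 2 * A0 E D := by
  have hA : 0 < A0 E D := by unfold A0; omega
  have h1 : uu e r % A0 E D < A0 E D := Nat.mod_lt _ hA
  have h2 : uu e r < Fintype.card E * (2 * (D * (2 * A0 E D))) := by
    have := (Fintype.equivFin (E × RR E D) (e, r)).2
    simpa [uu] using this
  have h3 : uu e r / A0 E D ≤ 4 * Fintype.card E * D := by
    apply Nat.div_le_of_le_mul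
    nlinarith
  have h4 : j * (uu e r / A0 E D) ≤ D * (4 * Fintype.card E * D) := Nat.mul_le_mul j.2.le h3
  have : D * (4 * Fintype.card E * D) < A0 E D := by unfold A0; nlinarith
  omega

lemma tlF_two (e : E) (r : RR E D) (e' : E) (r' : RR E D) (j j' : Fin D) (hj : j ≠ j')
    (h1 : tlF e r j = tlF e' r' j) (h2 : tlF e r j' = tlF e' r' j') : e = e' ∧ r = r' := by
  simp only [tlF, Prod.mk.injEq, Fin.mk.injEq, Nat.mod_eq_of_lt (line_lt _ _ _), true_and] at h1 h2
  have h3 := h1.2
  have h4 := h2.2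
  have hj' : (j : ℤ) - j' ≠ 0 := by
    intro h; apply hj; apply Fin.ext; omega
  have h5 : uu e r / A0 E D = uu e' r' / A0 E D := by
    zify at h3 h4
    have : ((j : ℤ) - j') * (((uu e r / A0 E D : ℕ) : ℤ) - ((uu e' r' / A0 E D : ℕ) : ℤ)) = 0 := by
      push_cast; linear_combination h3 - h4
    have := (mul_eq_zero.1 this).resolve_left hj'
    omega
  rw [h5] at h3
  have h6 : uu e r = uu e' r' := by
    rw [← Nat.mod_add_div (uu e r) (A0 E D), ← Nat.mod_add_div (uu e' r') (A0 E D), h5]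
    omega
  have := (Fintype.equivFin (E × RR E D)).injective (Fin.ext h6)
  simpa using this

end lines

section enc
variable {m : ℕ}

def exR : Reg m → ℕ
  | Sum.inr i => i
  | Sum.inl t => 13 + 2 * t.2 + t.1.toNat

lemma exR_inj : Injective (exR (m := m)) := by
  rintro (⟨b, d⟩ | i) (⟨b', d'⟩ | i') h <;> simp only [exR] at h
  · cases b <;> cases b' <;> simp at h ⊢ <;> omega
  · omega
  · omega
  · rw [Fin.ext h]

lemma exR_le (r : Reg m) : exR r ≤ 2 * m + 23 := by
  rcases r with ⟨b, d⟩ | i <;> simp only [exR]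
  · cases b <;> simp <;> omega
  · omega

def encF (p L : ℕ) : (Reg m → ZMod p) →+ (Fin L → ZMod p) where
  toFun a l := ∑ r, a r * ((l : ℕ) : ZMod p) ^ exR r
  map_zero' := by funext l; simp
  map_add' a b := by funext l; simp [add_mul, sum_add_distrib]

lemma encF_single (p L : ℕ) (i : Reg m) (x : ZMod p) (l : Fin L) :
    encF p L (Pi.single i x) l = x * ((l : ℕ) : ZMod p) ^ exR i := by
  simp only [encF, AddMonoidHom.coe_mk, ZeroHom.coe_mk]
  rw [sum_eq_single i]
  · simp
  · intro j _ hj; simp [hj]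
  · simp

open Polynomial in
lemma encF_agree {p L : ℕ} [Fact p.Prime] (hL : L ≤ p) (a a' : Reg m → ZMod p) (h : a ≠ a') :
    Nat.card {l // encF p L a l = encF p L a' l} ≤ 2 * m + 23 := by
  classical
  set P : (ZMod p)[X] := ∑ r, monomial (exR r) (a r - a' r) with hP
  have hP0 : P ≠ 0 := by
    obtain ⟨r, hr⟩ := Function.ne_iff.1 h
    intro h0
    have := congrArg (fun q => q.coeff (exR r)) h0
    simp only [hP, finset_sum_coeff, coeff_monomial, exR_inj.eq_iff, sum_ite_eq', mem_univ,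
      if_true, coeff_zero] at this
    exact hr (sub_eq_zero.1 this)
  have hdeg : P.natDegree ≤ 2 * m + 23 :=
    natDegree_sum_le_of_forall_le _ _ fun r _ => (natDegree_monomial_le _).trans (exR_le r)
  rw [Nat.card_eq_fintype_card, Fintype.card_subtype]
  refine le_trans ?_ ((Multiset.toFinset_card_le P.roots).trans ((card_roots' P).trans hdeg))
  refine card_le_card_of_injOn (fun l => ((l : ℕ) : ZMod p)) ?_ ?_
  · intro l hl
    have := (mem_filter.1 (mem_coe.1 hl)).2
    simp only [encF, AddMonoidHom.coe_mk, ZeroHom.coe_mk] at this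
    rw [mem_coe, Multiset.mem_toFinset, mem_roots hP0, IsRoot.def, hP]
    simp only [eval_finset_sum, eval_monomial, sub_mul, sum_sub_distrib, this, sub_self]
  · intro l _ l' _ h
    have := congrArg ZMod.val h
    simp only [ZMod.val_cast_of_lt (lt_of_lt_of_le l.2 hL),
      ZMod.val_cast_of_lt (lt_of_lt_of_le l'.2 hL)] at this
    exact Fin.ext this

end enc

variable (M : TM) (m L d : ℕ)

abbrev QQ := St (body M m)
abbrev ER := QQ M m × Bool
abbrev R1 := RR (ER M m) (2 * d + 1)

noncomputable def mk (p B : ℕ) (c0 : ZMod p) :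
    HM (QQ M m) (ER M m) (R1 M m d) (Reg m → ZMod p) (ZMod p) (L + 2) (2 * d + 1) :=
  toHM B rc (body M m) .start (encF p (L + 2)) tlF (fun j => decide ((j : ℕ) < d))
    (true, 0, ⟨0, by unfold A0; omega⟩) (Pi.single rc c0)

lemma mk_inj (p B : ℕ) (c0 : ZMod p) (e : ER M m) (r : R1 M m d) :
    Injective ((mk M m L d p B c0).tl e r) := fun _ _ h => congrArg (fun x => x.2.1) h

lemma mk_ne (p B : ℕ) (c0 : ZMod p) (e : ER M m) (r : R1 M m d) (j : Fin (2 * d + 1)) :
    (mk M m L d p B c0).tl e r j ≠ r := by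
  intro h
  have := congrArg Prod.fst h
  simp [mk, toHM, tlF] at this

lemma mk_good {p : ℕ} [Fact p.Prime] (B : ℕ) (c0 : ZMod p) (hL : L + 2 ≤ p)
    (hm : 8 * (1411 ^ 2 * (2 * m + 23)) ≤ L + 2) (hd : 1411 * (736 * (L + 2) + 1) < d) :
    (mk M m L d p B c0).Good (2 * m + 23) d where
  agree := encF_agree hL
  tl_inj := mk_inj M m L d p B c0
  tl_same := fun _ _ _ _ _ _ h => congrArg (fun x => x.2.1) h
  tl_two := tlF_two
  cls_card := by
    intro β
    cases β
    · refine le_trans (by simp) (card_le_card_of_injOn (s := (univ : Finset (Fin d)))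
        (fun i => (⟨d + i, by omega⟩ : Fin (2 * d + 1))) ?_ ?_)
      · intro i _; simp [mk, toHM]
      · intro i _ j _ h
        simp only [Fin.mk.injEq] at h
        exact Fin.ext (by omega)
    · refine le_trans (by simp) (card_le_card_of_injOn (s := (univ : Finset (Fin d)))
        (fun i => (⟨i, by omega⟩ : Fin (2 * d + 1))) ?_ ?_)
      · intro i _; simp [mk, toHM]
      · intro i _ j _ h
        simp only [Fin.mk.injEq] at h
        exact Fin.ext h
  hL := hm
  hL0 := by omega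
  hd := hd

abbrev VT1 := VTy (QQ M m) (ER M m) (R1 M m d) L (2 * d)
abbrev RT1 := RTy (ER M m) (R1 M m d) L (2 * d)

noncomputable def tlZ (B : ℕ) (e : ER M m) (l : Fin (L + 2)) (j : Fin (2 * d + 1)) : ℤ :=
  (nxt rc (body M m) e.1.1 e.2 (decide ((j : ℕ) < d))).2.2.val B *
    ((l : ℕ) : ℤ) ^ exR (nxt rc (body M m) e.1.1 e.2 (decide ((j : ℕ) < d))).2.1

noncomputable def offZ (B : ℕ) : RT1 M m L d → Fin 3 → ℤ
  | Sum.inl t => ![if t.2.2.2.castSucc = 0 then tlZ M m L d B t.1 t.2.2.1 0 else 0,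
      tlZ M m L d B t.1 t.2.2.1 t.2.2.2.succ, 0]
  | Sum.inr _ => 0

noncomputable def S1 : RSys (VT1 M m L d) (RT1 M m L d) (ZMod 1) :=
  (mk M m L d 1 0 0).sys (mk_inj M m L d 1 0 0) (mk_ne M m L d 1 0 0)

noncomputable def S0 (B : ℕ) : RSys (VT1 M m L d) (RT1 M m L d) ℤ where
  slot := (S1 M m L d).slot
  off := offZ M m L d B
  sp := HM.spR
  rhs := HM.rhsR
  N := HM.NS (QQ M m) (ER M m) (R1 M m d) L (2 * d)
  code := HM.codeS
  code_inj := (S1 M m L d).code_inj
  code_le := (S1 M m L d).code_le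
  slot_inj := (S1 M m L d).slot_inj

def isI (ρ : RT1 M m L d) (i : Fin 3) : Prop :=
  ∃ t, ρ = Sum.inr (none, t) ∧ ((S1 M m L d).slot ρ i).isLeft = true

lemma slot_congr {Q E R Cw Z Cw' Z' : Type} [AddCommGroup Cw] [AddCommGroup Z] [AddCommGroup Cw']
    [AddCommGroup Z'] {L D : ℕ} (M : HM Q E R Cw Z (L + 2) (D + 1))
    (M' : HM Q E R Cw' Z' (L + 2) (D + 1)) (h1 : M.sc = M'.sc) (h2 : M.tl = M'.tl)
    (h3 : M.cls = M'.cls) (h4 : M.hd = M'.hd) (h5 : M.acc = M'.acc) (h6 : M.q0 = M'.q0)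
    (h7 : M.r0 = M'.r0) (ρ : RTy E R L D) (i : Fin 3) :
    (M.slotoff ρ i).1 = (M'.slotoff ρ i).1 := by
  have ht : ∀ e r l j, (M.tlT e r l j).1 = (M'.tlT e r l j).1 := by
    intro e r l j; simp only [HM.tlT, h1, h2, h3]
  have hc : ∀ e r l j, (M.cvT e r l j).1 = (M'.cvT e r l j).1 := by
    intro e r l j
    unfold HM.cvT
    split_ifs
    · exact ht _ _ _ _
    · simp only [h4]
    · rfl
  have hx : ∀ o l, (M.xT o l).1 = (M'.xT o l).1 := by
    rintro (_ | r) l
    · simp only [HM.xT, HM.node, HM.ini, h6, h7]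
    · simp only [HM.xT, HM.node, h5]
  have hp : ∀ o l, (M.pvT o l).1 = (M'.pvT o l).1 := by
    intro o l
    unfold HM.pvT
    split_ifs
    · exact hx _ _
    · exact hx _ _
    · rfl
  rcases ρ with ⟨e, r, l, j⟩ | ⟨o, j⟩
  · fin_cases i
    · exact hc _ _ _ _
    · exact ht _ _ _ _
    · exact hc e r l j.succ
  · fin_cases i
    · exact hp _ _
    · exact hx _ _
    · exact hp o j.succ

lemma sys_eq (p B : ℕ) (c0 : ZMod p) [Fact p.Prime] :
    (mk M m L d p B c0).sys (mk_inj M m L d p B c0) (mk_ne M m L d p B c0) =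
      (S0 M m L d B).lift (isI M m L d) c0 := by
  have h1 : ∀ ρ i, ((mk M m L d p B c0).slotoff ρ i).1 = ((mk M m L d 1 0 0).slotoff ρ i).1 :=
    slot_congr _ _ rfl rfl rfl rfl rfl rfl rfl
  have ht : ∀ e r l j, ((mk M m L d p B c0).tlT e r l j).2 = (tlZ M m L d B e l j : ZMod p) := by
    intro e r l j
    simp [HM.tlT, mk, toHM, encF_single, tlZ]
  have hx : ∀ o l, ((mk M m L d p B c0).xT o l).2 = if o = none then c0 else 0 := by
    rintro (_ | r) l
    · simp [HM.xT, HM.node, HM.ini, mk, toHM, encF_single, exR]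
    · simp [HM.xT, HM.node]
  classical
  have h2 : ∀ ρ i, ((mk M m L d p B c0).slotoff ρ i).2 =
      if isI M m L d ρ i then c0 else (offZ M m L d B ρ i : ZMod p) := by
    rintro (⟨e, r, l, j⟩ | ⟨o, j⟩) i
    · rw [if_neg (by simp [isI])]
      fin_cases i
      · simp only [HM.slotoff, HM.cvT, Fin.zero_eta, Matrix.cons_val_zero, offZ]
        split_ifs
        · exact ht _ _ _ _
        · simp
        · simp
      · exact ht _ _ _ _
      · simp only [HM.slotoff, HM.cvT, Fin.reduceFinMk, Matrix.cons_val, offZ, Fin.succ_ne_zero,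
          if_false]
        split_ifs <;> simp
    · have : isI M m L d (Sum.inr (o, j)) i ↔ o = none ∧
          ((mk M m L d p B c0).slotoff (Sum.inr (o, j)) i).1.isLeft = true := by
        rw [h1]
        constructor
        · rintro ⟨t, h, h'⟩
          simp only [Sum.inr.injEq, Prod.mk.injEq] at h
          exact ⟨h.1, h'⟩
        · rintro ⟨rfl, h⟩
          exact ⟨j, rfl, h⟩
      simp only [this, offZ, Pi.zero_apply, Int.cast_zero]
      have hl : ∀ o l, ((mk M m L d p B c0).xT o l).1.isLeft = true := fun _ _ => rfl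
      fin_cases i
      · simp only [HM.slotoff, HM.pvT, Fin.zero_eta, Matrix.cons_val_zero]
        by_cases a : j.castSucc = 0
        · simp [a, hx, hl]
        · simp [a, (Fin.castSucc_lt_last j).ne]
      · simp [HM.slotoff, hx, hl]
      · simp only [HM.slotoff, HM.pvT, Fin.reduceFinMk, Matrix.cons_val, Fin.succ_ne_zero, if_false]
        by_cases a : j.succ = Fin.last L
        · simp [a, hx, hl]
        · simp [a]
  unfold HM.sys RSys.lift S0
  congr 1
  · funext ρ i; exact h1 ρ i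
  · funext ρ i
    rw [h2]

lemma offZ_lt {B : ℕ} (hB : (L + 2) ^ (2 * m + 23) < B) (ρ : RT1 M m L d) (i : Fin 3) :
    (offZ M m L d B ρ i).natAbs < B * B := by
  have hB0 : 0 < B := by omega
  have h0 : 0 < B * B := Nat.mul_pos hB0 hB0
  have ht : ∀ e l j, (tlZ M m L d B e l j).natAbs < B * B := by
    intro e l j
    unfold tlZ
    rw [Int.natAbs_mul, Int.natAbs_pow, Int.natAbs_natCast]
    generalize nxt rc (body M m) e.1.1 e.2 (decide ((j : ℕ) < d)) = t
    have h1 : (t.2.2.val B).natAbs ≤ B := by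
      cases t.2.2 <;> simp [Sh.val] <;> omega
    have h2 : (l : ℕ) ^ exR t.2.1 ≤ (L + 2) ^ (2 * m + 23) :=
      (Nat.pow_le_pow_left l.2.le _).trans (Nat.pow_le_pow_right (by omega) (exR_le _))
    calc _ ≤ B * (l : ℕ) ^ exR t.2.1 := Nat.mul_le_mul_right _ h1
      _ < B * B := Nat.mul_lt_mul_of_pos_left (by omega) hB0
  rcases ρ with ⟨e, r, l, j⟩ | t
  · fin_cases i
    · simp only [offZ, Fin.zero_eta, Matrix.cons_val_zero]
      split_ifs
      · exact ht _ _ _
      · simpa using h0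
    · exact ht _ _ _
    · simpa [offZ] using h0
  · simpa [offZ] using h0

end Vale.Agent.P310
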