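import Mathlib

namespace Vale.Agent.P310
open Finset Function

/-- Horn machine with code and line design. -/
structure HM (Q E R Cw Z : Type) [AddCommGroup Cw] [AddCommGroup Z] (L D : ℕ) where
  acc : Q
  hd : E → Q
  sc : E → Bool → Q
  dl : E → Bool → Cw
  enc : Cw →+ (Fin L → Z)
  tl : E → R → Fin D → R
  cls : Fin D → Bool
  q0 : Q
  r0 : R
  a0 : Cw

variable {Q E R Cw Z : Type} [AddCommGroup Cw] [AddCommGroup Z] {L D : ℕ}

inductive HM.Acc (M : HM Q E R Cw Z L D) : Q → Cw → Prop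
  | base : HM.Acc M M.acc 0
  | rule (e : E) (a : Cw) : (∀ β, HM.Acc M (M.sc e β) (a + M.dl e β)) → HM.Acc M (M.hd e) a

abbrev Ch (E R Z : Type) (L : ℕ) := E × R × Fin L × Z
abbrev XV (Q R Z : Type) (L : ℕ) := Q × R × Fin L × Z
abbrev Nd (Q R Cw : Type) := Q × R × Cw

open Classical in
noncomputable def ind {X : Type} (x : X) : X → ZMod 2 := fun y => if y = x then 1 else 0

lemma ind_self {X : Type} (x : X) : ind x x = 1 := by simp [ind]
lemma ind_ne {X : Type} {x y : X} (h : y ≠ x) : ind x y = 0 := by simp [ind, h]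
lemma eq_of_ind {X : Type} {x y : X} (h : ind x y ≠ 0) : y = x := by
  by_contra h'; exact h (ind_ne h')

lemma sum_symmDiff2 {ι X : Type} [DecidableEq ι] (s t : Finset ι) (f : ι → X → ZMod 2) :
    ∑ i ∈ symmDiff s t, f i = ∑ i ∈ s, f i + ∑ i ∈ t, f i := by
  have h1 : ∑ i ∈ symmDiff s t, f i = ∑ i ∈ s \ t, f i + ∑ i ∈ t \ s, f i := by
    rw [symmDiff_def, sup_eq_union, sum_union disjoint_sdiff_sdiff]
  have h2 := sum_inter_add_sum_sdiff s t f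
  have h3 := sum_inter_add_sum_sdiff t s f
  rw [inter_comm] at h3
  rw [h1, ← h2, ← h3]
  funext x
  simp only [Pi.add_apply]
  exact (by decide : ∀ a b c : ZMod 2, a + b = c + a + (c + b)) _ _ _

lemma card_symmDiff2 {ι : Type} [DecidableEq ι] (s t : Finset ι) :
    (symmDiff s t).card + 2 * (s ∩ t).card = s.card + t.card := by
  rw [symmDiff_def, sup_eq_union, card_union_of_disjoint disjoint_sdiff_sdiff]
  have h2 := card_sdiff_add_card_inter s t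
  have h3 := card_sdiff_add_card_inter t s
  rw [inter_comm] at h3
  omega

lemma card_filter_ex_le {ι O : Type} [Fintype ι] (T : Finset O) (Rel : ι → O → Prop)
    [DecidablePred fun j => ∃ o ∈ T, Rel j o]
    (h : ∀ o ∈ T, ∀ j j', Rel j o → Rel j' o → j = j') :
    (univ.filter fun j => ∃ o ∈ T, Rel j o).card ≤ T.card := by
  classical
  have : (univ.filter fun j => ∃ o ∈ T, Rel j o) ⊆ T.biUnion (fun o => univ.filter (Rel · o)) := by
    intro j hj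
    obtain ⟨o, ho, hr⟩ := (mem_filter.1 hj).2
    exact mem_biUnion.2 ⟨o, ho, by simpa using hr⟩
  refine (card_le_card this).trans (card_biUnion_le.trans ?_)
  calc ∑ o ∈ T, (univ.filter (Rel · o)).card ≤ ∑ _o ∈ T, 1 := by
        refine sum_le_sum fun o ho => card_le_one.2 fun j hj j' hj' => ?_
        exact h o ho j j' (mem_filter.1 hj).2 (mem_filter.1 hj').2
    _ = T.card := by simp

namespace HM
variable (M : HM Q E R Cw Z L D)

def hv (γ : Ch E R Z L) : XV Q R Z L := (M.hd γ.1, γ.2.1, γ.2.2.1, γ.2.2.2)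
def tv (γ : Ch E R Z L) (j : Fin D) : XV Q R Z L :=
  (M.sc γ.1 (M.cls j), M.tl γ.1 γ.2.1 j, γ.2.2.1, γ.2.2.2 + M.enc (M.dl γ.1 (M.cls j)) γ.2.2.1)
def nv (ν : Nd Q R Cw) (l : Fin L) : XV Q R Z L := (ν.1, ν.2.1, l, M.enc ν.2.2 l)
def ini : Nd Q R Cw := (M.q0, M.r0, M.a0)
def fam (e : E) (r : R) (a : Cw) (l : Fin L) : Ch E R Z L := (e, r, l, M.enc a l)

noncomputable def Lam (γ : Ch E R Z L) : XV Q R Z L → ZMod 2 :=
  ind (M.hv γ) + ∑ j, ind (M.tv γ j)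
noncomputable def U (ν : Nd Q R Cw) : XV Q R Z L → ZMod 2 := ∑ l, ind (M.nv ν l)

/-- structural hypotheses -/
structure Good (κ d : ℕ) : Prop where
  agree : ∀ a a' : Cw, a ≠ a' → Nat.card {l // M.enc a l = M.enc a' l} ≤ κ
  tl_inj : ∀ e r, Injective (M.tl e r)
  tl_same : ∀ e r e' r' j j', M.tl e r j = M.tl e' r' j' → j = j'
  tl_two : ∀ e r e' r' j j', j ≠ j' → M.tl e r j = M.tl e' r' j → M.tl e r j' = M.tl e' r' j' →
    e = e' ∧ r = r'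
  cls_card : ∀ β, d ≤ (univ.filter fun j => M.cls j = β).card
  hL : 8 * (1411 ^ 2 * κ) ≤ L
  hL0 : 0 < L
  hd : 1411 * (736 * L + 1) < d

structure Small (ψ : XV Q R Z L → ZMod 2) (Γ0 : Finset (Ch E R Z L)) (J : Finset (XV Q R Z L))
    (P : Finset (Nd Q R Cw)) : Prop where
  c1 : Γ0.card ≤ 10 * L
  c2 : J.card ≤ 10 * L
  c3 : P.card ≤ 10 * L
  msg : ∀ ν ∈ P, ν.2.2 = 0 ∨ ν.2.2 = M.a0
  supp : ∀ x, ψ x ≠ 0 → x ∈ J ∨ (∃ γ ∈ Γ0, ∃ j, x = M.tv γ j) ∨ ∃ ν ∈ P, ∃ l, x = M.nv ν l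

open Classical in
structure Rep (ψ : XV Q R Z L → ZMod 2) (β : ZMod 2) (Γ : Finset (Ch E R Z L))
    (F : Finset (Nd Q R Cw)) (W : Finset Cw) : Prop where
  z : (0 : Cw) ∈ W
  i : M.a0 ∈ W
  msg : ∀ ν ∈ F, ν.2.2 ∈ W
  ok : ∀ ν ∈ F, M.Acc ν.1 ν.2.2 ∨ ν = M.ini
  par : β = if M.ini ∈ F then 1 else 0
  eq : ψ = ∑ γ ∈ Γ, M.Lam γ + ∑ ν ∈ F, M.U ν

def good (W : Finset Cw) (l : Fin L) : Prop :=
  ∀ a ∈ W, ∀ a' ∈ W, M.enc a l = M.enc a' l → a = a'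

variable {M} {κ d : ℕ}

open Classical in
lemma card_bad (hG : M.Good κ d) (W : Finset Cw) (hW : W.card ≤ 1411) :
    8 * (univ.filter fun l => ¬ M.good W l).card ≤ L := by
  have : (univ.filter fun l => ¬ M.good W l) ⊆ (W ×ˢ W).biUnion (fun p =>
      univ.filter fun l => p.1 ≠ p.2 ∧ M.enc p.1 l = M.enc p.2 l) := by
    intro l hl
    have := (mem_filter.1 hl).2
    unfold good at this
    push Not at this
    obtain ⟨a, ha, a', ha', h1, h2⟩ := this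
    exact mem_biUnion.2 ⟨(a, a'), mem_product.2 ⟨ha, ha'⟩, by simp [h1, h2]⟩
  have h2 := (card_le_card this).trans card_biUnion_le
  have h3 : ∑ p ∈ W ×ˢ W, (univ.filter fun l => p.1 ≠ p.2 ∧ M.enc p.1 l = M.enc p.2 l).card
      ≤ ∑ _p ∈ W ×ˢ W, κ := by
    refine sum_le_sum fun p _ => ?_
    by_cases hp : p.1 = p.2
    · simp [hp]
    · have := hG.agree _ _ hp
      rw [Nat.card_eq_fintype_card, Fintype.card_subtype] at this
      simpa [hp] using this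
  rw [sum_const, card_product, smul_eq_mul] at h3
  have h4 : W.card * W.card * κ ≤ 1411 ^ 2 * κ := by
    rw [sq]; gcongr
  have := hG.hL
  omega

lemma tv_inj (hG : M.Good κ d) (γ : Ch E R Z L) : Injective (M.tv γ) := by
  intro j j' h
  exact hG.tl_inj _ _ (congrArg (fun x => x.2.1) h)

lemma tv_other (hG : M.Good κ d) {γ γ' : Ch E R Z L} (hne : γ' ≠ γ) {j1 j2 j1' j2' : Fin D}
    (h1 : M.tv γ j1 = M.tv γ' j1') (h2 : M.tv γ j2 = M.tv γ' j2') : j1 = j2 := by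
  by_contra hj
  obtain ⟨e, r, l, v⟩ := γ
  obtain ⟨e', r', l', v'⟩ := γ'
  simp only [tv, Prod.mk.injEq] at h1 h2
  obtain rfl := hG.tl_same _ _ _ _ _ _ h1.2.1
  obtain rfl := hG.tl_same _ _ _ _ _ _ h2.2.1
  obtain ⟨rfl, rfl⟩ := hG.tl_two _ _ _ _ _ _ hj h1.2.1 h2.2.1
  obtain rfl := h1.2.2.1
  obtain rfl := add_right_cancel h1.2.2.2
  exact hne rfl

lemma sum_ne_zero_ex {ι X : Type} {s : Finset ι} {f : ι → X → ZMod 2} {x : X}
    (h : (∑ i ∈ s, f i) x ≠ 0) : ∃ i ∈ s, f i x ≠ 0 := by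
  rw [Finset.sum_apply] at h
  exact exists_ne_zero_of_sum_ne_zero h

lemma U_ne {ν : Nd Q R Cw} {x : XV Q R Z L} (h : M.U ν x ≠ 0) : ∃ l, x = M.nv ν l := by
  obtain ⟨l, -, hl⟩ := sum_ne_zero_ex h
  exact ⟨l, eq_of_ind hl⟩

lemma Lam_ne {γ : Ch E R Z L} {x : XV Q R Z L} (h : M.Lam γ x ≠ 0) :
    x = M.hv γ ∨ ∃ j, x = M.tv γ j := by
  by_cases h1 : x = M.hv γ
  · exact Or.inl h1
  · right
    unfold Lam at h
    rw [Pi.add_apply, ind_ne h1, zero_add] at h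
    obtain ⟨j, -, hj⟩ := sum_ne_zero_ex h
    exact ⟨j, eq_of_ind hj⟩

lemma fc_one {F : Finset (Nd Q R Cw)} {W : Finset Cw} (hF : ∀ ν ∈ F, ν.2.2 ∈ W) {ν : Nd Q R Cw}
    (hν : ν ∈ F) {l : Fin L} (hl : M.good W l) : (∑ ν ∈ F, M.U ν) (M.nv ν l) = 1 := by
  rw [Finset.sum_apply, sum_eq_single ν]
  · unfold U
    rw [Finset.sum_apply, sum_eq_single l]
    · exact ind_self _
    · intro l' _ hl'
      refine ind_ne fun h => hl' ?_
      exact (congrArg (fun x => x.2.2.1) h).symm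
    · simp
  · intro ν' hν' hne
    by_contra h
    obtain ⟨l', hl'⟩ := U_ne h
    simp only [nv, Prod.mk.injEq] at hl'
    obtain ⟨h1, h2, rfl, h4⟩ := hl'
    exact hne (Prod.ext h1.symm (Prod.ext h2.symm (hl _ (hF _ hν') _ (hF _ hν) h4.symm)))
  · exact fun h => absurd hν h

variable {ψ : XV Q R Z L → ZMod 2} {β : ZMod 2} {Γ Γ0 : Finset (Ch E R Z L)}
  {F P : Finset (Nd Q R Cw)} {W : Finset Cw} {J : Finset (XV Q R Z L)}

def Junk (M : HM Q E R Cw Z L D) (Γ Γ0 : Finset (Ch E R Z L)) (J : Finset (XV Q R Z L))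
    (P : Finset (Nd Q R Cw)) (γ : Ch E R Z L) (j : Fin D) : Prop :=
  (∃ x ∈ J, M.tv γ j = x) ∨ (∃ ν ∈ P, ∃ l, M.tv γ j = M.nv ν l) ∨ (∃ γ' ∈ Γ, M.tv γ j = M.hv γ') ∨
    (∃ γ' ∈ Γ, γ' ≠ γ ∧ ∃ j', M.tv γ j = M.tv γ' j') ∨
    (∃ γ' ∈ Γ0, γ' ≠ γ ∧ ∃ j', M.tv γ j = M.tv γ' j')

open Classical in
lemma card_junk (hG : M.Good κ d) (hS : M.Small ψ Γ0 J P) (γ : Ch E R Z L) :
    (univ.filter (M.Junk Γ Γ0 J P γ)).card ≤ 30 * L + 2 * Γ.card := by
  have h1 := card_filter_ex_le J (fun j x => M.tv γ j = x)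
    (fun o _ j j' h h' => tv_inj hG γ (h.trans h'.symm))
  have h2 := card_filter_ex_le P (fun j ν => ∃ l, M.tv γ j = M.nv ν l) (by
    rintro o _ j j' ⟨l, h⟩ ⟨l', h'⟩
    have e1 : γ.2.2.1 = l := congrArg (fun x => x.2.2.1) h
    have e2 : γ.2.2.1 = l' := congrArg (fun x => x.2.2.1) h'
    subst e1 e2
    exact tv_inj hG γ (h.trans h'.symm))
  have h3 := card_filter_ex_le Γ (fun j γ' => M.tv γ j = M.hv γ')
    (fun o _ j j' h h' => tv_inj hG γ (h.trans h'.symm))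
  have h4 := fun (T : Finset (Ch E R Z L)) =>
    card_filter_ex_le T (fun j γ' => γ' ≠ γ ∧ ∃ j', M.tv γ j = M.tv γ' j') (by
      rintro o _ j j' ⟨hne, l, h⟩ ⟨-, l', h'⟩
      exact tv_other hG hne h h')
  have h5 := h4 Γ
  have h6 := h4 Γ0
  have c1 := hS.c1
  have c2 := hS.c2
  have c3 := hS.c3
  have hsub : univ.filter (M.Junk Γ Γ0 J P γ) ⊆
      (univ.filter fun j => ∃ x ∈ J, M.tv γ j = x) ∪
      ((univ.filter fun j => ∃ ν ∈ P, ∃ l, M.tv γ j = M.nv ν l) ∪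
      ((univ.filter fun j => ∃ γ' ∈ Γ, M.tv γ j = M.hv γ') ∪
      ((univ.filter fun j => ∃ γ' ∈ Γ, γ' ≠ γ ∧ ∃ j', M.tv γ j = M.tv γ' j') ∪
      (univ.filter fun j => ∃ γ' ∈ Γ0, γ' ≠ γ ∧ ∃ j', M.tv γ j = M.tv γ' j')))) := by
    intro j hj
    simp only [mem_union, mem_filter, mem_univ, true_and] at hj ⊢
    exact hj
  have := (card_le_card hsub).trans ((card_union_le _ _).trans (Nat.add_le_add h1
    ((card_union_le _ _).trans (Nat.add_le_add h2 ((card_union_le _ _).trans (Nat.add_le_add h3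
    ((card_union_le _ _).trans (Nat.add_le_add h5 h6))))))))
  omega

lemma cov (hS : M.Small ψ Γ0 J P) (hR : M.Rep ψ β Γ F W) {x : XV Q R Z L}
    (hx : (∑ ν ∈ F, M.U ν) x ≠ 0) :
    x ∈ J ∨ (∃ ν ∈ P, ∃ l, x = M.nv ν l) ∨ (∃ γ ∈ Γ, x = M.hv γ) ∨
      (∃ γ ∈ Γ, ∃ j, x = M.tv γ j) ∨ (∃ γ ∈ Γ0, ∃ j, x = M.tv γ j) := by
  by_cases h1 : ψ x = 0
  · have h2 : (∑ γ ∈ Γ, M.Lam γ) x ≠ 0 := by
      intro h
      have := congrFun hR.eq x
      rw [Pi.add_apply, h, h1, zero_add] at this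
      exact hx this.symm
    obtain ⟨γ, hγ, h3⟩ := sum_ne_zero_ex h2
    rcases Lam_ne h3 with h | h
    · exact Or.inr (Or.inr (Or.inl ⟨γ, hγ, h⟩))
    · exact Or.inr (Or.inr (Or.inr (Or.inl ⟨γ, hγ, h⟩)))
  · rcases hS.supp x h1 with h | h | h
    · exact Or.inl h
    · exact Or.inr (Or.inr (Or.inr (Or.inr h)))
    · exact Or.inr (Or.inl h)

lemma pull (hS : M.Small ψ Γ0 J P) (hR : M.Rep ψ β Γ F W) {γ : Ch E R Z L} {j : Fin D}
    (hx : (∑ ν ∈ F, M.U ν) (M.tv γ j) ≠ 0) (hj : ¬ M.Junk Γ Γ0 J P γ j) : γ ∈ Γ ∨ γ ∈ Γ0 := by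
  unfold Junk at hj
  push Not at hj
  obtain ⟨j1, j2, j3, j4, j5⟩ := hj
  rcases cov hS hR hx with h | ⟨ν, hν, l, h⟩ | ⟨γ', h1, h⟩ | ⟨γ', h1, j', h⟩ | ⟨γ', h1, j', h⟩
  · exact absurd rfl (j1 _ h)
  · exact absurd h (j2 _ hν l)
  · exact absurd h (j3 _ h1)
  · by_cases e : γ' = γ
    · exact Or.inl (e ▸ h1)
    · exact absurd h (j4 _ h1 e j')
  · by_cases e : γ' = γ
    · exact Or.inr (e ▸ h1)
    · exact absurd h (j5 _ h1 e j')

lemma full (hG : M.Good κ d) (hS : M.Small ψ Γ0 J P) (hR : M.Rep ψ β Γ F W) {γ : Ch E R Z L}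
    (h1 : γ ∈ Γ) (h0 : γ ∉ Γ0) {j : Fin D} (hj : ¬ M.Junk Γ Γ0 J P γ j) :
    (∑ ν ∈ F, M.U ν) (M.tv γ j) ≠ 0 := by
  unfold Junk at hj
  push Not at hj
  obtain ⟨j1, j2, j3, j4, j5⟩ := hj
  have e1 : ψ (M.tv γ j) = 0 := by
    by_contra h
    rcases hS.supp _ h with h | ⟨γ', h1, j', h⟩ | ⟨ν, hν, l, h⟩
    · exact j1 _ h rfl
    · exact j5 _ h1 (fun e => h0 (e ▸ h1)) j' h
    · exact j2 _ hν l h
  have e2 : (∑ γ ∈ Γ, M.Lam γ) (M.tv γ j) = 1 := by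
    rw [Finset.sum_apply, sum_eq_single γ]
    · unfold Lam
      rw [Pi.add_apply, ind_ne (j3 _ h1), zero_add, Finset.sum_apply, sum_eq_single j]
      · exact ind_self _
      · intro j' _ hj'
        exact ind_ne fun h => hj' (tv_inj hG γ h).symm
      · simp
    · intro γ' hγ' hne
      by_contra h
      rcases Lam_ne h with h | ⟨j', h⟩
      · exact j3 _ hγ' h
      · exact j4 _ hγ' hne j' h
    · exact fun h => absurd h1 h
  intro h
  have := congrFun hR.eq (M.tv γ j)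
  rw [Pi.add_apply, h, e1, e2] at this
  exact absurd this (by decide)

end HM

end Vale.Agent.P310
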