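import Vale.Agent.P310.Lin

namespace Vale.Agent.P310
open Finset Function

variable {Q E R Cw Z : Type} [AddCommGroup Cw] [AddCommGroup Z] {L D : ℕ}

namespace HM
variable {M : HM Q E R Cw Z L D} {κ d : ℕ}
variable {ψ : XV Q R Z L → ZMod 2} {β : ZMod 2} {Γ Γ0 : Finset (Ch E R Z L)}
  {F P : Finset (Nd Q R Cw)} {W : Finset Cw} {J : Finset (XV Q R Z L)}

lemma W_le (hG : M.Good κ d) (hp : 4 * Γ.card + L * W.card ≤ 1410 * L) : W.card ≤ 1410 := by
  have h0 := hG.hL0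
  by_contra h
  have : L * 1411 ≤ L * W.card := Nat.mul_le_mul_left _ (by omega)
  omega

lemma tv_fam (e : E) (r : R) (a : Cw) (l : Fin L) (j : Fin D) :
    M.tv (M.fam e r a l) j = M.nv (M.sc e (M.cls j), M.tl e r j, a + M.dl e (M.cls j)) l := by
  simp [tv, fam, nv]

lemma classA (hG : M.Good κ d) (hS : M.Small ψ Γ0 J P) (hR : M.Rep ψ β Γ F W)
    (hp : 4 * Γ.card + L * W.card ≤ 1410 * L) {γ : Ch E R Z L} (h1 : γ ∈ Γ) (h0 : γ ∉ Γ0)
    (b : Bool) :
    ∃ a : Cw, a + M.dl γ.1 b ∈ W ∧ γ = M.fam γ.1 γ.2.1 a γ.2.2.1 ∧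
      M.Acc (M.sc γ.1 b) (a + M.dl γ.1 b) ∧
      ∀ l, M.good W l → M.fam γ.1 γ.2.1 a l ∈ Γ ∨ M.fam γ.1 γ.2.1 a l ∈ Γ0 := by
  classical
  have hW := W_le hG hp
  obtain ⟨e, r, l, v⟩ := γ
  set s := (univ.filter fun j => M.cls j = b) \ univ.filter (M.Junk Γ Γ0 J P (e, r, l, v)) with hs
  have hj := fun γ => card_junk (Γ := Γ) hG hS γ
  have hsc : d ≤ s.card + 736 * L := by
    have := le_card_sdiff (univ.filter (M.Junk Γ Γ0 J P (e, r, l, v)))
      (univ.filter fun j => M.cls j = b)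
    have h2 := hG.cls_card b
    have h3 := hj (e, r, l, v)
    rw [← hs] at this
    omega
  have hex : ∀ j ∈ s, ∃ a' ∈ W, (M.sc e b, M.tl e r j, a') ∈ F ∧
      M.enc a' l = v + M.enc (M.dl e b) l := by
    intro j hj
    obtain ⟨hj1, hj2⟩ := mem_sdiff.1 hj
    have hc : M.cls j = b := (mem_filter.1 hj1).2
    have := full hG hS hR h1 h0 (j := j) (by simpa using hj2)
    obtain ⟨ν, hν, h⟩ := sum_ne_zero_ex this
    obtain ⟨l', hl'⟩ := U_ne h
    simp only [tv, nv, Prod.mk.injEq, hc] at hl'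
    obtain ⟨e1, e2, rfl, e4⟩ := hl'
    refine ⟨ν.2.2, hR.msg _ hν, ?_, e4.symm⟩
    rw [e1, e2]; exact hν
  choose! f hf using hex
  obtain ⟨a', ha', hc⟩ := exists_lt_card_fiber_of_mul_lt_card_of_maps_to (s := s) (t := W) (f := f)
    (n := 736 * L + 1) (fun j hj => (hf j hj).1) (by
      have := hG.hd
      have : W.card * (736 * L + 1) ≤ 1410 * (736 * L + 1) := Nat.mul_le_mul_right _ hW
      omega)
  set T := s.filter (fun x => f x = a') with hT
  have hTF : ∀ j ∈ T, M.cls j = b ∧ (M.sc e b, M.tl e r j, a') ∈ F ∧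
      M.enc a' l = v + M.enc (M.dl e b) l := by
    intro j hj
    obtain ⟨h2, h3⟩ := mem_filter.1 hj
    have := hf j h2
    rw [h3] at this
    exact ⟨(mem_filter.1 (mem_sdiff.1 h2).1).2, this.2⟩
  obtain ⟨j1, hj1, j2, hj2, hne⟩ := one_lt_card.1 (by omega : 1 < T.card)
  refine ⟨a' - M.dl e b, by simpa using ha', ?_, ?_, ?_⟩
  · simp only [fam, map_sub, Pi.sub_apply, (hTF j1 hj1).2.2]
    simp
  · simp only [sub_add_cancel]
    rcases hR.ok _ (hTF j1 hj1).2.1 with h | h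
    · exact h
    · rcases hR.ok _ (hTF j2 hj2).2.1 with h' | h'
      · exact h'
      · exfalso
        have := h.trans h'.symm
        simp only [Prod.mk.injEq, true_and, and_true] at this
        exact hne (hG.tl_inj _ _ this)
  · intro l' hl'
    have h3 := hj (M.fam e r (a' - M.dl e b) l')
    obtain ⟨j, hjT, hjn⟩ := exists_mem_notMem_of_card_lt_card
      (s := univ.filter (M.Junk Γ Γ0 J P (M.fam e r (a' - M.dl e b) l'))) (t := T) (by omega)
    refine pull hS hR (j := j) ?_ (by simpa using hjn)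
    rw [tv_fam, (hTF j hjT).1, sub_add_cancel, fc_one hR.msg (hTF j hjT).2.1 hl']
    decide

open Classical in
/-- no hidden family -/
def NH (M : HM Q E R Cw Z L D) (Γ Γ0 : Finset (Ch E R Z L)) (W : Finset Cw) : Prop :=
  ∀ γ ∈ Γ, γ ∉ Γ0 → ∃ a : Cw, a + M.dl γ.1 false ∈ W ∧ γ = M.fam γ.1 γ.2.1 a γ.2.2.1 ∧
    L ≤ 4 * (univ.filter fun l => M.fam γ.1 γ.2.1 a l ∈ Γ0).card

lemma fam_inj (e : E) (r : R) (a : Cw) : Injective (M.fam e r a) := by
  intro l l' h
  exact congrArg (fun x => x.2.2.1) h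

lemma fam_id (e : E) (r : R) (a : Cw) :
    ∑ l, M.Lam (M.fam e r a l) = M.U (M.hd e, r, a) +
      ∑ j, M.U (M.sc e (M.cls j), M.tl e r j, a + M.dl e (M.cls j)) := by
  unfold Lam U
  rw [sum_add_distrib, sum_comm]
  simp only [tv_fam]
  rfl

lemma flip (hG : M.Good κ d) (hna : ¬ M.Acc M.q0 M.a0) (hS : M.Small ψ Γ0 J P)
    (hR : M.Rep ψ β Γ F W) (hp : 4 * Γ.card + L * W.card ≤ 1410 * L) (hn : ¬ M.NH Γ Γ0 W) :
    ∃ Γ' F' W', M.Rep ψ β Γ' F' W' ∧ 4 * Γ'.card + L * W'.card ≤ 1410 * L ∧ Γ'.card < Γ.card := by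
  classical
  unfold NH at hn
  push Not at hn
  obtain ⟨γ, h1, h0, hn⟩ := hn
  obtain ⟨a, ha1, ha2, ha3, ha4⟩ := classA hG hS hR hp h1 h0 false
  have hvis := hn a ha1 ha2
  obtain ⟨e, r, l, v⟩ := γ
  simp only at ha1 ha2 ha3 ha4 hvis
  have hW := W_le hG hp
  have hL0 := hG.hL0
  have hbad := card_bad hG (insert (a + M.dl e true) W) ((card_insert_le _ _).trans (by omega))
  set A := univ.filter fun l => M.fam e r a l ∈ Γ ∧ M.fam e r a l ∉ Γ0 ∧
    M.good (insert (a + M.dl e true) W) l with hA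
  have hAc : 5 * L < 8 * A.card := by
    have : (univ : Finset (Fin L)) ⊆ A ∪ ((univ.filter fun l => M.fam e r a l ∈ Γ0) ∪
        univ.filter fun l => ¬ M.good (insert (a + M.dl e true) W) l) := by
      intro l' _
      simp only [hA, mem_union, mem_filter, mem_univ, true_and]
      by_cases g : M.good (insert (a + M.dl e true) W) l'
      · have := ha4 l' (fun x hx y hy => g x (mem_insert_of_mem hx) y (mem_insert_of_mem hy))
        tauto
      · tauto
    have h2 := (card_le_card this).trans ((card_union_le _ _).trans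
      (Nat.add_le_add_left (card_union_le _ _) _))
    rw [card_univ, Fintype.card_fin] at h2
    omega
  obtain ⟨l2, hl2⟩ : A.Nonempty := card_pos.1 (by omega)
  obtain ⟨-, g1, g2, g3⟩ := mem_filter.1 hl2
  obtain ⟨a2, hb1, hb2, hb3, -⟩ := classA hG hS hR hp g1 g2 true
  simp only [fam, Prod.mk.injEq, true_and] at hb1 hb2 hb3
  have e2 : a2 + M.dl e true = a + M.dl e true :=
    g3 _ (mem_insert_of_mem hb1) _ (mem_insert_self _ _) (by simp [hb2])
  rw [e2] at hb1 hb3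
  have hsuc : ∀ b, M.Acc (M.sc e b) (a + M.dl e b) ∧ a + M.dl e b ∈ W := by
    intro b; cases b
    · exact ⟨ha3, ha1⟩
    · exact ⟨hb3, hb1⟩
  have hacc : M.Acc (M.hd e) a := Acc.rule e a (fun b => (hsuc b).1)
  set tn : Fin D → Nd Q R Cw := fun j => (M.sc e (M.cls j), M.tl e r j, a + M.dl e (M.cls j))
  have htn : Injective tn := fun j j' h => hG.tl_inj _ _ (congrArg (fun x => x.2.1) h)
  set Ff := symmDiff {(M.hd e, r, a)} (univ.image tn) with hFf
  have hFf1 : ∀ ν ∈ Ff, M.Acc ν.1 ν.2.2 ∧ ν.2.2 ∈ insert a W := by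
    intro ν hν
    rcases mem_symmDiff.1 hν with ⟨h, -⟩ | ⟨h, -⟩
    · rw [mem_singleton.1 h]; exact ⟨hacc, mem_insert_self _ _⟩
    · obtain ⟨j, -, rfl⟩ := mem_image.1 h
      exact ⟨(hsuc _).1, mem_insert_of_mem (hsuc _).2⟩
  have hini : M.ini ∉ Ff := fun h => hna (hFf1 _ h).1
  refine ⟨symmDiff Γ (univ.image (M.fam e r a)), symmDiff F Ff, insert a W, ⟨?_, ?_, ?_, ?_, ?_, ?_⟩,
    ?_⟩
  · exact mem_insert_of_mem hR.z
  · exact mem_insert_of_mem hR.i
  · intro ν hν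
    rcases mem_symmDiff.1 hν with ⟨h, -⟩ | ⟨h, -⟩
    · exact mem_insert_of_mem (hR.msg _ h)
    · exact (hFf1 _ h).2
  · intro ν hν
    rcases mem_symmDiff.1 hν with ⟨h, -⟩ | ⟨h, -⟩
    · exact hR.ok _ h
    · exact Or.inl (hFf1 _ h).1
  · rw [hR.par]
    simp [mem_symmDiff, hini]
  · rw [sum_symmDiff2, sum_symmDiff2, hFf, sum_symmDiff2, sum_image (fam_inj e r a).injOn,
      sum_image htn.injOn, fam_id, sum_singleton, hR.eq]
    funext x
    simp only [Pi.add_apply]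
    exact (by decide : ∀ a b c d : ZMod 2, a + b = a + (c + d) + (b + (c + d))) _ _ _ _
  · have h2 := card_symmDiff2 Γ (univ.image (M.fam e r a))
    rw [card_image_of_injective _ (fam_inj e r a), card_univ, Fintype.card_fin] at h2
    have h3 : A.card ≤ (Γ ∩ univ.image (M.fam e r a)).card := by
      refine card_le_card_of_injOn (M.fam e r a) (fun l' hl' => ?_) (fam_inj e r a).injOn
      exact mem_coe.2 (mem_inter.2 ⟨(mem_filter.1 hl').2.1, mem_image_of_mem _ (mem_univ _)⟩)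
    have h4 : L * (insert a W).card ≤ L * (W.card + 1) :=
      Nat.mul_le_mul_left _ (card_insert_le _ _)
    rw [mul_add] at h4
    constructor <;> omega

lemma flips (hG : M.Good κ d) (hna : ¬ M.Acc M.q0 M.a0) (hS : M.Small ψ Γ0 J P) (n : ℕ) :
    ∀ Γ F W, Γ.card = n → M.Rep ψ β Γ F W → 4 * Γ.card + L * W.card ≤ 1410 * L →
      ∃ Γ' F' W', M.Rep ψ β Γ' F' W' ∧ 4 * Γ'.card + L * W'.card ≤ 1410 * L ∧ M.NH Γ' Γ0 W' := by
  induction n using Nat.strong_induction_on with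
  | _ n ih =>
    intro Γ F W hn hR hp
    by_cases h : M.NH Γ Γ0 W
    · exact ⟨Γ, F, W, hR, hp, h⟩
    · obtain ⟨Γ', F', W', h1, h2, h3⟩ := flip hG hna hS hR hp h
      exact ih _ (hn ▸ h3) Γ' F' W' rfl h1 h2

lemma card_Gam (hG : M.Good κ d) (hS : M.Small ψ Γ0 J P)
    (hp : 4 * Γ.card + L * W.card ≤ 1410 * L) (hn : M.NH Γ Γ0 W) : Γ.card ≤ 90 * L := by
  classical
  have hW := W_le hG hp
  have hbad := card_bad hG W (by omega)
  have hL0 := hG.hL0
  unfold NH at hn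
  choose! f hf using hn
  set Vis : Finset (E × R × Cw) := (Γ \ Γ0).image (fun γ => (γ.1, γ.2.1, f γ)) with hVis
  have hV : ∀ t ∈ Vis, t.2.2 + M.dl t.1 false ∈ W ∧
      L ≤ 4 * (univ.filter fun l => M.fam t.1 t.2.1 t.2.2 l ∈ Γ0).card := by
    intro t ht
    obtain ⟨γ, hγ, rfl⟩ := mem_image.1 ht
    have := hf γ (mem_sdiff.1 hγ).1 (mem_sdiff.1 hγ).2
    exact ⟨this.1, this.2.2⟩
  have h1 : (Γ \ Γ0).card ≤ Vis.card * L := by
    have : Γ \ Γ0 ⊆ Vis.biUnion (fun t => univ.image (M.fam t.1 t.2.1 t.2.2)) := by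
      intro γ hγ
      refine mem_biUnion.2 ⟨_, mem_image_of_mem _ hγ, mem_image.2 ⟨γ.2.2.1, mem_univ _, ?_⟩⟩
      exact (hf γ (mem_sdiff.1 hγ).1 (mem_sdiff.1 hγ).2).2.1.symm
    refine (card_le_card this).trans (card_biUnion_le.trans ?_)
    calc ∑ t ∈ Vis, (univ.image (M.fam t.1 t.2.1 t.2.2)).card ≤ ∑ _t ∈ Vis, L :=
          sum_le_sum fun t _ => card_image_le.trans (by simp)
      _ = Vis.card * L := by simp
  have h2 : ∑ t ∈ Vis, (univ.filter fun l => M.fam t.1 t.2.1 t.2.2 l ∈ Γ0 ∧ M.good W l).card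
      ≤ Γ0.card := by
    rw [← card_sigma]
    refine card_le_card_of_injOn (fun p => M.fam p.1.1 p.1.2.1 p.1.2.2 p.2) ?_ ?_
    · intro p hp
      exact mem_coe.2 (mem_filter.1 (mem_sigma.1 (mem_coe.1 hp)).2).2.1
    · rintro ⟨⟨e, r, a⟩, l⟩ hp ⟨⟨e', r', a'⟩, l'⟩ hp' h
      obtain ⟨p1, p2⟩ := mem_sigma.1 (mem_coe.1 hp)
      obtain ⟨p1', -⟩ := mem_sigma.1 (mem_coe.1 hp')
      simp only [fam, Prod.mk.injEq] at h
      obtain ⟨rfl, rfl, rfl, h⟩ := h
      have := (mem_filter.1 p2).2.2 _ (hV _ p1).1 _ (hV _ p1').1 (by simp [h])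
      obtain rfl := add_right_cancel this
      rfl
  have h3 : Vis.card * L ≤ 8 * Γ0.card := by
    have : ∑ _t ∈ Vis, L ≤ ∑ t ∈ Vis,
        8 * (univ.filter fun l => M.fam t.1 t.2.1 t.2.2 l ∈ Γ0 ∧ M.good W l).card := by
      refine sum_le_sum fun t ht => ?_
      have h4 := (hV t ht).2
      have h5 : (univ.filter fun l => M.fam t.1 t.2.1 t.2.2 l ∈ Γ0) ⊆
          (univ.filter fun l => M.fam t.1 t.2.1 t.2.2 l ∈ Γ0 ∧ M.good W l) ∪
            univ.filter fun l => ¬ M.good W l := by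
        intro l hl
        simp only [mem_union, mem_filter, mem_univ, true_and] at hl ⊢
        tauto
      have := (card_le_card h5).trans (card_union_le _ _)
      omega
    rw [← mul_sum, sum_const, smul_eq_mul] at this
    omega
  have h4 := card_le_card_sdiff_add_card (s := Γ) (t := Γ0)
  have := hS.c1
  omega

lemma shrink_W (hG : M.Good κ d) (hS : M.Small ψ Γ0 J P) (hR : M.Rep ψ β Γ F W)
    (hW : W.card ≤ 1410) (hΓ : Γ.card ≤ 90 * L) : ∃ W', M.Rep ψ β Γ F W' ∧ W'.card ≤ 345 := by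
  classical
  have hbad := card_bad hG W (by omega)
  have hL0 := hG.hL0
  set W1 := (F.image fun ν => ν.2.2) \ {0, M.a0} with hW1
  set G := univ.filter fun l => M.good W l with hGd
  have hGc : 7 * L ≤ 8 * G.card := by
    have := card_filter_add_card_filter_not (s := (univ : Finset (Fin L))) (fun l => M.good W l)
    rw [card_univ, Fintype.card_fin, ← hGd] at this
    omega
  set PV : Finset (Fin L × Z) := J.image (fun x => x.2.2) ∪ (Γ.image (fun γ => γ.2.2) ∪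
    (((Γ ∪ Γ0) ×ˢ (univ : Finset Bool)).image
      (fun p => (p.1.2.2.1, p.1.2.2.2 + M.enc (M.dl p.1.1 p.2) p.1.2.2.1)))) with hPV
  have hPVc : PV.card ≤ 300 * L := by
    have h1 : PV.card ≤ J.card + (Γ.card + ((Γ ∪ Γ0) ×ˢ (univ : Finset Bool)).card) :=
      (card_union_le _ _).trans (Nat.add_le_add card_image_le ((card_union_le _ _).trans
        (Nat.add_le_add card_image_le card_image_le)))
    rw [card_product, card_univ, Fintype.card_bool] at h1
    have h2 := card_union_le Γ Γ0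
    have := hS.c1
    have := hS.c2
    omega
  have hsubW : ∀ a ∈ W1, a ∈ W := by
    intro a ha
    obtain ⟨ν, hν, rfl⟩ := mem_image.1 (mem_sdiff.1 ha).1
    exact hR.msg _ hν
  have h1 : (W1 ×ˢ G).card ≤ PV.card := by
    refine card_le_card_of_injOn (fun p => (p.2, M.enc p.1 p.2)) ?_ ?_
    · rintro ⟨a, l⟩ hp
      obtain ⟨p1, p2⟩ := mem_product.1 (mem_coe.1 hp)
      have gl : M.good W l := (mem_filter.1 p2).2
      obtain ⟨p3, p4⟩ := mem_sdiff.1 p1
      obtain ⟨ν, hν, rfl⟩ := mem_image.1 p3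
      have hx : (∑ ν ∈ F, M.U ν) (M.nv ν l) ≠ 0 := by rw [fc_one hR.msg hν gl]; decide
      simp only [hPV, coe_union, Set.mem_union, mem_coe]
      rcases cov hS hR hx with h | ⟨ν', hν', l', h⟩ | ⟨γ', h1, h⟩ | ⟨γ', h1, j', h⟩ | ⟨γ', h1, j', h⟩
      · exact Or.inl (mem_image.2 ⟨_, h, rfl⟩)
      · exfalso
        simp only [nv, Prod.mk.injEq] at h
        obtain ⟨-, -, rfl, h⟩ := h
        have hm : ν'.2.2 ∈ W := by
          rcases hS.msg _ hν' with e | e <;> rw [e]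
          exacts [hR.z, hR.i]
        have := gl _ (hR.msg _ hν) _ hm h
        apply p4
        simp only [this, mem_insert, mem_singleton]
        exact hS.msg _ hν'
      · exact Or.inr (Or.inl (mem_image.2 ⟨_, h1, (congrArg (fun x => x.2.2) h).symm⟩))
      · exact Or.inr (Or.inr (mem_image.2 ⟨(γ', M.cls j'), mem_product.2
          ⟨mem_union_left _ h1, mem_univ _⟩, (congrArg (fun x => x.2.2) h).symm⟩))
      · exact Or.inr (Or.inr (mem_image.2 ⟨(γ', M.cls j'), mem_product.2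
          ⟨mem_union_right _ h1, mem_univ _⟩, (congrArg (fun x => x.2.2) h).symm⟩))
    · rintro ⟨a, l⟩ hp ⟨a', l'⟩ hp' h
      obtain ⟨p1, p2⟩ := mem_product.1 (mem_coe.1 hp)
      obtain ⟨p1', -⟩ := mem_product.1 (mem_coe.1 hp')
      simp only [Prod.mk.injEq] at h
      obtain ⟨rfl, h⟩ := h
      have : a = a' := (mem_filter.1 p2).2 _ (hsubW _ p1) _ (hsubW _ p1') h
      rw [this]
  rw [card_product] at h1
  have h2 : W1.card ≤ 343 := by
    by_contra h
    have : 344 * G.card ≤ W1.card * G.card := Nat.mul_le_mul_right _ (by omega)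
    omega
  refine ⟨W1 ∪ {0, M.a0}, ⟨by simp, by simp, fun ν hν => ?_, hR.ok, hR.par, hR.eq⟩, ?_⟩
  · rw [hW1, sdiff_union_self_eq_union]
    exact mem_union_left _ (mem_image_of_mem _ hν)
  · have := card_union_le W1 {0, M.a0}
    have h3 : ({0, M.a0} : Finset Cw).card ≤ 2 := card_le_two
    omega

/-- small implied forms -/
def Imp (M : HM Q E R Cw Z L D) (ψ : XV Q R Z L → ZMod 2) (β : ZMod 2) : Prop :=
  ∃ Γ F W, M.Rep ψ β Γ F W ∧ Γ.card ≤ 90 * L ∧ W.card ≤ 345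

theorem Imp.add (hG : M.Good κ d) (hna : ¬ M.Acc M.q0 M.a0) {ψ' : XV Q R Z L → ZMod 2}
    {β' : ZMod 2} (h : M.Imp ψ β) (h' : M.Imp ψ' β') (hS : M.Small (ψ + ψ') Γ0 J P) :
    M.Imp (ψ + ψ') (β + β') := by
  classical
  obtain ⟨Γ, F, W, hR, h1, h2⟩ := h
  obtain ⟨Γ', F', W', hR', h1', h2'⟩ := h'
  have hR2 : M.Rep (ψ + ψ') (β + β') (symmDiff Γ Γ') (symmDiff F F') (W ∪ W') := by
    refine ⟨mem_union_left _ hR.z, mem_union_left _ hR.i, ?_, ?_, ?_, ?_⟩
    · intro ν hν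
      rcases mem_symmDiff.1 hν with ⟨h, -⟩ | ⟨h, -⟩
      · exact mem_union_left _ (hR.msg _ h)
      · exact mem_union_right _ (hR'.msg _ h)
    · intro ν hν
      rcases mem_symmDiff.1 hν with ⟨h, -⟩ | ⟨h, -⟩
      · exact hR.ok _ h
      · exact hR'.ok _ h
    · rw [hR.par, hR'.par]
      by_cases a : M.ini ∈ F <;> by_cases b : M.ini ∈ F' <;> simp [mem_symmDiff, a, b]
      decide
    · rw [sum_symmDiff2, sum_symmDiff2, hR.eq, hR'.eq]; abel
  have hp : 4 * (symmDiff Γ Γ').card + L * (W ∪ W').card ≤ 1410 * L := by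
    have := card_symmDiff2 Γ Γ'
    have h3 : L * (W ∪ W').card ≤ L * 690 :=
      Nat.mul_le_mul_left _ ((card_union_le _ _).trans (by omega))
    omega
  obtain ⟨Γ2, F2, W2, g1, g2, g3⟩ := flips hG hna hS _ _ _ _ rfl hR2 hp
  have g4 := card_Gam hG hS g2 g3
  obtain ⟨W3, g5, g6⟩ := shrink_W hG hS g1 (W_le hG g2) g4
  exact ⟨Γ2, F2, W3, g5, g4, g6⟩

theorem Imp.zero (hG : M.Good κ d) (hna : ¬ M.Acc M.q0 M.a0) (h : M.Imp 0 β) : β = 0 := by
  classical
  obtain ⟨Γ, F, W, hR, h1, h2⟩ := h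
  have hS : M.Small 0 ∅ ∅ ∅ := ⟨by simp, by simp, by simp, by simp, by simp⟩
  have hL0 := hG.hL0
  have hp : 4 * Γ.card + L * W.card ≤ 1410 * L := by
    have h3 : L * W.card ≤ L * 345 := Nat.mul_le_mul_left _ h2
    omega
  obtain ⟨Γ2, F2, W2, g1, g2, g3⟩ := flips hG hna hS _ _ _ _ rfl hR hp
  have hΓ : Γ2 = ∅ := by
    refine eq_empty_of_forall_notMem fun γ hγ => ?_
    obtain ⟨a, -, -, h⟩ := g3 γ hγ (by simp)
    simp at h
    omega
  rw [g1.par, if_neg]
  intro hini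
  have hbad := card_bad hG W2 (by have := W_le hG g2; omega)
  obtain ⟨l, -, hl⟩ := exists_mem_notMem_of_card_lt_card
    (s := univ.filter fun l => ¬ M.good W2 l) (t := univ) (by simp; omega)
  have := fc_one g1.msg hini (l := l) (by simpa using hl)
  have h3 := congrFun g1.eq (M.nv M.ini l)
  rw [hΓ, sum_empty, zero_add, this] at h3
  exact (by decide : (0 : ZMod 2) ≠ 1) h3

end HM

end Vale.Agent.P310
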