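import Vale.Agent.P310.Lin

namespace Vale.Agent.P310
open Finset Function

inductive Sh
  | zero
  | one
  | mone
  | big

def Sh.val (B : ℕ) : Sh → ℤ
  | Sh.zero => 0
  | Sh.one => 1
  | Sh.mone => -1
  | Sh.big => -(B : ℤ)

inductive Ex (N Rg : Type)
  | acc : Ex N Rg
  | ff : Ex N Rg
  | and : Ex N Rg → Ex N Rg → Ex N Rg
  | or : Ex N Rg → Ex N Rg → Ex N Rg
  | sh : Rg → Sh → Ex N Rg → Ex N Rg
  | ex : Rg → Ex N Rg → Ex N Rg
  | call : N → Ex N Rg

variable {N Rg : Type} [DecidableEq Rg] {p : ℕ}

def Ex.den (B : ℕ) (I : N → (Rg → ZMod p) → Prop) : Ex N Rg → (Rg → ZMod p) → Prop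
  | Ex.acc, a => a = 0
  | Ex.ff, _ => False
  | Ex.and e f, a => e.den B I a ∧ f.den B I a
  | Ex.or e f, a => e.den B I a ∨ f.den B I a
  | Ex.sh i s e, a => e.den B I (update a i (a i + (s.val B : ZMod p)))
  | Ex.ex i e, a => ∃ x, e.den B I (update a i x)
  | Ex.call n, a => I n a

lemma Ex.den_mono {B : ℕ} {I I' : N → (Rg → ZMod p) → Prop} (h : ∀ n a, I n a → I' n a)
    (e : Ex N Rg) : ∀ a, e.den B I a → e.den B I' a := by
  induction e with
  | acc => exact fun _ h => h
  | ff => exact fun _ h => h
  | and e f ihe ihf => exact fun a h => ⟨ihe a h.1, ihf a h.2⟩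
  | or e f ihe ihf => exact fun a h => h.imp (ihe a) (ihf a)
  | sh i s e ih => exact fun a h => ih _ h
  | ex i e ih => exact fun a ⟨x, h⟩ => ⟨x, ih _ h⟩
  | call n => exact h n

/-- least fixed point -/
def LF (p B : ℕ) (body : N → Ex N Rg) (n : N) (a : Rg → ZMod p) : Prop :=
  ∀ I : N → (Rg → ZMod p) → Prop, (∀ n a, (body n).den B I a → I n a) → I n a

lemma LF.intro {B : ℕ} {body : N → Ex N Rg} {n : N} {a : Rg → ZMod p}
    (h : (body n).den B (LF p B body) a) : LF p B body n a :=
  fun I hI => hI n a (Ex.den_mono (fun n _ h => h I hI) _ a h)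

/-- induction for a family of names, keeping the fixed point itself available -/
lemma LF.ind {B : ℕ} {body : N → Ex N Rg} (I : N → (Rg → ZMod p) → Prop)
    (h : ∀ n a, (body n).den B (fun n a => LF p B body n a ∧ I n a) a → I n a) :
    ∀ n a, LF p B body n a → I n a := by
  intro n a hn
  refine (hn (fun n a => LF p B body n a ∧ I n a) (fun n a h' => ⟨?_, h n a h'⟩)).2
  exact LF.intro (Ex.den_mono (fun _ _ h => h.1) _ a h')

open Classical in
noncomputable def Ex.subs : Ex N Rg → Finset (Ex N Rg)
  | Ex.acc => {Ex.acc}
  | Ex.ff => {Ex.ff}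
  | Ex.and e f => insert (Ex.and e f) (e.subs ∪ f.subs)
  | Ex.or e f => insert (Ex.or e f) (e.subs ∪ f.subs)
  | Ex.sh i s e => insert (Ex.sh i s e) e.subs
  | Ex.ex i e => insert (Ex.ex i e) e.subs
  | Ex.call n => {Ex.call n}

omit [DecidableEq Rg] in
lemma Ex.self_mem (e : Ex N Rg) : e ∈ e.subs := by
  cases e <;> simp [Ex.subs]

omit [DecidableEq Rg] in
lemma Ex.subs_trans (e : Ex N Rg) : ∀ f ∈ e.subs, f.subs ⊆ e.subs := by
  classical
  induction e with
  | acc => intro f hf; simp only [Ex.subs, mem_singleton] at hf; subst hf; exact Subset.rfl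
  | ff => intro f hf; simp only [Ex.subs, mem_singleton] at hf; subst hf; exact Subset.rfl
  | and e g ihe ihg =>
    intro f hf
    simp only [Ex.subs, mem_insert, mem_union] at hf
    rcases hf with rfl | hf | hf
    · exact Subset.rfl
    · exact fun x hx => by simp [Ex.subs, ihe f hf hx]
    · exact fun x hx => by simp [Ex.subs, ihg f hf hx]
  | or e g ihe ihg =>
    intro f hf
    simp only [Ex.subs, mem_insert, mem_union] at hf
    rcases hf with rfl | hf | hf
    · exact Subset.rfl
    · exact fun x hx => by simp [Ex.subs, ihe f hf hx]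
    · exact fun x hx => by simp [Ex.subs, ihg f hf hx]
  | sh i s e ihe =>
    intro f hf
    simp only [Ex.subs, mem_insert] at hf
    rcases hf with rfl | hf
    · exact Subset.rfl
    · exact fun x hx => by simp [Ex.subs, ihe f hf hx]
  | ex i e ihe =>
    intro f hf
    simp only [Ex.subs, mem_insert] at hf
    rcases hf with rfl | hf
    · exact Subset.rfl
    · exact fun x hx => by simp [Ex.subs, ihe f hf hx]
  | call n => intro f hf; simp only [Ex.subs, mem_singleton] at hf; subst hf; exact Subset.rfl

def nxt (i0 : Rg) (body : N → Ex N Rg) : Ex N Rg → Bool → Bool → Ex N Rg × Rg × Sh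
  | Ex.acc, _, _ => (Ex.acc, i0, Sh.zero)
  | Ex.ff, _, _ => (Ex.ff, i0, Sh.zero)
  | Ex.and e f, _, c => (if c then f else e, i0, Sh.zero)
  | Ex.or e f, b, _ => (if b then f else e, i0, Sh.zero)
  | Ex.sh i s e, _, _ => (e, i, s)
  | Ex.ex i e, b, _ => if b then (Ex.ex i e, i, Sh.one) else (e, i0, Sh.zero)
  | Ex.call n, _, _ => (body n, i0, Sh.zero)

variable [Fintype N]

open Classical in
noncomputable def states (body : N → Ex N Rg) : Finset (Ex N Rg) :=
  insert Ex.acc (univ.biUnion fun n => insert (Ex.call n) (body n).subs)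

omit [DecidableEq Rg] in
lemma subs_states (body : N → Ex N Rg) : ∀ e ∈ states body, e.subs ⊆ states body := by
  classical
  intro e he
  simp only [states, mem_insert, mem_biUnion, mem_univ, true_and] at he
  rcases he with rfl | ⟨n, rfl | he⟩
  · intro x hx
    simp only [Ex.subs, mem_singleton] at hx
    simp [states, hx]
  · intro x hx
    simp only [Ex.subs, mem_singleton] at hx
    simp [states, hx]
  · intro x hx
    simp only [states, mem_insert, mem_biUnion, mem_univ, true_and]
    exact Or.inr ⟨n, Or.inr (Ex.subs_trans _ e he hx)⟩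

omit [DecidableEq Rg] in
lemma call_mem (body : N → Ex N Rg) (n : N) : Ex.call n ∈ states body := by
  simp [states]

omit [DecidableEq Rg] in
lemma acc_mem (body : N → Ex N Rg) : Ex.acc ∈ states body := by
  simp [states]

omit [DecidableEq Rg] in
lemma body_mem (body : N → Ex N Rg) (n : N) : body n ∈ states body := by
  simp only [states, mem_insert, mem_biUnion, mem_univ, true_and]
  exact Or.inr ⟨n, Or.inr (Ex.self_mem _)⟩

omit [DecidableEq Rg] in
lemma nxt_mem (i0 : Rg) (body : N → Ex N Rg) (e : Ex N Rg) (he : e ∈ states body) (b c : Bool) :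
    (nxt i0 body e b c).1 ∈ states body := by
  have h := subs_states body e he
  cases e with
  | acc => exact he
  | ff => exact he
  | and e f => cases c <;> exact h (by simp [nxt, Ex.subs, Ex.self_mem])
  | or e f => cases b <;> exact h (by simp [nxt, Ex.subs, Ex.self_mem])
  | sh i s e => exact h (by simp [nxt, Ex.subs, Ex.self_mem])
  | ex i e => cases b <;> exact h (by simp [nxt, Ex.subs, Ex.self_mem])
  | call n => exact body_mem body n

abbrev St (body : N → Ex N Rg) := {e // e ∈ states body}

noncomputable def toHM (B : ℕ) (i0 : Rg) (body : N → Ex N Rg) (n0 : N) {R : Type} {L D : ℕ}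
    (enc : (Rg → ZMod p) →+ (Fin L → ZMod p)) (tl : St body × Bool → R → Fin D → R)
    (cls : Fin D → Bool) (r0 : R) (a0 : Rg → ZMod p) :
    HM (St body) (St body × Bool) R (Rg → ZMod p) (ZMod p) L D where
  acc := ⟨Ex.acc, acc_mem body⟩
  hd e := e.1
  sc e c := ⟨(nxt i0 body e.1.1 e.2 c).1, nxt_mem i0 body _ e.1.2 _ _⟩
  dl e c := Pi.single (nxt i0 body e.1.1 e.2 c).2.1 ((nxt i0 body e.1.1 e.2 c).2.2.val B : ZMod p)
  enc := enc
  tl := tl
  cls := cls
  q0 := ⟨Ex.call n0, call_mem body n0⟩
  r0 := r0
  a0 := a0

lemma add_single (a : Rg → ZMod p) (i : Rg) (x : ZMod p) :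
    a + Pi.single i x = update a i (a i + x) := by
  funext j
  by_cases h : j = i
  · subst h; simp
  · simp [h]

theorem acc_iff [NeZero p] (B : ℕ) (i0 : Rg) (body : N → Ex N Rg) (n0 : N) {R : Type} {L D : ℕ}
    (enc : (Rg → ZMod p) →+ (Fin L → ZMod p)) (tl : St body × Bool → R → Fin D → R)
    (cls : Fin D → Bool) (r0 : R) (a0 : Rg → ZMod p) :
    (toHM B i0 body n0 enc tl cls r0 a0).Acc (toHM B i0 body n0 enc tl cls r0 a0).q0 a0 ↔
      LF p B body n0 a0 := by
  set M := toHM B i0 body n0 enc tl cls r0 a0 with hM
  constructor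
  · have : ∀ q a, M.Acc q a → q.1.den B (LF p B body) a := by
      intro q a h
      induction h with
      | base => rfl
      | rule e a _ ih =>
        obtain ⟨⟨e, he⟩, b⟩ := e
        have h0 := ih false
        have h1 := ih true
        cases e with
        | acc => simpa [hM, toHM, nxt, Sh.val] using h0
        | ff => simp [hM, toHM, nxt, Ex.den] at h0
        | and e f =>
          simp only [hM, toHM, nxt, Sh.val] at h0 h1
          exact ⟨by simpa using h0, by simpa using h1⟩
        | or e f =>
          simp only [hM, toHM, nxt, Sh.val] at h0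
          cases b
          · exact Or.inl (by simpa using h0)
          · exact Or.inr (by simpa using h0)
        | sh i s e =>
          simp only [hM, toHM, nxt, add_single] at h0
          exact h0
        | ex i e =>
          cases b
          · simp only [hM, toHM, nxt, Sh.val] at h0
            exact ⟨a i, by simpa using h0⟩
          · simp only [hM, toHM, nxt, if_true, add_single] at h0
            obtain ⟨x, hx⟩ := h0
            exact ⟨x, by simpa using hx⟩
        | call n =>
          simp only [hM, toHM, nxt, Sh.val] at h0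
          exact LF.intro (by simpa using h0)
    exact this _ _
  · intro h
    let I : N → (Rg → ZMod p) → Prop := fun n a => M.Acc ⟨Ex.call n, call_mem body n⟩ a
    have key : ∀ e (he : e ∈ states body) a, e.den B I a → M.Acc ⟨e, he⟩ a := by
      intro e
      induction e with
      | acc => intro he a h; obtain rfl : a = 0 := h; exact HM.Acc.base
      | ff => exact fun _ _ h => h.elim
      | and e f ihe ihf =>
        intro he a h
        refine HM.Acc.rule (M := M) (⟨_, he⟩, false) a (fun c => ?_)
        cases c
        · simpa [hM, toHM, nxt, Sh.val] using ihe (nxt_mem i0 body _ he false false) a h.1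
        · simpa [hM, toHM, nxt, Sh.val] using ihf (nxt_mem i0 body _ he false true) a h.2
      | or e f ihe ihf =>
        intro he a h
        rcases h with h | h
        · refine HM.Acc.rule (M := M) (⟨_, he⟩, false) a (fun c => ?_)
          simpa [hM, toHM, nxt, Sh.val] using ihe (nxt_mem i0 body _ he false false) a h
        · refine HM.Acc.rule (M := M) (⟨_, he⟩, true) a (fun c => ?_)
          simpa [hM, toHM, nxt, Sh.val] using ihf (nxt_mem i0 body _ he true true) a h
      | sh i s e ih =>
        intro he a h
        refine HM.Acc.rule (M := M) (⟨_, he⟩, false) a (fun c => ?_)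
        simpa [hM, toHM, nxt, add_single] using ih (nxt_mem i0 body _ he false false) _ h
      | ex i e ih =>
        rintro he a ⟨x, hx⟩
        have : ∀ (m : ℕ) (a : Rg → ZMod p), e.den B I (update a i (a i + m)) →
            M.Acc ⟨_, he⟩ a := by
          intro m
          induction m with
          | zero =>
            intro a h
            refine HM.Acc.rule (M := M) (⟨_, he⟩, false) a (fun c => ?_)
            simpa [hM, toHM, nxt, Sh.val] using ih (nxt_mem i0 body _ he false false) _ h
          | succ m ihm =>
            intro a h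
            refine HM.Acc.rule (M := M) (⟨_, he⟩, true) a (fun c => ?_)
            have := ihm (update a i (a i + 1)) (by
              simpa [add_assoc, add_comm (1 : ZMod p)] using h)
            simpa [hM, toHM, nxt, Sh.val, add_single] using this
        exact this (x - a i).val a (by simpa using hx)
      | call n => exact fun _ _ h => h
    refine h I (fun n a h => ?_)
    refine HM.Acc.rule (M := M) (⟨_, call_mem body n⟩, false) a (fun c => ?_)
    simpa [hM, toHM, nxt, Sh.val] using key _ (body_mem body n) a h

end Vale.Agent.P310
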