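import Vale.Agent.P310.Table

namespace Vale.Agent.P310
open Finset Function

variable {M : TM} {m p B : ℕ} [Fact p.Prime]

def bv (b : Bool) (a : Reg m → ZMod p) : ℕ := dval fun d => a (Sum.inl (b, d))

def Off (b : Bool) (a a' : Reg m → ZMod p) : Prop := ∀ r, (∀ d, r ≠ Sum.inl (b, d)) → a' r = a r

omit [Fact p.Prime] in
lemma Off.sc {b : Bool} {a a' : Reg m → ZMod p} (h : Off b a a') (i : Fin 13) :
    a' (Sum.inr i) = a (Sum.inr i) := h _ (by simp)

omit [Fact p.Prime] in
lemma Off.tt {a a' : Reg m → ZMod p} (h : Off true a a') : bv false a' = bv false a := by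
  unfold bv; congr 1; funext d; exact h _ (by simp)

omit [Fact p.Prime] in
lemma Off.ff {a a' : Reg m → ZMod p} (h : Off false a a') : bv true a' = bv true a := by
  unfold bv; congr 1; funext d; exact h _ (by simp)

omit [Fact p.Prime] in
@[simp] lemma bv_update (b : Bool) (a : Reg m → ZMod p) (i : Fin 13) (x : ZMod p) :
    bv b (update a (Sum.inr i) x) = bv b a := by
  unfold bv; congr 1

lemma bv_lt (b : Bool) (a : Reg m → ZMod p) : bv b a < p ^ (m + 5) := dval_lt _

lemma exists_off (b : Bool) (a : Reg m → ZMod p) {n : ℕ} (hn : n < p ^ (m + 5)) :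
    ∃ a', Off b a a' ∧ bv b a' = n := by
  obtain ⟨f, hf⟩ := dval_surj n hn
  refine ⟨fun r => match r with
    | Sum.inl (b', d) => if b' = b then f d else a r
    | Sum.inr _ => a r, ?_, ?_⟩
  · rintro (⟨b', d⟩ | i) hr
    · have : b' ≠ b := fun e => hr d (by rw [e])
      simp [this]
    · rfl
  · simp [bv, hf]

variable {I : Itp M m p}

omit [Fact p.Prime] in
lemma den_exB (b : Bool) (e : EE M m) (a : Reg m → ZMod p) :
    (exs (blkL b) e).den B I a ↔ ∃ a', Off b a a' ∧ e.den B I a' := by
  rw [den_exs]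
  refine exists_congr fun a' => and_congr_left fun _ => forall_congr' fun r => ?_
  simp [blkL, eq_comm]

lemma den_zeroB (b : Bool) (a : Reg m → ZMod p) : (zeroB b : EE M m).den B I a ↔ bv b a = 0 := by
  simp [zeroB, bv, dval_eq_zero]

lemma usr_inl (t : Bool × Fin (m + 5)) : Usr (Sum.inl t : Reg m) := by simp [Usr]

lemma den_topB (h : SMul I) (b : Bool) (i : Fin (m + 5)) (a : Reg m → ZMod p) :
    (topB b i : EE M m).den B I a ↔
      (∀ d, d < i → a (Sum.inl (b, d)) = 0) ∧ a (Sum.inl (b, i)) ≠ 0 := by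
  simp only [topB, Ex.den, den_andF, den_cnd, den_Zt, den_NZ h (usr_inl _), imp_iff_not_or]

lemma lowL_nodup (b : Bool) (i : Fin (m + 5)) : (lowL b i : List (Reg m)).Nodup := nodup_toList _

lemma mem_lowL (b : Bool) (i : Fin (m + 5)) (r : Reg m) :
    r ∈ lowL b i ↔ ∃ d, d ≤ i ∧ Sum.inl (b, d) = r := by simp [lowL]

lemma den_predB (h : SMul I) (b : Bool) (e : EE M m) (a : Reg m → ZMod p) :
    (predB b e).den B I a ↔ ∃ a', Off b a a' ∧ bv b a' + 1 = bv b a ∧ e.den B I a' := by
  simp only [predB, den_orF, Ex.den, den_topB h, den_shL _ (lowL_nodup _ _), mem_lowL, Sh.val,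
    Int.cast_neg, Int.cast_one]
  constructor
  · rintro ⟨i, ⟨h1, h2⟩, h3⟩
    refine ⟨_, fun r hr => ?_, (dval_pred _ _).2 ⟨i, h1, h2, ?_⟩, h3⟩
    · rw [if_neg]; rintro ⟨d, -, rfl⟩; exact hr d rfl
    · funext d; simp
  · rintro ⟨a', h1, h2, h3⟩
    obtain ⟨i, g1, g2, g3⟩ := (dval_pred _ _).1 h2
    refine ⟨i, ⟨g1, g2⟩, ?_⟩
    convert h3 using 1
    funext r
    by_cases hr : ∃ d, r = Sum.inl (b, d)
    · obtain ⟨d, rfl⟩ := hr
      rw [congrFun g3 d]
      simp
    · push Not at hr
      rw [h1 r hr, if_neg]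
      rintro ⟨d, -, rfl⟩; exact hr d rfl

lemma den_succB (h : SMul I) (b : Bool) (e : EE M m) (a : Reg m → ZMod p) :
    (succB b e).den B I a ↔ ∃ a', Off b a a' ∧ bv b a + 1 = bv b a' ∧ e.den B I a' := by
  simp only [succB, den_orF, Ex.den, den_topB h, den_shL _ (lowL_nodup _ _), mem_lowL, Sh.val,
    Int.cast_one]
  constructor
  · rintro ⟨i, ⟨h1, h2⟩, h3⟩
    refine ⟨_, fun r hr => ?_, (dval_pred _ _).2 ⟨i, h1, h2, ?_⟩, h3⟩
    · rw [if_neg]; rintro ⟨d, -, rfl⟩; exact hr d rfl
    · funext d
      by_cases hd : d ≤ i <;> simp [hd]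
  · rintro ⟨a', h1, h2, h3⟩
    obtain ⟨i, g1, g2, g3⟩ := (dval_pred _ _).1 h2
    have : (fun r => if ∃ d, d ≤ i ∧ Sum.inl (b, d) = r then a r + 1 else a r) = a' := by
      funext r
      by_cases hr : ∃ d, r = Sum.inl (b, d)
      · obtain ⟨d, rfl⟩ := hr
        rw [congrFun g3 d]
        by_cases hd : d ≤ i <;> simp [hd]
      · push Not at hr
        rw [h1 r hr, if_neg]
        rintro ⟨d, -, rfl⟩; exact hr d rfl
    refine ⟨i, ?_⟩
    simp only [← funext_iff.1 this] at g1 g2
    rw [this]
    exact ⟨⟨g1, g2⟩, h3⟩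

/-- configuration at time `t` -/
def cfg (M : TM) (x : List Bool) (t : ℕ) : Cfg M := (step M)^[t] (init M x)

def scan {M : TM} (c : Cfg M) : Fin (M.w + 1) → Fin M.ng := fun j => c.tape j (c.head j)

lemma step_state (c : Cfg M) : (step M c).state = (dlt M c.state (scan c)).1 := by
  unfold step dlt
  split_ifs <;> rfl

lemma step_head (c : Cfg M) (j : Fin (M.w + 1)) :
    (step M c).head j = ((dlt M c.state (scan c)).2 j).2.act (c.head j) := by
  unfold step dlt
  split_ifs <;> rfl

lemma step_tape (c : Cfg M) (j : Fin (M.w + 1)) :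
    (step M c).tape j = update (c.tape j) (c.head j) ((dlt M c.state (scan c)).2 j).1 := by
  unfold step dlt
  split_ifs
  · rfl
  · simp [scan]

lemma cfg_succ (x : List Bool) (t : ℕ) : cfg M x (t + 1) = step M (cfg M x t) :=
  iterate_succ_apply' _ _ _

lemma head_le (x : List Bool) (t : ℕ) (j : Fin (M.w + 1)) : (cfg M x t).head j ≤ t := by
  induction t with
  | zero => exact le_rfl
  | succ t ih =>
    rw [cfg_succ, step_head]
    cases ((dlt M (cfg M x t).state (scan (cfg M x t))).2 j).2 <;> simp only [Move.act] <;> omega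

variable (c0 : ZMod p) (x : List Bool)

structure Snd (I : Itp M m p) : Prop where
  st : ∀ q a, a rc = c0 → I (.st q) a → (cfg M x (bv false a)).state = q
  hd : ∀ j a, a rc = c0 → I (.hd j) a → (cfg M x (bv false a)).head j = bv true a
  cl : ∀ j g a, a rc = c0 → I (.cl j g) a → (cfg M x (bv false a)).tape j (bv true a) = g

structure Cmp (I : Itp M m p) (t : ℕ) : Prop where
  st : ∀ a, a rc = c0 → bv false a = t → I (.st (cfg M x t).state) a
  hd : ∀ j a, a rc = c0 → bv false a = t → (cfg M x t).head j = bv true a → I (.hd j) a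
  cl : ∀ j a, a rc = c0 → bv false a = t → I (.cl j ((cfg M x t).tape j (bv true a))) a

variable {c0 x}

lemma scan_snd (h : Snd c0 x I) {q : Fin M.nq} {s : Fin (M.w + 1) → Fin M.ng}
    {a : Reg m → ZMod p} (ha : a rc = c0) (hs : (Scan q s : EE M m).den B I a) :
    q = (cfg M x (bv false a)).state ∧ s = scan (cfg M x (bv false a)) := by
  simp only [Scan, Ex.den, den_andF, den_exB] at hs
  refine ⟨(h.st _ _ ha hs.1).symm, funext fun j => ?_⟩
  obtain ⟨a', h1, h2, h3⟩ := hs.2 j
  have e1 := h.hd _ _ ((h1.sc 0).trans ha) h2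
  have e2 := h.cl _ _ _ ((h1.sc 0).trans ha) h3
  rw [h1.tt] at e1 e2
  rw [scan, e1, e2]

lemma scan_cmp {t : ℕ} (h : Cmp c0 x I t) {a : Reg m → ZMod p} (ha : a rc = c0)
    (ht : bv false a = t) :
    (Scan (cfg M x t).state (scan (cfg M x t)) : EE M m).den B I a := by
  simp only [Scan, Ex.den, den_andF, den_exB]
  refine ⟨h.st a ha ht, fun j => ?_⟩
  obtain ⟨a', h1, h2⟩ := exists_off true a (n := (cfg M x t).head j)
    (lt_of_le_of_lt (head_le x t j) (ht ▸ bv_lt false a))
  refine ⟨a', h1, h.hd j a' ((h1.sc 0).trans ha) (h1.tt.trans ht) h2.symm, ?_⟩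
  have := h.cl j a' ((h1.sc 0).trans ha) (h1.tt.trans ht)
  rwa [h2] at this

lemma den_other (hl : Low I) (j : Fin (M.w + 1)) (a : Reg m → ZMod p) :
    (other j : EE M m).den B I a ↔ ∃ d, ∃ a', Off true (update a rt1 (a (dH d))) a' ∧
      a (dH d) ≠ a' (dH d) ∧ I (.hd j) a' := by
  simp only [other, den_orF, den_cp hl.eq (by simp : rt1 ≠ dH _), den_exB, Ex.den]
  refine exists_congr fun d => exists_congr fun a' => and_congr_right fun h1 =>
    and_congr_left fun _ => ?_
  have e1 := fun a => hl.add rt1 rt2 (dH d) a (by simp) (by simp) (by simp)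
  simp only [e1, den_NZ hl.mul (by simp [Usr] : Usr rt2)]
  simp only [ne_eq, Sum.inr.injEq, Fin.reduceEq, not_false_eq_true, update_of_ne, update_self,
    reduceCtorEq, h1.sc 11, ← eq_sub_iff_add_eq', exists_eq_left, sub_eq_zero]
  exact not_congr eq_comm

theorem snd_J
    (hI : ∀ j g a, a rc = c0 → ((InitE j g : EE M m).den B (JJ M m p B) a ↔
      (init M x).tape j (bv true a) = g)) : Snd c0 x (JJ M m p B) := by
  let I0 : Itp M m p := fun n a => match n with
    | .st q => a rc = c0 → (cfg M x (bv false a)).state = q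
    | .hd j => a rc = c0 → (cfg M x (bv false a)).head j = bv true a
    | .cl j g => a rc = c0 → (cfg M x (bv false a)).tape j (bv true a) = g
    | _ => True
  have hs : Snd c0 x (fun n a => LF p B (body M m) n a ∧ I0 n a) :=
    ⟨fun _ _ ha h => h.2 ha, fun _ _ ha h => h.2 ha, fun _ _ _ ha h => h.2 ha⟩
  have hl : Low (fun n a => LF p B (body M m) n a ∧ I0 n a) := by
    refine ⟨?_, ?_, ?_, ?_, ?_, ?_⟩
    · intro i j a h; simpa [I0] using sEq i j a h
    · intro i j l a h1 h2 h3; simpa [I0] using sAdd i j l a h1 h2 h3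
    · intro i j l a h1 h2 h3 h4 h5 h6; simpa [I0] using sMul i j l a h1 h2 h3 h4 h5 h6
    · intro i j a h1 h2 h3; simpa [I0] using sLt i j a h1 h2 h3
    · intro i j a h1 h2 h3; simpa [I0] using sGe i j a h1 h2 h3
    · intro i a; simpa [I0] using sBit i a
  have key := LF.ind (p := p) (B := B) (body := body M m) I0 (by
    intro n a h
    cases n with
    | st q =>
      intro ha
      simp only [body, Ex.den, den_zeroB, den_cnd, den_predB hl.mul, den_orF] at h
      rcases h with ⟨h1, h2⟩ | ⟨a', h1, h2, s, h3, h4⟩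
      · rw [h1, h2]; rfl
      · obtain ⟨e1, e2⟩ := scan_snd hs ((h1.sc 0).trans ha) h4
        rw [← h2, cfg_succ, step_state, ← e1, ← e2, h3]
    | hd j =>
      intro ha
      simp only [body, Ex.den, den_zeroB, den_cnd, den_predB hl.mul, den_orF] at h
      rcases h with ⟨h1, h2⟩ | ⟨a', h1, h2, s, h3, h4⟩
      · rw [h1, h2]; rfl
      · have ha' := (h1.sc 0).trans ha
        obtain ⟨e1, e2⟩ := scan_snd hs ha' h3
        rw [← h2, cfg_succ, step_head, ← e1, ← e2, ← h1.ff]
        revert h4
        cases ((dlt M s.1 s.2).2 j).2 with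
        | stay => intro h4; exact hs.hd _ _ ha' h4
        | right =>
          intro h4
          simp only [mvE, den_predB hl.mul] at h4
          obtain ⟨a2, g1, g2, g3⟩ := h4
          have := hs.hd _ _ ((g1.sc 0).trans ha') g3
          rw [g1.tt] at this
          simp only [Move.act]; omega
        | left =>
          intro h4
          simp only [mvE, den_succB hl.mul, Ex.den, den_zeroB] at h4
          rcases h4 with ⟨g1, g2⟩ | ⟨a2, g1, g2, g3⟩
          · have := hs.hd _ _ ha' g2
            simp only [Move.act]; omega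
          · have := hs.hd _ _ ((g1.sc 0).trans ha') g3
            rw [g1.tt] at this
            simp only [Move.act]; omega
    | cl j g =>
      intro ha
      simp only [body, Ex.den, den_zeroB, den_cnd, den_predB hl.mul, den_orF, den_other hl] at h
      rcases h with ⟨h1, h2⟩ | ⟨a', h1, h2, h3⟩
      · rw [h1]; exact (hI j g a ha).1 (toJ h2)
      · have ha' := (h1.sc 0).trans ha
        rw [← h2, cfg_succ, step_tape, ← h1.ff]
        rcases h3 with ⟨h3, d, a2, g1, g2, g3⟩ | ⟨h3, s, h4, h5⟩
        · have e1 := hs.hd _ _ ((g1.sc 0).trans (by simpa using ha')) g3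
          rw [g1.tt, bv_update] at e1
          rw [update_of_ne, hs.cl _ _ _ ha' h3]
          rw [e1]
          intro e2
          exact g2 (congrFun (dval_inj e2) d)
        · obtain ⟨e1, e2⟩ := scan_snd hs ha' h5
          rw [← hs.hd _ _ ha' h3, update_self, ← e1, ← e2, h4]
    | _ => trivial)
  exact ⟨fun _ _ ha h => key _ _ h ha, fun _ _ ha h => key _ _ h ha,
    fun _ _ _ ha h => key _ _ h ha⟩

theorem cmp_J
    (hI : ∀ j g a, a rc = c0 → ((InitE j g : EE M m).den B (JJ M m p B) a ↔
      (init M x).tape j (bv true a) = g)) (t : ℕ) : Cmp c0 x (JJ M m p B) t := by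
  have hl := low_J (M := M) (m := m) (p := p) (B := B)
  induction t with
  | zero =>
    refine ⟨fun a ha ht => LF.intro ?_, fun j a ha ht h => LF.intro ?_, fun j a ha ht => LF.intro ?_⟩
    · simp only [body, Ex.den, den_zeroB, den_cnd]
      exact Or.inl ⟨ht, rfl⟩
    · simp only [body, Ex.den, den_zeroB]
      exact Or.inl ⟨ht, h.symm⟩
    · simp only [body, Ex.den, den_zeroB]
      exact Or.inl ⟨ht, (hI _ _ a ha).2 rfl⟩
  | succ t ih =>
    have hp : ∀ a : Reg m → ZMod p, bv false a = t + 1 → ∃ a', Off false a a' ∧ bv false a' = t :=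
      fun a ht => exists_off false a (by have := bv_lt false a; omega)
    refine ⟨fun a ha ht => LF.intro ?_, fun j a ha ht h => LF.intro ?_, fun j a ha ht => LF.intro ?_⟩
    · simp only [body, Ex.den, den_cnd, den_predB hl.mul, den_orF]
      obtain ⟨a', h1, h2⟩ := hp a ht
      refine Or.inr ⟨a', h1, by omega, ((cfg M x t).state, scan (cfg M x t)), ?_, scan_cmp ih ((h1.sc 0).trans ha) h2⟩
      rw [cfg_succ, step_state]
    · simp only [body, Ex.den, den_cnd, den_predB hl.mul, den_orF]
      obtain ⟨a', h1, h2⟩ := hp a ht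
      have ha' := (h1.sc 0).trans ha
      refine Or.inr ⟨a', h1, by omega, ((cfg M x t).state, scan (cfg M x t)), scan_cmp ih ha' h2, ?_⟩
      dsimp only
      rw [cfg_succ, step_head, ← h1.ff] at h
      revert h
      have hh := head_le (M := M) x t j
      have hb := bv_lt false a
      cases ((dlt M (cfg M x t).state (scan (cfg M x t))).2 j).2 with
      | stay => intro h; exact ih.hd j a' ha' h2 h
      | right =>
        intro h
        simp only [mvE, den_predB hl.mul, Move.act] at h ⊢
        obtain ⟨a2, g1, g2⟩ := exists_off true a' (n := (cfg M x t).head j) (by omega)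
        exact ⟨a2, g1, by omega, ih.hd j a2 ((g1.sc 0).trans ha') (g1.tt.trans h2) g2.symm⟩
      | left =>
        intro h
        simp only [mvE, den_succB hl.mul, Move.act, Ex.den, den_zeroB] at h ⊢
        by_cases h0 : (cfg M x t).head j = 0
        · exact Or.inl ⟨by omega, ih.hd j a' ha' h2 (by omega)⟩
        · obtain ⟨a2, g1, g2⟩ := exists_off true a' (n := (cfg M x t).head j) (by omega)
          exact Or.inr ⟨a2, g1, by omega,
            ih.hd j a2 ((g1.sc 0).trans ha') (g1.tt.trans h2) g2.symm⟩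
    · simp only [body, Ex.den, den_cnd, den_predB hl.mul, den_orF, den_other hl]
      obtain ⟨a', h1, h2⟩ := hp a ht
      have ha' := (h1.sc 0).trans ha
      refine Or.inr ⟨a', h1, by omega, ?_⟩
      rw [cfg_succ, step_tape, ← h1.ff]
      by_cases e : (cfg M x t).head j = bv true a'
      · right
        refine ⟨ih.hd j a' ha' h2 e, ((cfg M x t).state, scan (cfg M x t)), ?_, scan_cmp ih ha' h2⟩
        rw [← e, update_self]
      · left
        rw [update_of_ne (Ne.symm e)]
        refine ⟨ih.cl j a' ha' h2, ?_⟩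
        have hh := head_le (M := M) x t j
        have hb := bv_lt false a
        obtain ⟨a2, g1, g2⟩ := exists_off true a' (n := (cfg M x t).head j) (by omega)
        have : ∃ d, a' (dH d) ≠ a2 (dH d) := by
          by_contra h'
          push Not at h'
          apply e
          rw [← g2]
          unfold bv
          congr 1
          funext d
          exact (h' d).symm
        obtain ⟨d, hd⟩ := this
        refine ⟨d, update a2 rt1 (a' (dH d)), ?_, by simpa using hd, ih.hd j _ ?_ ?_ ?_⟩
        · intro r hr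
          by_cases e : r = rt1
          · subst e; simp
          · rw [update_of_ne e, update_of_ne e, g1 r hr]
        · simpa using (g1.sc 0).trans ha'
        · rw [bv_update, g1.tt, h2]
        · rw [bv_update, g2]

theorem start_iff
    (hI : ∀ j g a, a rc = c0 → ((InitE j g : EE M m).den B (JJ M m p B) a ↔
      (init M x).tape j (bv true a) = g)) (a : Reg m → ZMod p) (ha : a rc = c0) :
    JJ M m p B .start a ↔ ∃ t < p ^ (m + 5), run M x t = some true := by
  constructor
  · intro h
    refine LF.ind (p := p) (B := B) (body := body M m) (fun n a => match n with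
      | .start => a rc = c0 → ∃ t < p ^ (m + 5), run M x t = some true | _ => True) ?_ _ _ h ha
    intro n a h
    cases n with
    | start =>
      intro ha
      have h := toJ h
      simp only [body, den_exB, den_orF, Ex.den, den_cnd] at h
      obtain ⟨a', h1, q, h2, h3⟩ := h
      refine ⟨bv false a', bv_lt _ _, ?_⟩
      rw [← h2, ← (snd_J hI).st _ _ ((h1.sc 0).trans ha) h3]
      rfl
    | _ => trivial
  · rintro ⟨t, h1, h2⟩
    apply LF.intro
    simp only [body, den_exB, den_orF, Ex.den, den_cnd]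
    obtain ⟨a', g1, g2⟩ := exists_off false a h1
    exact ⟨a', g1, _, h2, (cmp_J hI t).st a' ((g1.sc 0).trans ha) g2⟩

end Vale.Agent.P310
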