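import Vale.Agent.P310.Lin2
import Vale.Agent.P310.Dup
import Vale.Agent.P310.Game

namespace Vale.Agent.P310
open Finset Function

abbrev VTy (Q E R : Type) (L D : ℕ) :=
  (Q × R × Fin (L + 2)) ⊕ (E × R × Fin (L + 2) × Fin (D + 1)) ⊕ (Option R × Fin (L + 1))
abbrev RTy (E R : Type) (L D : ℕ) := (E × R × Fin (L + 2) × Fin D) ⊕ (Option R × Fin L)

variable {Q E R Cw Z : Type} [AddCommGroup Cw] [AddCommGroup Z] {L D : ℕ}

namespace HM
variable (M : HM Q E R Cw Z (L + 2) (D + 1))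

def node : Option R → Nd Q R Cw
  | none => M.ini
  | some r => (M.acc, r, 0)

/-- tail slot -/
def tlT (e : E) (r : R) (l : Fin (L + 2)) (j : Fin (D + 1)) : VTy Q E R L D × Z :=
  (Sum.inl (M.sc e (M.cls j), M.tl e r j, l), M.enc (M.dl e (M.cls j)) l)
/-- chain slot -/
def cvT (e : E) (r : R) (l : Fin (L + 2)) (j : Fin (D + 1)) : VTy Q E R L D × Z :=
  if j = 0 then M.tlT e r l 0 else if j = Fin.last D then (Sum.inl (M.hd e, r, l), 0)
  else (Sum.inr (Sum.inl (e, r, l, j)), 0)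
def xT (o : Option R) (l : Fin (L + 2)) : VTy Q E R L D × Z :=
  (Sum.inl ((M.node o).1, (M.node o).2.1, l), M.enc (M.node o).2.2 l)
def pvT (o : Option R) (m : Fin (L + 1)) : VTy Q E R L D × Z :=
  if m = 0 then M.xT o 0 else if m = Fin.last L then M.xT o (Fin.last (L + 1))
  else (Sum.inr (Sum.inr (o, m)), 0)

def slotoff : RTy E R L D → Fin 3 → VTy Q E R L D × Z
  | Sum.inl t => ![M.cvT t.1 t.2.1 t.2.2.1 t.2.2.2.castSucc, M.tlT t.1 t.2.1 t.2.2.1 t.2.2.2.succ,
      M.cvT t.1 t.2.1 t.2.2.1 t.2.2.2.succ]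
  | Sum.inr t => ![M.pvT t.1 t.2.castSucc, M.xT t.1 t.2.succ.castSucc, M.pvT t.1 t.2.succ]

def spR : RTy E R L D → Prop
  | Sum.inl _ => False
  | Sum.inr _ => True

open Classical in
noncomputable def rhsR : RTy E R L D → ZMod 2
  | Sum.inl _ => 0
  | Sum.inr t => if t.1 = none ∧ t.2.succ = Fin.last L then 1 else 0

lemma slot_inj (hinj : ∀ e r, Injective (M.tl e r)) (hne : ∀ e r j, M.tl e r j ≠ r)
    (ρ : RTy E R L D) : Injective (fun i => (M.slotoff ρ i).1) := by
  have key : ∀ a b c : VTy Q E R L D × Z, a.1 ≠ b.1 → a.1 ≠ c.1 → b.1 ≠ c.1 →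
      Injective (fun i => ((![a, b, c] : Fin 3 → _) i).1) := by
    intro a b c h1 h2 h3 i j h
    fin_cases i <;> fin_cases j <;> simp_all
  rcases ρ with ⟨e, r, l, i⟩ | ⟨o, i⟩
  · have n1 : i.castSucc ≠ Fin.last D := (Fin.castSucc_lt_last i).ne
    have n2 : i.succ ≠ 0 := Fin.succ_ne_zero i
    have n3 : i.castSucc ≠ i.succ := (Fin.castSucc_lt_succ (i := i)).ne
    refine key _ _ _ ?_ ?_ ?_
    · simp only [cvT, tlT, n1, if_false]
      split_ifs with h
      · simp only [ne_eq, Sum.inl.injEq, Prod.mk.injEq, not_and]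
        intro _ h2
        exact absurd (hinj _ _ h2) n2.symm
      · simp
    · simp only [cvT, tlT, n1, n2, if_false]
      split_ifs with h h' h'
      · simp [hne]
      · simp
      · simp
      · simp [n3]
    · simp only [cvT, tlT, n2, if_false]
      split_ifs with h
      · simp [hne]
      · simp
  · have n1 : i.castSucc ≠ Fin.last L := (Fin.castSucc_lt_last i).ne
    have n2 : i.succ ≠ 0 := Fin.succ_ne_zero i
    have n3 : i.castSucc ≠ i.succ := (Fin.castSucc_lt_succ (i := i)).ne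
    refine key _ _ _ ?_ ?_ ?_
    · simp only [pvT, xT, n1, if_false]
      split_ifs with h
      · simp [Fin.ext_iff]
      · simp
    · simp only [pvT, xT, n1, n2, if_false]
      split_ifs with h h' h'
      · simp [Fin.ext_iff]
      · simp
      · simp
      · simp [n3]
    · simp only [pvT, xT, n2, if_false]
      split_ifs with h
      · simp [Fin.ext_iff]; omega
      · simp

variable [Fintype Q] [Fintype E] [Fintype R]

noncomputable def codeS (s : VTy Q E R L D ⊕ RTy E R L D) : ℕ := by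
  classical exact (Fintype.equivFin _ s).val

noncomputable def NS (Q E R : Type) [Fintype Q] [Fintype E] [Fintype R] (L D : ℕ) : ℕ := by
  classical exact Fintype.card (VTy Q E R L D ⊕ RTy E R L D) + 1

noncomputable def sys (hinj : ∀ e r, Injective (M.tl e r)) (hne : ∀ e r j, M.tl e r j ≠ r) :
    RSys (VTy Q E R L D) (RTy E R L D) Z where
  slot ρ i := (M.slotoff ρ i).1
  off ρ i := (M.slotoff ρ i).2
  sp := spR
  rhs := rhsR
  N := NS Q E R L D
  code := codeS
  code_inj := fun a b h => by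
    classical exact (Fintype.equivFin _).injective (Fin.ext h)
  code_le := fun s => by
    classical
    have := (Fintype.equivFin _ s).2
    unfold codeS NS
    exact Nat.succ_le_succ this
  slot_inj := M.slot_inj hinj hne

/-- shift of a slot -/
def sh (t : VTy Q E R L D × Z) (v : Z) : VTy Q E R L D × Z := (t.1, v + t.2)

def xv (x : XV Q R Z (L + 2)) : VTy Q E R L D × Z := (Sum.inl (x.1, x.2.1, x.2.2.1), x.2.2.2)

noncomputable def preC (γ : Ch E R Z (L + 2)) (n : ℕ) : XV Q R Z (L + 2) → ZMod 2 :=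
  ∑ j ∈ univ.filter (fun j : Fin (D + 1) => (j : ℕ) ≤ n), ind (M.tv γ j)
noncomputable def preP (o : Option R) (n : ℕ) : XV Q R Z (L + 2) → ZMod 2 :=
  ∑ l ∈ univ.filter (fun l : Fin (L + 2) => (l : ℕ) ≤ n), ind (M.nv (M.node o) l)

noncomputable def pi : VTy Q E R L D × Z → XV Q R Z (L + 2) → ZMod 2
  | (Sum.inl t, v) => ind (t.1, t.2.1, t.2.2, v)
  | (Sum.inr (Sum.inl t), v) => M.preC (t.1, t.2.1, t.2.2.1, v) t.2.2.2
  | (Sum.inr (Sum.inr t), _) => M.preP t.1 t.2

lemma sum_le_succ {n : ℕ} {X : Type} (f : Fin n → X → ZMod 2) (m : ℕ) (j : Fin n)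
    (hj : (j : ℕ) = m + 1) :
    ∑ j ∈ univ.filter (fun j : Fin n => (j : ℕ) ≤ m + 1), f j =
      ∑ j ∈ univ.filter (fun j : Fin n => (j : ℕ) ≤ m), f j + f j := by
  have : univ.filter (fun j : Fin n => (j : ℕ) ≤ m + 1) =
      insert j (univ.filter (fun j : Fin n => (j : ℕ) ≤ m)) := by
    ext i
    simp only [mem_filter, mem_univ, true_and, mem_insert, Fin.ext_iff]
    omega
  rw [this, sum_insert (by simp; omega), add_comm]

lemma sum_le_zero {n : ℕ} {X : Type} (f : Fin (n + 1) → X → ZMod 2) :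
    ∑ j ∈ univ.filter (fun j : Fin (n + 1) => (j : ℕ) ≤ 0), f j = f 0 := by
  have : univ.filter (fun j : Fin (n + 1) => (j : ℕ) ≤ 0) = {0} := by
    ext i
    simp only [mem_filter, mem_univ, true_and, mem_singleton, Fin.ext_iff, Fin.val_zero]
    omega
  rw [this, sum_singleton]

lemma sum_le_all {n : ℕ} {X : Type} (f : Fin (n + 1) → X → ZMod 2) :
    ∑ j ∈ univ.filter (fun j : Fin (n + 1) => (j : ℕ) ≤ n), f j = ∑ j, f j := by
  rw [filter_true_of_mem]
  intro j _
  omega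

omit [Fintype Q] [Fintype E] [Fintype R] in
lemma sh_tlT (e : E) (r : R) (l : Fin (L + 2)) (j : Fin (D + 1)) (v : Z) :
    sh (M.tlT e r l j) v = xv (M.tv (e, r, l, v) j) := rfl

omit [Fintype Q] [Fintype E] [Fintype R] in
lemma sh_xT (o : Option R) (l : Fin (L + 2)) : sh (M.xT o l) 0 = xv (M.nv (M.node o) l) := by
  simp [sh, xT, xv, nv]

omit [Fintype Q] [Fintype E] [Fintype R] in
lemma pi_xv (x : XV Q R Z (L + 2)) : M.pi (xv x) = ind x := rfl

omit [Fintype Q] [Fintype E] [Fintype R] in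
lemma pi_cv (e : E) (r : R) (l : Fin (L + 2)) (j : Fin (D + 1)) (v : Z) (hj : j ≠ Fin.last D) :
    M.pi (sh (M.cvT e r l j) v) = M.preC (e, r, l, v) j := by
  unfold cvT
  split_ifs with h
  · subst h
    rw [sh_tlT, pi_xv]
    exact (sum_le_zero (fun j => ind (M.tv (e, r, l, v) j))).symm
  · simp [sh, pi]

omit [Fintype Q] [Fintype E] [Fintype R] in
lemma sh_cv_last (e : E) (r : R) (l : Fin (L + 2)) (v : Z) (hD : Fin.last D ≠ 0) :
    sh (M.cvT e r l (Fin.last D)) v = xv (M.hv (e, r, l, v)) := by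
  simp [cvT, hD, sh, xv, hv]

omit [Fintype Q] [Fintype E] [Fintype R] in
lemma pi_pv (o : Option R) (m : Fin (L + 1)) (hm : m ≠ Fin.last L) :
    M.pi (sh (M.pvT o m) 0) = M.preP o m := by
  unfold pvT
  split_ifs with h
  · subst h
    rw [sh_xT, pi_xv]
    exact (sum_le_zero (fun l => ind (M.nv (M.node o) l))).symm
  · simp [sh, pi]

lemma add2 {X : Type} (a : X → ZMod 2) : a + a = 0 := by
  funext x
  exact (by decide : ∀ a : ZMod 2, a + a = 0) _

omit [Fintype Q] [Fintype E] [Fintype R] in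
lemma imp_zero : M.Imp 0 0 := by
  classical
  exact ⟨∅, ∅, {0, M.a0}, ⟨by simp, by simp, by simp, by simp, by simp, by simp⟩, by simp,
    card_le_two.trans (by omega)⟩

omit [Fintype Q] [Fintype E] [Fintype R] in
lemma row_imp (hna : ¬ M.Acc M.q0 M.a0) (ρ : RTy E R L D) (v : Z) (hv : spR ρ → v = 0) :
    M.Imp (∑ i, M.pi (sh (M.slotoff ρ i) v)) (rhsR ρ) := by
  classical
  rw [Fin.sum_univ_three]
  rcases ρ with ⟨e, r, l, i⟩ | ⟨o, i⟩
  · have n1 : i.castSucc ≠ Fin.last D := (Fin.castSucc_lt_last i).ne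
    simp only [slotoff, Matrix.cons_val_zero, Matrix.cons_val_one, Matrix.cons_val, rhsR]
    rw [pi_cv _ _ _ _ _ _ n1, sh_tlT, pi_xv]
    have hs : M.preC (e, r, l, v) i.castSucc + ind (M.tv (e, r, l, v) i.succ)
        = M.preC (e, r, l, v) i.succ := (sum_le_succ _ i i.succ rfl).symm
    rw [hs]
    by_cases h : i.succ = Fin.last D
    · rw [h, sh_cv_last _ _ _ _ _ (h ▸ Fin.succ_ne_zero i), pi_xv]
      refine ⟨{(e, r, l, v)}, ∅, {0, M.a0}, ⟨by simp, by simp, by simp, by simp, by simp, ?_⟩,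
        by simp; omega, card_le_two.trans (by omega)⟩
      rw [sum_singleton, sum_empty, add_zero, Lam, add_comm (ind _)]
      congr 1
      exact sum_le_all _
    · rw [pi_cv _ _ _ _ _ _ h, add2]
      exact M.imp_zero
  · obtain rfl := hv trivial
    have n1 : i.castSucc ≠ Fin.last L := (Fin.castSucc_lt_last i).ne
    simp only [slotoff, Matrix.cons_val_zero, Matrix.cons_val_one, Matrix.cons_val, rhsR]
    rw [pi_pv _ _ _ n1, sh_xT, pi_xv]
    have hs : M.preP o i.castSucc + ind (M.nv (M.node o) i.succ.castSucc)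
        = M.preP o i.succ := (sum_le_succ _ i i.succ.castSucc rfl).symm
    rw [hs]
    by_cases h : i.succ = Fin.last L
    · have h0 : Fin.last L ≠ 0 := h ▸ Fin.succ_ne_zero i
      have e1 : M.pvT o (Fin.last L) = M.xT o (Fin.last (L + 1)) := by simp [pvT, h0]
      rw [h, e1, sh_xT, pi_xv]
      refine ⟨∅, {M.node o}, {0, M.a0}, ⟨by simp, by simp, ?_, ?_, ?_, ?_⟩,
        by simp, card_le_two.trans (by omega)⟩
      · rcases o with _ | r <;> simp [node, ini]
      · rcases o with _ | r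
        · simp [node]
        · simp [node, Acc.base]
      · rcases o with _ | r
        · simp [node]
        · simp only [reduceCtorEq, false_and, if_false, node, mem_singleton]
          rw [if_neg]
          intro h2
          apply hna
          simp only [ini, Prod.mk.injEq] at h2
          rw [h2.1, h2.2.2]
          exact Acc.base
      · rw [sum_singleton, sum_empty, zero_add, U, ← sum_le_all]
        exact (sum_le_succ _ L (Fin.last (L + 1)) rfl).symm
    · rw [pi_pv _ _ _ h, add2]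
      simp only [h, and_false, if_false]
      exact M.imp_zero

omit [Fintype Q] [Fintype E] [Fintype R] in
lemma small_sum (φ : Finset (VTy Q E R L D × Z)) (hφ : φ.card ≤ 10 * (L + 2)) :
    ∃ Γ0 J P, M.Small (∑ z ∈ φ, M.pi z) Γ0 J P := by
  classical
  let f1 : VTy Q E R L D × Z → Finset (Ch E R Z (L + 2)) := fun z => match z with
    | (Sum.inr (Sum.inl t), v) => {(t.1, t.2.1, t.2.2.1, v)}
    | _ => ∅
  let f2 : VTy Q E R L D × Z → Finset (XV Q R Z (L + 2)) := fun z => match z with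
    | (Sum.inl t, v) => {(t.1, t.2.1, t.2.2, v)}
    | _ => ∅
  let f3 : VTy Q E R L D × Z → Finset (Nd Q R Cw) := fun z => match z with
    | (Sum.inr (Sum.inr t), _) => {M.node t.1}
    | _ => ∅
  have hc : ∀ {X : Type} [DecidableEq X] (f : VTy Q E R L D × Z → Finset X), (∀ z, (f z).card ≤ 1) →
      (φ.biUnion f).card ≤ 10 * (L + 2) := by
    intro X _ f hf
    refine card_biUnion_le.trans (le_trans ?_ hφ)
    calc ∑ z ∈ φ, (f z).card ≤ ∑ _z ∈ φ, 1 := sum_le_sum fun z _ => hf z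
      _ = φ.card := by simp
  refine ⟨φ.biUnion f1, φ.biUnion f2, φ.biUnion f3, hc _ ?_, hc _ ?_, hc _ ?_, ?_, ?_⟩
  · rintro ⟨t | t | t, v⟩ <;> simp [f1]
  · rintro ⟨t | t | t, v⟩ <;> simp [f2]
  · rintro ⟨t | t | t, v⟩ <;> simp [f3]
  · intro ν hν
    obtain ⟨⟨t | t | ⟨_ | r, m⟩, v⟩, -, h⟩ := mem_biUnion.1 hν
    · simp [f3] at h
    · simp [f3] at h
    · simp only [f3, mem_singleton] at h
      rw [h]; exact Or.inr rfl
    · simp only [f3, mem_singleton] at h
      rw [h]; exact Or.inl rfl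
  · intro x hx
    obtain ⟨⟨t | t | t, v⟩, hz, h⟩ := sum_ne_zero_ex hx
    · exact Or.inl (mem_biUnion.2 ⟨_, hz, by simp [f2, eq_of_ind h]⟩)
    · simp only [pi, preC] at h
      obtain ⟨j, -, hj⟩ := sum_ne_zero_ex h
      exact Or.inr (Or.inl ⟨_, mem_biUnion.2 ⟨_, hz, by simp [f1]⟩, j, eq_of_ind hj⟩)
    · simp only [pi, preP] at h
      obtain ⟨j, -, hj⟩ := sum_ne_zero_ex h
      exact Or.inr (Or.inr ⟨_, mem_biUnion.2 ⟨_, hz, by simp [f3]⟩, j, eq_of_ind hj⟩)

def Vs (Y : Finset (VTy Q E R L D × Z)) (α : VTy Q E R L D × Z → ZMod 2) : Prop :=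
  ∀ φ ⊆ Y, ∀ β, M.Imp (∑ z ∈ φ, M.pi z) β → ∑ z ∈ φ, α z = β

omit [Fintype Q] [Fintype E] [Fintype R] in
lemma ext1 [DecidableEq (VTy Q E R L D × Z)] {κ d : ℕ} (hG : M.Good κ d) (hna : ¬ M.Acc M.q0 M.a0)
    (Y : Finset (VTy Q E R L D × Z)) (y : VTy Q E R L D × Z)
    (hc : (insert y Y).card ≤ 10 * (L + 2)) (α : VTy Q E R L D × Z → ZMod 2) (h : M.Vs Y α) :
    ∃ α', M.Vs (insert y Y) α' ∧ ∀ z ∈ Y, α' z = α z := by
  by_cases hy : y ∈ Y
  · exact ⟨α, by rwa [insert_eq_of_mem hy], fun _ _ => rfl⟩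
  have hag : ∀ c, ∀ z ∈ Y, update α y c z = α z := fun c z hz =>
    update_of_ne (fun e : z = y => hy (e ▸ hz)) _ _
  have hno : ∀ c, ∀ φ ⊆ insert y Y, y ∉ φ → ∀ β, M.Imp (∑ z ∈ φ, M.pi z) β →
      ∑ z ∈ φ, update α y c z = β := by
    intro c φ h1 h2 β h3
    have h4 : φ ⊆ Y := (subset_insert_iff_of_notMem h2).1 h1
    rw [← h φ h4 β h3]
    exact sum_congr rfl fun z hz => hag c z (h4 hz)
  by_cases hex : ∃ φ ⊆ insert y Y, y ∈ φ ∧ ∃ β, M.Imp (∑ z ∈ φ, M.pi z) β
  · obtain ⟨φ0, h1, h2, β0, h3⟩ := hex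
    set c := β0 + ∑ z ∈ φ0.erase y, α z
    have h0 : ∑ z ∈ φ0, update α y c z = β0 := by
      rw [← add_sum_erase _ _ h2, update_self, sum_congr rfl (g := α)
        (fun z hz => update_of_ne (ne_of_mem_erase hz) _ _)]
      exact (by decide : ∀ a b : ZMod 2, a + b + b = a) _ _
    refine ⟨update α y c, fun φ g1 β g2 => ?_, hag c⟩
    by_cases g3 : y ∈ φ
    · have hsub : symmDiff φ φ0 ⊆ insert y Y := by
        intro z hz
        rcases mem_symmDiff.1 hz with ⟨h, -⟩ | ⟨h, -⟩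
        exacts [g1 h, h1 h]
      obtain ⟨Γ0, J, P, hS⟩ := M.small_sum (symmDiff φ φ0) ((card_le_card hsub).trans hc)
      have g4 := hno c _ hsub (by simp [mem_symmDiff, g3, h2]) (β + β0) (by
        rw [sum_symmDiff2] at hS ⊢
        exact g2.add hG hna h3 hS)
      have g5 := congrFun (sum_symmDiff2 φ φ0 (fun z (_ : Unit) => update α y c z)) ()
      simp only [Finset.sum_apply, Pi.add_apply] at g5
      rw [g5, h0] at g4
      exact add_right_cancel g4
    · exact hno c φ g1 g3 β g2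
  · refine ⟨update α y 0, fun φ g1 β g2 => ?_, hag 0⟩
    exact hno 0 φ g1 (fun g3 => hex ⟨φ, g1, g3, β, g2⟩) β g2

theorem equiv_of_not_acc [Fintype Z] {Dm : Type} [Fintype Dm] {κ d k : ℕ} (hG : M.Good κ d)
    (hne : ∀ e r j, M.tl e r j ≠ r) (hk : 3 * (k + 1) ≤ 10 * (L + 2)) (hna : ¬ M.Acc M.q0 M.a0) :
    WLEq k ((M.sys hG.tl_inj hne).Gr Dm 0) ((M.sys hG.tl_inj hne).Gr Dm 1) := by
  classical
  refine RSys.dup _ hk M.Vs ?_ ?_ ?_ ?_
  · exact fun Y Y' α h1 h2 φ h3 => h2 φ (h3.trans h1)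
  · intro Y Y' α
    induction Y' using Finset.induction_on with
    | empty => exact fun _ h => ⟨α, by simpa using h, fun _ _ => rfl⟩
    | insert y Y' _ ih =>
      intro hc h
      rw [union_insert] at hc ⊢
      obtain ⟨α1, h1, h2⟩ := ih ((card_le_card (subset_insert _ _)).trans hc) h
      obtain ⟨α2, h3, h4⟩ := M.ext1 hG hna _ y hc α1 h1
      exact ⟨α2, h3, fun z hz => (h4 z (mem_union_left _ hz)).trans (h2 z hz)⟩
  · refine ⟨0, fun φ h β hβ => ?_⟩
    obtain rfl := subset_empty.1 h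
    rw [sum_empty] at hβ ⊢
    exact (hβ.zero hG hna).symm
  · intro Y α ρ v h1 h2 h3
    have hinj : Injective ((M.sys hG.tl_inj hne).var ρ v) := fun i j h => by
      have h' := congrArg Prod.fst h
      exact (M.sys hG.tl_inj hne).slot_inj ρ h'
    have := h1 (univ.image ((M.sys hG.tl_inj hne).var ρ v)) (by
      intro z hz
      obtain ⟨i, -, rfl⟩ := mem_image.1 hz
      exact h3 i) (rhsR ρ) (by
        rw [sum_image hinj.injOn]
        exact M.row_imp hna ρ v h2)
    rwa [sum_image hinj.injOn] at this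

end HM

end Vale.Agent.P310
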