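import Vale.Agent.P310.Arith

namespace Vale.Agent.P310
open Finset Function

variable {M : TM} {m p B : ℕ} [Fact p.Prime]

def idx (Q ω g τ τ' Δ : ℕ) : ℕ := (((Δ * Q + τ') * Q + τ) * Q + g) * Q + ω

def TabB (c Q ω g τ τ' Δ : ℕ) : Bool :=
  decide (τ < Q) && decide (τ' < Q) && decide (Δ < Q) && c.testBit (idx Q ω g τ τ' Δ)

lemma hor_lt {Q x y n : ℕ} (hx : x < Q ^ n) (hy : y < Q) : x * Q + y < Q ^ (n + 1) := by
  rw [pow_succ]; nlinarith

lemma idx_lt {Q ω g τ τ' Δ : ℕ} (h1 : ω < Q) (h2 : g < Q) (h3 : τ < Q) (h4 : τ' < Q) (h5 : Δ < Q) :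
    idx Q ω g τ τ' Δ < Q ^ 5 :=
  hor_lt (hor_lt (hor_lt (hor_lt (by simpa using h5) h4) h3) h2) h1

lemma den_hor {x : Reg m} (h1 : x ≠ rt1) (h2 : x ≠ rac) (e : EE M m) (a : Reg m → ZMod p) :
    (hor x e).den B (JJ M m p B) a ↔ e.den B (JJ M m p B)
      (update (update a rt1 (a rac * a rbq)) rac (a rac * a rbq + a x)) := by
  have e1 := fun a => sMul (M := M) (m := m) (p := p) (B := B) rac rbq rt1 a (by simp) (by simp)
    (by simp) (by simp) (by simp) (by simp)
  have e2 := fun a => sAdd (M := M) (m := m) (p := p) (B := B) rt1 x rac a h1.symm (by simp) h2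
  simp only [hor, Ex.den, e1, e2]
  simp [h1, h2]

lemma usr_dH (d : Fin (m + 5)) : Usr (dH d) := by simp [Usr]

lemma den_Tv (hp : (B * B) ^ 5 ≤ p) (hB : 2 ≤ B) (β : Bool) (ω : ℕ) (hω : ω ≤ 2)
    (τ τ' : Fin (m + 5)) (a : Reg m → ZMod p) (hg : (a (dH 4)).val < 2) :
    (Tv β ω τ τ' : EE M m).den B (JJ M m p B) a ↔
      TabB (a rc).val (B * B) ω (a (dH 4)).val (a (dH τ)).val (a (dH τ')).val (a rdl).val = β := by
  have e1 := fun a => sMul (M := M) (m := m) (p := p) (B := B) rb1 rb2 rbq a (by simp) (by simp)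
    (by simp) (by simp) (by simp) (by simp)
  have e2 := fun d a => sLt (M := M) (m := m) (p := p) (B := B) (dH d) rbq a (by simp) (usr_dH d)
    (by simp [Usr])
  have e3 := fun a => sLt (M := M) (m := m) (p := p) (B := B) rdl rbq a (by simp) (by simp [Usr])
    (by simp [Usr])
  have e4 := fun d a => sGe (M := M) (m := m) (p := p) (B := B) (dH d) rbq a (by simp) (usr_dH d)
    (by simp [Usr])
  have e5 := fun a => sGe (M := M) (m := m) (p := p) (B := B) rdl rbq a (by simp) (by simp [Usr])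
    (by simp [Usr])
  have e6 := fun d => den_hor (M := M) (p := p) (B := B) (x := dH (m := m) d) (by simp) (by simp)
  have e7 := den_hor (M := M) (p := p) (B := B) (x := rt2 (m := m)) (by simp) (by simp)
  have e8 := sBit (M := M) (m := m) (p := p) (B := B)
  unfold SBit at e8
  have hQ : 4 ≤ B * B := by nlinarith
  have hQp : B * B < p := lt_of_lt_of_le (by
    calc B * B = (B * B) ^ 1 := (pow_one _).symm
      _ < (B * B) ^ 5 := Nat.pow_lt_pow_right (by omega) (by omega)) hp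
  have hv : ((B : ZMod p) * B).val = B * B := by
    rw [← Nat.cast_mul, ZMod.val_natCast, Nat.mod_eq_of_lt hQp]
  simp only [Tv, Ex.den, den_cp sEq (by simp : rb2 ≠ rb1), den_cp sEq (by simp : rac ≠ rdl),
    den_cp sEq (by simp : rcc ≠ rc), e1, e2, e3, e4, e5, e6, e7, e8, den_Zt, den_isC, den_cnd]
  simp only [ne_eq, Sum.inr.injEq, Fin.reduceEq, not_false_eq_true, update_of_ne, update_self,
    Sh.val, Int.cast_neg, Int.cast_natCast, add_neg_eq_zero, exists_eq_left, exists_eq_left',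
    reduceCtorEq, hv]
  unfold TabB
  by_cases h1 : (a (dH τ)).val < B * B
  · by_cases h2 : (a (dH τ')).val < B * B
    · by_cases h3 : (a rdl).val < B * B
      · have h4 := idx_lt (by omega : ω < B * B) (by omega : (a (dH 4)).val < B * B) h1 h2 h3
        have h5 : ((((a rdl * (B * B) + a (dH τ')) * (B * B) + a (dH τ)) * (B * B) + a (dH 4)) *
            (B * B) + (ω : ZMod p)).val = idx (B * B) ω (a (dH 4)).val (a (dH τ)).val
              (a (dH τ')).val (a rdl).val := by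
          rw [← ZMod.val_cast_of_lt (lt_of_lt_of_le h4 hp)]
          congr 1
          simp [idx]
        simp [h1, h2, h3, h5, not_le.2 h1, not_le.2 h2, not_le.2 h3]
      · simp [h3, not_lt.1 h3, eq_comm]
    · simp [h2, not_lt.1 h2, eq_comm]
  · simp [h1, not_lt.1 h1, eq_comm]

lemma den_Dw (hp : (B * B) ^ 5 ≤ p) (hB : 2 ≤ B) (β : Bool) (ω : ℕ) (hω : ω ≤ 2) {s : Reg m}
    (τ τ' v' : Fin (m + 5)) (hs : s ≠ rdl) (hs' : s ≠ dH v') (a : Reg m → ZMod p)
    (hg : (a (dH 4)).val < 2) :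
    (Dw β ω s τ τ' v' : EE M m).den B (JJ M m p B) a ↔
      TabB (a rc).val (B * B) ω (a (dH 4)).val (a (dH τ)).val (a (dH τ')).val
        (a (dH v') - a s).val = β := by
  have e1 := fun a => sAdd (M := M) (m := m) (p := p) (B := B) s rdl (dH v') a hs hs' (by simp)
  simp only [Dw, Ex.den, e1]
  simp only [ne_eq, not_false_eq_true, update_of_ne, update_self, reduceCtorEq, hs,
    ← eq_sub_iff_add_eq', exists_eq_left]
  rw [den_Tv hp hB β ω hω _ _ _ (by simpa using hg)]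
  simp

def DB (Q : ℕ) (c g τ v τ' v' : ZMod p) : Bool :=
  TabB c.val Q 0 g.val τ.val τ'.val (v' - v).val || (decide (v = 0) &&
    (TabB c.val Q 1 g.val τ.val τ'.val (v' - v).val ||
      TabB c.val Q 2 g.val τ.val τ'.val (v' - c).val))

lemma den_Dv (hp : (B * B) ^ 5 ≤ p) (hB : 2 ≤ B) (β : Bool) (τ v τ' v' : Fin (m + 5))
    (hv : v ≠ v') (a : Reg m → ZMod p) (hg : (a (dH 4)).val < 2) :
    (Dv β τ v τ' v' : EE M m).den B (JJ M m p B) a ↔
      DB (B * B) (a rc) (a (dH 4)) (a (dH τ)) (a (dH v)) (a (dH τ')) (a (dH v')) = β := by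
  have e0 := fun β => den_Dw (M := M) hp hB β 0 (by omega) (s := dH v) τ τ' v' (by simp)
    (by simpa using hv) a hg
  have e1 := fun β => den_Dw (M := M) hp hB β 1 (by omega) (s := dH v) τ τ' v' (by simp)
    (by simpa using hv) a hg
  have e2 := fun β => den_Dw (M := M) hp hB β 2 (by omega) (s := rc) τ τ' v' (by simp)
    (by simp) a hg
  cases β
  · simp [Dv, Ex.den, e0, e1, e2, den_NZ sMul (usr_dH v), DB, imp_iff_not_or]
  · simp [Dv, Ex.den, e0, e1, e2, DB]

def AB (Q : ℕ) (c g τ v τ' v' : ZMod p) : Bool := DB Q c g τ v τ' v' || DB Q c g τ' v' τ v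

lemma den_Adjv (hp : (B * B) ^ 5 ≤ p) (hB : 2 ≤ B) (β : Bool) (a : Reg m → ZMod p)
    (hg : (a (dH 4)).val < 2) :
    (Adjv β : EE M m).den B (JJ M m p B) a ↔
      AB (B * B) (a rc) (a (dH 4)) (a (dH 3)) (a (dH 2)) (a (dH 1)) (a (dH 0)) = β := by
  have n : (2 : Fin (m + 5)) ≠ 0 := by
    intro h
    have h1 : 2 % (m + 5) = 0 := congrArg Fin.val h
    rw [Nat.mod_eq_of_lt (by omega)] at h1
    omega
  have e0 := fun β => den_Dv (M := M) hp hB β 3 2 1 0 n a hg
  have e1 := fun β => den_Dv (M := M) hp hB β 1 0 3 2 n.symm a hg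
  cases β
  · simp [Adjv, Ex.den, e0, e1, AB]
  · simp [Adjv, Ex.den, e0, e1, AB]

end Vale.Agent.P310
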