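import Vale.Agent.P310.Defs

namespace Vale.Agent.P310
open Finset Function

variable {V W : Type} [Fintype V] [Fintype W] {k : ℕ}

/-- equality of colours across two graphs -/
def E (A : SimpleGraph V) (B : SimpleGraph W) (k r : ℕ) (x : Fin k → V) (x' : Fin k → W) : Prop :=
  col A k r x = col B k r x'

lemma exists_equiv_of_map_eq {α β γ : Type} [Fintype α] [Fintype β] (f : α → γ) (g : β → γ)
    (h : (univ : Finset α).val.map f = (univ : Finset β).val.map g) :
    ∃ e : α ≃ β, ∀ a, f a = g (e a) := by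
  classical
  have hc : ∀ c, Fintype.card {a // f a = c} = Fintype.card {b // g b = c} := by
    intro c
    have h1 := congrArg (Multiset.count c) h
    rw [Multiset.count_map, Multiset.count_map] at h1
    rw [Fintype.card_subtype, Fintype.card_subtype]
    simp only [Finset.card, Finset.filter_val]
    simpa [eq_comm] using h1
  have he : ∀ c, Nonempty ({a // f a = c} ≃ {b // g b = c}) := fun c =>
    Fintype.card_eq.1 (hc c)
  refine ⟨Equiv.ofFiberEquiv (fun c => (he c).some), fun a => ?_⟩
  exact (Equiv.ofFiberEquiv_map (fun c => (he c).some) a).symm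

lemma map_eq_of_equiv {α β γ : Type} [Fintype α] [Fintype β] (f : α → γ) (g : β → γ)
    (e : α ≃ β) (h : ∀ a, f a = g (e a)) :
    (univ : Finset α).val.map f = (univ : Finset β).val.map g := by
  have : (univ : Finset β).val = (univ : Finset α).val.map e := by
    rw [← Finset.map_univ_equiv e]; rfl
  rw [this, Multiset.map_map]
  exact Multiset.map_congr rfl (fun a _ => h a)

variable {A : SimpleGraph V} {B : SimpleGraph W}

lemma E.pred {r : ℕ} {x : Fin k → V} {x' : Fin k → W} (h : E A B k (r + 1) x x') :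
    E A B k r x x' := congrArg Prod.fst h

lemma E.mono {r s : ℕ} {x : Fin k → V} {x' : Fin k → W} (h : E A B k s x x') (hrs : r ≤ s) :
    E A B k r x x' := by
  induction s, hrs using Nat.le_induction with
  | base => exact h
  | succ n _ ih => exact ih h.pred

lemma E.bij {r : ℕ} {x : Fin k → V} {x' : Fin k → W} (h : E A B k (r + 1) x x') :
    ∃ e : V ≃ W, ∀ y i, E A B k r (update x i y) (update x' i (e y)) := by
  have h2 := congrArg Prod.snd h
  obtain ⟨e, he⟩ := exists_equiv_of_map_eq _ _ h2
  exact ⟨e, fun y i => congrFun (he y) i⟩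

lemma E.succ {r : ℕ} {x : Fin k → V} {x' : Fin k → W} (h : E A B k r x x') (e : V ≃ W)
    (he : ∀ y i, E A B k r (update x i y) (update x' i (e y))) : E A B k (r + 1) x x' := by
  unfold E col
  refine Prod.ext h ?_
  exact map_eq_of_equiv _ _ e (fun y => funext fun i => he y i)

lemma E.eq_iff {r : ℕ} {x : Fin k → V} {x' : Fin k → W} (h : E A B k r x x') (i j : Fin k) :
    x i = x j ↔ x' i = x' j := by
  have h0 := h.mono (Nat.zero_le r)
  have := congrArg Prod.fst (congrFun (congrFun h0 i) j)
  exact Iff.of_eq this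

lemma E.adj_iff {r : ℕ} {x : Fin k → V} {x' : Fin k → W} (h : E A B k r x x') (i j : Fin k) :
    A.Adj (x i) (x j) ↔ B.Adj (x' i) (x' j) := by
  have h0 := h.mono (Nat.zero_le r)
  have := congrArg Prod.snd (congrFun (congrFun h0 i) j)
  exact Iff.of_eq this

lemma E.zero {x : Fin k → V} {x' : Fin k → W} (h1 : ∀ i j, x i = x j ↔ x' i = x' j)
    (h2 : ∀ i j, A.Adj (x i) (x j) ↔ B.Adj (x' i) (x' j)) : E A B k 0 x x' := by
  unfold E col
  funext i j
  exact Prod.ext (propext (h1 i j)) (propext (h2 i j))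

/-- number of neighbours with a property -/
noncomputable def nb (A : SimpleGraph V) (P : V → Prop) (u : V) : ℕ :=
  Nat.card {y // A.Adj u y ∧ P y}

/-- number of neighbours -/
noncomputable def dg (A : SimpleGraph V) (u : V) : ℕ := nb A (fun _ => True) u

/-- number of neighbours of degree one -/
noncomputable def lam (A : SimpleGraph V) (u : V) : ℕ := nb A (fun y => dg A y = 1) u

lemma E.nb_eq (hk : 2 ≤ k) {r : ℕ} {P : V → Prop} {P' : W → Prop}
    (hP : ∀ (x : Fin k → V) (x' : Fin k → W) (i : Fin k), E A B k r x x' → (P (x i) ↔ P' (x' i)))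
    {x : Fin k → V} {x' : Fin k → W} (h : E A B k (r + 1) x x') (i : Fin k) :
    nb A P (x i) = nb B P' (x' i) := by
  obtain ⟨e, he⟩ := h.bij
  haveI : Nontrivial (Fin k) := Fin.nontrivial_iff_two_le.2 hk
  obtain ⟨j, hj⟩ := exists_ne i
  refine Nat.card_congr (e.subtypeEquiv fun y => ?_)
  have h1 := (he y j).adj_iff i j
  have h2 := hP _ _ j (he y j)
  simp only [update_self, update_of_ne hj.symm] at h1 h2
  rw [h1, h2]

lemma E.lam_eq (hk : 2 ≤ k) {x : Fin k → V} {x' : Fin k → W} (h : E A B k 2 x x') (i : Fin k) :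
    lam A (x i) = lam B (x' i) := by
  refine E.nb_eq (r := 1) hk ?_ h i
  intro y y' j hy
  have : dg A (y j) = dg B (y' j) := E.nb_eq (r := 0) hk (fun _ _ _ _ => Iff.rfl) hy j
  rw [this]

lemma E.iso (φ : A ≃g B) (r : ℕ) (x : Fin k → V) : E A B k r x (φ ∘ x) := by
  induction r generalizing x with
  | zero =>
    refine E.zero (fun i j => ?_) (fun i j => ?_)
    · simp
    · simp [φ.map_rel_iff]
  | succ r ih =>
    refine (ih x).succ φ.toEquiv (fun y i => ?_)
    have := ih (update x i y)
    rwa [Function.comp_update] at this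

lemma WLEq.of_bij (Φ : (Fin k → V) ≃ (Fin k → W)) (h : ∀ r x, E A B k r x (Φ x)) :
    WLEq k A B := fun r => map_eq_of_equiv _ _ Φ (h r)

lemma WLEq.exists (h : WLEq k A B) (r : ℕ) (x : Fin k → V) : ∃ x', E A B k r x x' := by
  obtain ⟨e, he⟩ := exists_equiv_of_map_eq _ _ (h r)
  exact ⟨e x, he x⟩

lemma WLEq.iso (φ : A ≃g B) : WLEq k A B :=
  WLEq.of_bij (Equiv.arrowCongr (Equiv.refl _) φ.toEquiv) (fun r x => E.iso φ r x)

lemma WLEq.symm (h : WLEq k A B) : WLEq k B A := fun r => (h r).symm

lemma WLEq.trans {U : Type} [Fintype U] {C : SimpleGraph U} (h : WLEq k A B) (h' : WLEq k B C) :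
    WLEq k A C := fun r => (h r).trans (h' r)

end Vale.Agent.P310
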